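import Mathlib

/-! Part BW: the brick wall lemma in braid groups. -/

namespace Vale.Agent.P203
open CoxeterSystem

section
open Classical
variable {H : Type*} [Group H] (τ : ℕ → H)

/-- The ordered product of the `τ i` with `i < K` and `q i`. -/
noncomputable def BW_pr (q : ℕ → Prop) : ℕ → H
  | 0 => 1
  | K + 1 => BW_pr q K * if q K then τ K else 1

theorem BW_congr {q q' : ℕ → Prop} {K : ℕ} (h : ∀ i < K, q i ↔ q' i) :
    BW_pr τ q K = BW_pr τ q' K := by
  induction K with
  | zero => rfl
  | succ K ih =>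
    rw [BW_pr, BW_pr, ih fun i hi => h i (by omega)]
    simp only [h K (by omega)]

theorem BW_one {q : ℕ → Prop} {K : ℕ} (h : ∀ i < K, ¬ q i) : BW_pr τ q K = 1 := by
  induction K with
  | zero => rfl
  | succ K ih => rw [BW_pr, ih fun i hi => h i (by omega), if_neg (h K (by omega)), mul_one]

theorem BW_split (q : ℕ → Prop) (r K : ℕ) :
    BW_pr τ q K = BW_pr τ (fun i => q i ∧ i < r) K * BW_pr τ (fun i => q i ∧ r ≤ i) K := by
  induction K with
  | zero => simp [BW_pr]
  | succ K ih =>
    by_cases h : K < r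
    · rw [BW_one τ (q := fun i => q i ∧ r ≤ i) fun i hi => by omega, mul_one]
      exact BW_congr τ fun i hi => by simp; omega
    · rw [BW_pr, BW_pr, BW_pr, ih, if_neg (show ¬ (q K ∧ K < r) from fun a => h a.2), mul_one,
        mul_assoc]
      simp only [not_lt.1 h, and_true]

theorem BW_single {q : ℕ → Prop} {r K : ℕ} (hr : r < K) (h : ∀ i < K, q i ↔ i = r) :
    BW_pr τ q K = τ r := by
  induction K with
  | zero => omega
  | succ K ih =>
    rw [BW_pr]
    by_cases e : r = K
    · rw [BW_one τ fun i hi a => by have := (h i (by omega)).1 a; omega,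
        if_pos ((h K (by omega)).2 e.symm), one_mul, e]
    · rw [ih (by omega) fun i hi => h i (by omega),
        if_neg fun a => e ((h K (by omega)).1 a).symm, mul_one]

theorem BW_comm {q : ℕ → Prop} {K : ℕ} {x : H} (h : ∀ i < K, q i → Commute x (τ i)) :
    Commute x (BW_pr τ q K) := by
  induction K with
  | zero => exact Commute.one_right _
  | succ K ih =>
    refine (ih fun i hi => h i (by omega)).mul_right ?_
    split_ifs with a
    exacts [h K (by omega) a, Commute.one_right _]

theorem BW_shift {q : ℕ → Prop} {K : ℕ} {T : H} (h0 : ¬ q 0)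
    (h : ∀ i < K, q (i + 1) → τ (i + 1) * T = T * τ i) :
    BW_pr τ q (K + 1) * T = T * BW_pr τ (fun i => q (i + 1)) K := by
  induction K with
  | zero => simp [BW_pr, h0]
  | succ K ih =>
    rw [BW_pr, BW_pr.eq_2 τ (fun i => q (i + 1)), ← mul_assoc, ← ih fun i hi => h i (by omega),
      mul_assoc, mul_assoc]
    split_ifs with a
    · rw [h K (by omega) a]
    · simp

theorem BW_list (p K : ℕ) : (((List.range K).filter fun i => i % 2 = p).map τ).prod =
    BW_pr τ (fun i => i % 2 = p) K := by
  induction K with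
  | zero => rfl
  | succ K ih =>
    rw [List.range_succ, List.filter_append, List.map_append, List.prod_append, ih, BW_pr]
    by_cases a : K % 2 = p <;> simp [a]

/-- The brick wall with `m` rows. -/
noncomputable def BW_G (K p : ℕ) : ℕ → H
  | 0 => 1
  | m + 1 => BW_G K p m * BW_pr τ (fun i => i % 2 = (m + p) % 2) K

theorem BW_G_succ (K p p' m : ℕ) (h : p' % 2 = (p + 1) % 2) :
    BW_G τ K p (m + 1) = BW_pr τ (fun i => i % 2 = p % 2) K * BW_G τ K p' m := by
  induction m with
  | zero => simp [BW_G]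
  | succ m ih =>
    rw [BW_G, ih, BW_G, mul_assoc, show (m + 1 + p) % 2 = (m + p') % 2 by omega]

theorem BW_alt {B : Type*} (f : B → H) (K p m : ℕ) : ∀ s t : B,
    f t = BW_pr τ (fun i => i % 2 = (m + 1 + p) % 2) K →
    f s = BW_pr τ (fun i => i % 2 = (m + p) % 2) K →
    ((alternatingWord s t m).map f).prod = BW_G τ K p m := by
  induction m with
  | zero => intro s t _ _; rfl
  | succ m ih =>
    intro s t ht hs
    rw [show (m + 1 + 1 + p) % 2 = (m + p) % 2 by omega] at ht
    rw [alternatingWord_succ, List.map_concat, List.prod_concat, ih t s hs ht, BW_G, ht]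

theorem BW_main (k : ℕ)
    (hb : ∀ i, i + 1 < k → τ i * τ (i + 1) * τ i = τ (i + 1) * τ i * τ (i + 1))
    (hc : ∀ i j, i + 2 ≤ j → j < k → τ i * τ j = τ j * τ i) :
    BW_G τ k 0 (k + 1) = BW_G τ k 1 (k + 1) := by
  induction k with
  | zero => rfl
  | succ j ih =>
    have ih' := ih (fun i hi => hb i (by omega)) fun a b h1 h2 => hc a b h1 (by omega)
    have hT : ∀ r < j + 1, BW_pr τ (fun i => r ≤ i) (j + 1) =
        τ r * BW_pr τ (fun i => r + 1 ≤ i) (j + 1) := by
      intro r hr
      rw [BW_split τ _ (r + 1), BW_single τ hr fun i _ => by omega]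
      congr 1
      exact BW_congr τ fun i _ => by omega
    have hS : ∀ r i, r ≤ i → i < j → τ (i + 1) * BW_pr τ (fun i => r ≤ i) (j + 1) =
        BW_pr τ (fun i => r ≤ i) (j + 1) * τ i := by
      intro r i h1 h2
      have e : BW_pr τ (fun x => r ≤ x ∧ i ≤ x) (j + 1) = BW_pr τ (fun x => i ≤ x) (j + 1) :=
        BW_congr τ fun x _ => by omega
      have c1 : Commute (τ (i + 1)) (BW_pr τ (fun x => r ≤ x ∧ x < i) (j + 1)) :=
        BW_comm τ fun x _ hx => (hc x (i + 1) (by omega) (by omega)).symm
      have c2 : Commute (τ i) (BW_pr τ (fun x => i + 1 + 1 ≤ x) (j + 1)) :=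
        BW_comm τ fun x h3 hx => hc i x (by omega) h3
      rw [BW_split τ _ i, e, hT i (by omega), hT (i + 1) (by omega), ← mul_assoc, c1.eq]
      simp only [mul_assoc]
      rw [← c2.eq]
      congr 1
      simp only [← mul_assoc]
      rw [hb i (by omega)]
    have hX : ∀ r ≤ j + 1, BW_G τ (j + 1) 0 r * BW_pr τ (fun i => r ≤ i) (j + 1) *
        BW_pr τ (fun i => i % 2 = r % 2 ∧ i < r) (j + 1) =
        BW_pr τ (fun i => 0 ≤ i) (j + 1) * BW_G τ j 1 r := by
      intro r hr
      induction r with
      | zero => rw [BW_one τ (q := fun i => i % 2 = 0 % 2 ∧ i < 0) fun i _ => by omega]; simp [BW_G]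
      | succ r ihr =>
        rw [BW_G, BW_G, ← mul_assoc, ← ihr (by omega)]
        have e1 : BW_pr τ (fun i => i % 2 = (r + 0) % 2) (j + 1) =
            BW_pr τ (fun i => i % 2 = r % 2 ∧ i < r) (j + 1) *
              (BW_pr τ (fun i => i % 2 = r % 2 ∧ r + 2 ≤ i) (j + 1) * τ r) := by
          have c : Commute (τ r) (BW_pr τ (fun i => i % 2 = r % 2 ∧ r + 2 ≤ i) (j + 1)) :=
            BW_comm τ fun x h3 hx => hc r x hx.2 h3
          rw [BW_split τ _ r, ← c.eq]
          congr 1
          rw [BW_split τ _ (r + 1), BW_single τ (show r < j + 1 by omega) fun i _ => by omega]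
          congr 1
          exact BW_congr τ fun i _ => by omega
        have e2 : BW_pr τ (fun i => i % 2 = (r + 1) % 2) j =
            BW_pr τ (fun i => (i + 1) % 2 = r % 2 ∧ r + 2 ≤ i + 1) j *
              BW_pr τ (fun i => i % 2 = (r + 1) % 2 ∧ i < r + 1) (j + 1) := by
          have c : Commute (BW_pr τ (fun i => i % 2 = (r + 1) % 2 ∧ i < r + 1) j)
              (BW_pr τ (fun i => i % 2 = (r + 1) % 2 ∧ r + 1 ≤ i) j) :=
            BW_comm τ fun x h3 hx => (BW_comm τ fun y _ hy =>
              (hc y x (by omega) (by omega)).symm).symm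
          rw [BW_split τ _ (r + 1), c.eq, BW_pr.eq_2 τ _ j, if_neg (by omega), mul_one]
          congr 1
          exact BW_congr τ fun i _ => by omega
        have e3 := BW_shift τ (q := fun i => i % 2 = r % 2 ∧ r + 2 ≤ i) (K := j)
          (T := BW_pr τ (fun i => r ≤ i) (j + 1)) (by omega) fun i h1 h2 => hS r i (by omega) h1
        have c : Commute (BW_pr τ (fun i => i % 2 = r % 2 ∧ i < r) (j + 1))
            (BW_pr τ (fun i => r ≤ i) (j + 1)) :=
          BW_comm τ fun x h3 hx => (BW_comm τ fun y _ hy => (hc y x (by omega) h3).symm).symm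
        rw [e1, e2]
        simp only [mul_assoc]
        congr 1
        rw [← mul_assoc (τ r), ← hT r (by omega), ← mul_assoc (BW_pr τ _ (j + 1)) (BW_pr τ _ (j + 1))
          (BW_pr τ (fun i => i % 2 = (r + 1) % 2 ∧ i < r + 1) (j + 1)), e3]
        simp only [← mul_assoc]
        rw [c.eq]
    have h1 := hX (j + 1) le_rfl
    rw [BW_one τ (q := fun i => j + 1 ≤ i) fun i _ => by omega, mul_one] at h1
    have e1 : BW_pr τ (fun i => i % 2 = (j + 1) % 2 ∧ i < j + 1) (j + 1) =
        BW_pr τ (fun i => i % 2 = (j + 1 + 0) % 2) (j + 1) := BW_congr τ fun i _ => by omega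
    have e2 : BW_pr τ (fun i => i % 2 = (j + 1) % 2 ∧ i < j + 1) (j + 1) =
        BW_pr τ (fun i => i % 2 = (j + 1) % 2) j := by
      rw [BW_pr, if_neg (by omega), mul_one]
      exact BW_congr τ fun i _ => by omega
    have h2 : BW_G τ (j + 1) 0 (j + 1) = BW_pr τ (fun i => 0 ≤ i) (j + 1) * BW_G τ j 1 j := by
      rw [e2, BW_G.eq_2 τ j 1 j, ← mul_assoc] at h1
      exact mul_right_cancel h1
    have e3 := BW_shift τ (q := fun i => i % 2 = 1 % 2) (K := j)
      (T := BW_pr τ (fun i => 0 ≤ i) (j + 1)) (by omega) fun i h1 _ => hS 0 i (by omega) h1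
    have e4 : BW_pr τ (fun i => (i + 1) % 2 = 1 % 2) j = BW_pr τ (fun i => i % 2 = 0 % 2) j :=
      BW_congr τ fun i _ => by omega
    rw [BW_G_succ τ (j + 1) 1 0 (j + 1) (by omega), h2, ← mul_assoc, e3, e4, mul_assoc,
      ← BW_G_succ τ j 0 1 j (by omega), ih', ← h1, e1, BW_G.eq_2 τ (j + 1) 0 (j + 1)]

end

theorem brick {H B : Type*} [Group H] (k : ℕ) (τ : ℕ → H)
    (hb : ∀ i, i + 1 < k → τ i * τ (i + 1) * τ i = τ (i + 1) * τ i * τ (i + 1))
    (hc : ∀ i j, i + 2 ≤ j → j < k → τ i * τ j = τ j * τ i) (s t : B) (f : B → H)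
    (hs : f s = (((List.range k).filter fun i => i % 2 = 0).map τ).prod)
    (ht : f t = (((List.range k).filter fun i => i % 2 = 1).map τ).prod) :
    ((alternatingWord s t (k + 1)).map f).prod = ((alternatingWord t s (k + 1)).map f).prod := by
  rw [BW_list] at hs ht
  have h := BW_main τ k hb hc
  rcases Nat.mod_two_eq_zero_or_one k with e | e
  · rw [BW_alt τ f k 1 (k + 1) s t (by rw [ht]; congr; ext; congr; omega)
      (by rw [hs]; congr; ext; congr; omega),
      BW_alt τ f k 0 (k + 1) t s (by rw [hs]; congr; ext; congr; omega)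
      (by rw [ht]; congr; ext; congr; omega), h]
  · rw [BW_alt τ f k 0 (k + 1) s t (by rw [ht]; congr; ext; congr; omega)
      (by rw [hs]; congr; ext; congr; omega),
      BW_alt τ f k 1 (k + 1) t s (by rw [hs]; congr; ext; congr; omega)
      (by rw [ht]; congr; ext; congr; omega), h]

theorem alt_mul {H B : Type*} [Group H] (s t : B) (f f1 f2 : B → H)
    (hs : f s = f1 s * f2 s) (ht : f t = f1 t * f2 t)
    (h : ∀ x y, (x = s ∨ x = t) → (y = s ∨ y = t) → f1 x * f2 y = f2 y * f1 x) (m : ℕ) :
    ((alternatingWord s t m).map f).prod =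
      ((alternatingWord s t m).map f1).prod * ((alternatingWord s t m).map f2).prod := by
  have key : ∀ l : List B, (∀ x ∈ l, x = s ∨ x = t) →
      (l.map f).prod = (l.map f1).prod * (l.map f2).prod := by
    intro l hl
    induction l with
    | nil => simp
    | cons a l ih =>
      have ha := hl a (by simp)
      have hl' : ∀ x ∈ l, x = s ∨ x = t := fun x hx => hl x (by simp [hx])
      have e : f a = f1 a * f2 a := by rcases ha with rfl | rfl; exacts [hs, ht]
      have c : Commute (f2 a) (l.map f1).prod := Commute.list_prod_right _ _ fun y hy => by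
        obtain ⟨x, hx, rfl⟩ := List.mem_map.1 hy
        exact (h x a (hl' x hx) ha).symm
      simp only [List.map_cons, List.prod_cons]
      rw [ih hl', e, mul_assoc, ← mul_assoc (f2 a), c.eq]
      simp only [mul_assoc]
  refine key _ ?_
  induction m with
  | zero => simp [alternatingWord]
  | succ m ih =>
    rw [alternatingWord_succ']
    intro x hx
    rcases List.mem_cons.1 hx with rfl | hx
    · split_ifs <;> simp
    · exact ih x hx

end Vale.Agent.P203
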