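import Vale.Agent.P203.Rep

/-! The cokernel reflection functor, complexes, quasi-isomorphism classes. -/

namespace Vale.Agent.P203
open Classical

namespace Rp
variable {G : Gr}

/-- The subspace killed by the cokernel reflection functor. -/
def cosSub (F : Ind G) (X : Rp G) (v : G.V) : Submodule kk (X.E v × ∀ w, X.E w) where
  carrier := {p | (v ∈ F.F → ∃ y : X.E v, ∀ w, G.adj v w → p.2 w = X.a v w y) ∧
    (v ∉ F.F → p.1 = 0)}
  add_mem' := fun {p q} hp hq => ⟨fun h => by
    obtain ⟨y, hy⟩ := hp.1 h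
    obtain ⟨z, hz⟩ := hq.1 h
    exact ⟨y + z, fun w hw => by simp [hy w hw, hz w hw]⟩, fun h => by simp [hp.2 h, hq.2 h]⟩
  zero_mem' := ⟨fun _ => ⟨0, fun _ _ => by simp⟩, fun _ => rfl⟩
  smul_mem' := fun c {p} hp => ⟨fun h => by
    obtain ⟨y, hy⟩ := hp.1 h
    exact ⟨c • y, fun w hw => by simp [hy w hw]⟩, fun h => by simp [hp.2 h]⟩

/-- The arrows of the cokernel reflection functor on the ambient spaces. -/
noncomputable def cosA (F : Ind G) (X : Rp G) (v w : G.V) :
    (X.E v × ∀ u, X.E u) →ₗ[kk] (X.E w × ∀ u, X.E u) :=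
  if v ∈ F.F then
    LinearMap.prod ((X.a v w).comp ((X.inn v).comp (LinearMap.snd _ _ _))) 0
  else
    LinearMap.prod ((X.a v w).comp (LinearMap.fst _ _ _))
      ((LinearMap.single kk X.E v).comp (LinearMap.fst _ _ _))

theorem inn_congr (X : Rp G) (v : G.V) {x y : ∀ w, X.E w} (h : ∀ w, G.adj v w → x w = y w) :
    X.inn v x = X.inn v y := by
  simp only [inn_apply]
  refine Finset.sum_congr rfl fun w _ => ?_
  by_cases hw : G.adj v w
  · rw [h w hw]
  · rw [X.a_zero w v fun h' => hw (G.symm h')]; rfl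

theorem cosA_mem (F : Ind G) (X : Rp G) (v w : G.V) :
    cosSub F X v ≤ (cosSub F X w).comap (cosA F X v w) := by
  intro p hp
  by_cases hv : v ∈ F.F
  · obtain ⟨y, hy⟩ := hp.1 hv
    have h0 : X.inn v p.2 = 0 := by
      rw [X.inn_congr v (y := fun w => X.a v w y) hy, inn_apply]
      exact X.rel v (fun h => F.no (h ▸ hv)) y
    exact ⟨fun _ => ⟨0, fun u _ => by simp [cosA, hv]⟩, fun _ => by simp [cosA, hv, h0]⟩
  · have h0 := hp.2 hv
    exact ⟨fun _ => ⟨0, fun u _ => by simp [cosA, hv, h0]⟩, fun _ => by simp [cosA, hv, h0]⟩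

/-- The cokernel reflection functor at an independent set. -/
noncomputable def cos (F : Ind G) (X : Rp G) : Rp G where
  E v := (X.E v × ∀ w, X.E w) ⧸ cosSub F X v
  a v w := (cosSub F X v).mapQ (cosSub F X w) (cosA F X v w) (cosA_mem F X v w)
  a_zero v w h := by
    refine LinearMap.ext fun p => ?_
    induction p using Submodule.Quotient.induction_on with
    | H p =>
      rw [Submodule.mapQ_apply, LinearMap.zero_apply, Submodule.Quotient.mk_eq_zero]
      by_cases hv : v ∈ F.F
      · exact ⟨fun _ => ⟨0, fun u _ => by simp [cosA, hv]⟩,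
          fun _ => by simp [cosA, hv, X.a_zero v w h]⟩
      · refine ⟨fun _ => ⟨0, fun u hu => ?_⟩, fun _ => by simp [cosA, hv, X.a_zero v w h]⟩
        have : u ≠ v := fun e => h (G.symm (e ▸ hu))
        simp [cosA, hv, Pi.single_eq_of_ne this]
  rel v hv p := by
    induction p using Submodule.Quotient.induction_on with
    | H p =>
      have e : ∀ w, (cosSub F X w).mapQ (cosSub F X v) (cosA F X w v) (cosA_mem F X w v)
          ((cosSub F X v).mapQ (cosSub F X w) (cosA F X v w) (cosA_mem F X v w)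
            (Submodule.Quotient.mk p)) = (cosSub F X v).mkQ (cosA F X w v (cosA F X v w p)) :=
        fun w => rfl
      simp only [e]
      rw [← map_sum, Submodule.mkQ_apply, Submodule.Quotient.mk_eq_zero]
      by_cases hF : v ∈ F.F
      · refine ⟨fun _ => ⟨X.inn v p.2, fun u hu => ?_⟩, fun h => absurd hF h⟩
        have hu' : u ∉ F.F := fun h => F.ind v hF u h hu
        simp only [Prod.snd_sum, Finset.sum_apply]
        rw [Finset.sum_eq_single u]
        · simp [cosA, hF, hu']
        · intro w _ hw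
          by_cases hw' : w ∈ F.F
          · simp [cosA, hw']
          · simp [cosA, hw', Pi.single_eq_of_ne (Ne.symm hw)]
        · simp
      · refine ⟨fun h => absurd h hF, fun _ => ?_⟩
        have : ∀ w, (cosA F X w v (cosA F X v w p)).1 = X.a w v (X.a v w p.1) := by
          intro w
          by_cases hw : w ∈ F.F
          · have : X.inn w (Pi.single v p.1) = X.a v w p.1 := by
              rw [inn_apply, Finset.sum_eq_single v]
              · simp
              · intro u _ hu; simp [Pi.single_eq_of_ne hu]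
              · simp
            simp [cosA, hw, hF, this]
          · simp [cosA, hw, hF]
        simp only [Prod.fst_sum, this]
        exact X.rel v hv _

/-- Functoriality of the cokernel reflection functor. -/
noncomputable def cosMap (F : Ind G) {X Y : Rp G} (f : Hom X Y) : Hom (cos F X) (cos F Y) where
  f v := (cosSub F X v).mapQ (cosSub F Y v) (amb f v) fun p hp =>
    ⟨fun h => by
      obtain ⟨y, hy⟩ := hp.1 h
      exact ⟨f.f v y, fun w hw => by simp [amb, hy w hw, f.comm]⟩,
    fun h => by simp [amb, hp.2 h]⟩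
  comm v w p := by
    induction p using Submodule.Quotient.induction_on with
    | H p =>
      change (cosSub F Y w).mkQ (amb f w (cosA F X v w p)) =
        (cosSub F Y w).mkQ (cosA F Y v w (amb f v p))
      congr 1
      by_cases hv : v ∈ F.F
      · have := inn_map f v p.2
        ext u
        · simp only [cosA, hv, if_true]
          change f.f w (X.a v w (X.inn v p.2)) = Y.a v w (Y.inn v fun w => f.f w (p.2 w))
          rw [this, f.comm]
        · simp [amb, cosA, hv]
      · ext u
        · simp [amb, cosA, hv, f.comm]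
        · by_cases hu : u = v
          · subst hu; simp [amb, cosA, hv]
          · simp [amb, cosA, hv, Pi.single_eq_of_ne hu]

end Rp

/-- Bounded below complexes of representations: `p q` is the projection on degree `q`. -/
structure Cx (G : Gr) where
  X : Rp G
  p : ℤ → Rp.Hom X X
  d : Rp.Hom X X
  pp : ∀ q v x, (p q).f v ((p q).f v x) = (p q).f v x
  dp : ∀ q v x, d.f v ((p q).f v x) = (p (q + 1)).f v (d.f v x)
  dd : ∀ v x, d.f v (d.f v x) = 0
  bdd : ∃ q0, ∀ q < q0, ∀ v x, (p q).f v x = 0

namespace Cx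
variable {G : Gr}

/-- Chain maps. -/
structure CHom (C D : Cx G) where
  f : Rp.Hom C.X D.X
  fp : ∀ q v x, f.f v ((C.p q).f v x) = (D.p q).f v (f.f v x)
  fd : ∀ v x, f.f v (C.d.f v x) = D.d.f v (f.f v x)

/-- Cycles of degree `q`. -/
def Z (C : Cx G) (q : ℤ) (v : G.V) : Submodule kk (C.X.E v) :=
  LinearMap.ker (C.d.f v) ⊓ LinearMap.range ((C.p q).f v)

/-- Boundaries of degree `q`. -/
def B (C : Cx G) (q : ℤ) (v : G.V) : Submodule kk (C.X.E v) :=
  (LinearMap.range ((C.p (q - 1)).f v)).map (C.d.f v)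

theorem Z_a (C : Cx G) (q : ℤ) (v w : G.V) : ∀ x ∈ C.Z q v, C.X.a v w x ∈ C.Z q w := by
  rintro x ⟨h1, y, rfl⟩
  refine ⟨?_, C.X.a v w y, (C.p q).comm v w y⟩
  have h1' : C.d.f v ((C.p q).f v y) = 0 := h1
  change C.d.f w _ = 0
  rw [C.d.comm, h1', map_zero]

theorem B_a (C : Cx G) (q : ℤ) (v w : G.V) : ∀ x ∈ C.B q v, C.X.a v w x ∈ C.B q w := by
  rintro x ⟨z, ⟨y, rfl⟩, rfl⟩
  exact ⟨_, ⟨C.X.a v w y, rfl⟩, by rw [(C.p (q - 1)).comm, C.d.comm]⟩

/-- The cohomology representation in degree `q`. -/
def H (C : Cx G) (q : ℤ) : Rp G :=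
  (C.X.sub (C.Z q) (C.Z_a q)).quot (fun v => (C.B q v).comap (C.Z q v).subtype)
    fun v w x hx => C.B_a q v w x.1 hx

/-- Quasi-isomorphisms. -/
def Qis {C D : Cx G} (f : CHom C D) : Prop :=
  ∀ q v, (∀ z ∈ D.Z q v, ∃ z' ∈ C.Z q v, f.f.f v z' - z ∈ D.B q v) ∧
    ∀ z ∈ C.Z q v, f.f.f v z ∈ D.B q v → z ∈ C.B q v

/-- The kernel reflection functor on complexes. -/
noncomputable def sig (F : Ind G) (C : Cx G) : Cx G where
  X := Rp.sig F C.X
  p q := Rp.sigMap F (C.p q)
  d := Rp.sigMap F C.d
  pp q v x := Subtype.ext (Prod.ext (C.pp q v _) (funext fun w => C.pp q w _))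
  dp q v x := Subtype.ext (Prod.ext (C.dp q v _) (funext fun w => C.dp q w _))
  dd v x := Subtype.ext (Prod.ext (C.dd v _) (funext fun w => C.dd w _))
  bdd := C.bdd.imp fun _ h q hq v _ =>
    Subtype.ext (Prod.ext (h q hq v _) (funext fun w => h q hq w _))

/-- The cokernel reflection functor on complexes. -/
noncomputable def cos (F : Ind G) (C : Cx G) : Cx G where
  X := Rp.cos F C.X
  p q := Rp.cosMap F (C.p q)
  d := Rp.cosMap F C.d
  pp q v x := Submodule.Quotient.induction_on _ x fun x => congrArg Submodule.Quotient.mk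
    (Prod.ext (C.pp q v x.1) (funext fun w => C.pp q w (x.2 w)))
  dp q v x := Submodule.Quotient.induction_on _ x fun x => congrArg Submodule.Quotient.mk
    (Prod.ext (C.dp q v x.1) (funext fun w => C.dp q w (x.2 w)))
  dd v x := Submodule.Quotient.induction_on _ x fun x => congrArg Submodule.Quotient.mk
    (show _ = (0 : C.X.E v × ∀ w, C.X.E w) from
      Prod.ext (C.dd v x.1) (funext fun w => C.dd w (x.2 w)))
  bdd := C.bdd.imp fun _ h q hq v x => Submodule.Quotient.induction_on _ x fun x =>
    congrArg Submodule.Quotient.mk (show _ = (0 : C.X.E v × ∀ w, C.X.E w) from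
      Prod.ext (h q hq v x.1) (funext fun w => h q hq w (x.2 w)))

/-- A representation placed in degree `q0`. -/
noncomputable def ofRp (N : Rp G) (q0 : ℤ) : Cx G where
  X := N
  p q := ⟨fun _ => if q = q0 then LinearMap.id else 0, fun v w x => by split_ifs <;> simp⟩
  d := ⟨fun _ => 0, fun v w x => by simp⟩
  pp q v x := by dsimp only; split_ifs <;> simp
  dp q v x := by simp
  dd v x := rfl
  bdd := ⟨q0, fun q hq v x => by simp [hq.ne]⟩

end Cx

/-- Quasi-isomorphism classes of complexes. -/
def Cl (G : Gr) : Type 1 := Quot fun C D : Cx G => ∃ f : Cx.CHom C D, Cx.Qis f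

/-- The class of a complex. -/
def Cx.cl {G : Gr} (C : Cx G) : Cl G := Quot.mk _ C

/-- `N` is the `q`-th cohomology of the class `ξ`. -/
def HIs {G : Gr} (ξ : Cl G) (q : ℤ) (N : Rp G) : Prop := ∃ C : Cx G, C.cl = ξ ∧ (C.H q).Iso N

/-- Dimension of the cohomology of a class. -/
noncomputable def hd {G : Gr} (ξ : Cl G) (q : ℤ) (v : G.V) : ℕ := ((Quot.out ξ).H q).dm v

/-- `T` is the derived kernel reflection functor at `F`, with inverse the derived cokernel
functor. -/
def IsT {G : Gr} (F : Ind G) (T : Equiv.Perm (Cl G)) : Prop :=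
  (∀ C : Cx G, (∀ v ∈ F.F, C.X.InOn v) → T C.cl = (C.sig F).cl) ∧
    ∀ C : Cx G, (∀ v ∈ F.F, C.X.OutInj v) → T.symm C.cl = (C.cos F).cl

/-- The derived reflection functor (junk value `1` if it does not exist). -/
noncomputable def TT {G : Gr} (F : Ind G) : Equiv.Perm (Cl G) :=
  if h : ∃ T, IsT F T then h.choose else 1

/-- The simple representation at the framing vertex. -/
noncomputable def simpleO (G : Gr) : Rp G where
  E v := PLift (v = G.o) → kk
  a _ _ := 0
  a_zero _ _ _ := rfl
  rel _ _ _ := by simp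

end Vale.Agent.P203
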