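import Vale.Agent.P203.Cx

/-! Part RepA: basic properties of representations and of the kernel reflection functor. -/

namespace Vale.Agent.P203.Rp
open Classical

variable {G : Gr} {F : Ind G} {X Y Z : Rp G} {v : G.V}

/-- Sum of the dimensions at the neighbours. -/
noncomputable def nb (X : Rp G) (v : G.V) : ℕ := ∑ w, if G.adj v w then X.dm w else 0

theorem Iso.refl (X : Rp G) : X.Iso X := ⟨Hom.id X, fun _ => Function.bijective_id⟩
theorem Iso.symm (h : X.Iso Y) : Y.Iso X := by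
  obtain ⟨f, hf⟩ := h
  refine ⟨⟨fun v => (LinearEquiv.ofBijective (f.f v) (hf v)).symm.toLinearMap, fun v w x => ?_⟩,
    fun v => (LinearEquiv.ofBijective (f.f v) (hf v)).symm.bijective⟩
  obtain ⟨y, rfl⟩ := (hf v).2 x
  rw [← f.comm]
  simp
theorem Iso.trans (h : X.Iso Y) (h' : Y.Iso Z) : X.Iso Z :=
  h.elim fun f hf => h'.elim fun g hg => ⟨g.comp f, fun v => (hg v).comp (hf v)⟩
theorem Iso.mono (h : X.Iso Y) : X.Mono Y := h.imp fun _ hf v => (hf v).1
theorem Iso.epi (h : X.Iso Y) : X.Epi Y := h.imp fun _ hf v => (hf v).2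
theorem Mono.trans (h : X.Mono Y) (h' : Y.Mono Z) : X.Mono Z :=
  h.elim fun f hf => h'.elim fun g hg => ⟨g.comp f, fun v => (hg v).comp (hf v)⟩
theorem Epi.trans (h : X.Epi Y) (h' : Y.Epi Z) : X.Epi Z :=
  h.elim fun f hf => h'.elim fun g hg => ⟨g.comp f, fun v => (hg v).comp (hf v)⟩
theorem Iso.dm_eq (h : X.Iso Y) (v : G.V) : X.dm v = Y.dm v :=
  h.elim fun f hf => (LinearEquiv.ofBijective (f.f v) (hf v)).finrank_eq
theorem Mono.dm_le (h : X.Mono Y) (v : G.V) : X.dm v ≤ Y.dm v :=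
  h.elim fun _ hf => LinearMap.finrank_le_finrank_of_injective (hf v)
theorem Epi.dm_le (h : X.Epi Y) (v : G.V) : Y.dm v ≤ X.dm v :=
  h.elim fun _ hf => LinearMap.finrank_le_finrank_of_surjective (hf v)
theorem LEx.dm_le {f : Hom X Y} {g : Hom Y Z} (h : LEx f g) (v : G.V) :
    Y.dm v ≤ X.dm v + Z.dm v := by
  have h1 := LinearMap.finrank_range_add_finrank_ker (g.f v)
  have h2 := LinearMap.finrank_range_le (f.f v)
  have h3 := Submodule.finrank_le (LinearMap.range (g.f v))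
  rw [(h v).2] at h2
  unfold dm
  omega
theorem LEx.mono {f : Hom X Y} {g : Hom Y Z} (h : LEx f g) : X.Mono Y := ⟨f, fun v => (h v).1⟩
theorem Epi.inOn (h : X.Epi Y) (hX : X.InOn v) : Y.InOn v := by
  obtain ⟨f, hf⟩ := h
  intro y
  obtain ⟨x, rfl⟩ := hf v y
  obtain ⟨p, rfl⟩ := hX x
  exact ⟨_, inn_map f v p⟩
theorem Mono.outInj (h : X.Mono Y) (hY : Y.OutInj v) : X.OutInj v := by
  obtain ⟨f, hf⟩ := h
  intro x hx
  apply hf v
  rw [map_zero]
  exact hY _ fun w => by rw [← f.comm, hx, map_zero]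

theorem sigMap_inj {f : Hom X Y} (hf : ∀ v, Function.Injective (f.f v)) (F : Ind G) (v : G.V) :
    Function.Injective ((sigMap F f).f v) := fun _ _ h =>
  Subtype.ext (Prod.ext (hf v (congrArg (·.1.1) h)) (funext fun w => hf w (congrArg (·.1.2 w) h)))

theorem sig_lift {f : Hom X Y} (hf : ∀ v, Function.Injective (f.f v)) (y : (sig F Y).E v)
    (h1 : y.1.1 ∈ LinearMap.range (f.f v)) (h2 : ∀ w, y.1.2 w ∈ LinearMap.range (f.f w)) :
    y ∈ LinearMap.range ((sigMap F f).f v) := by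
  obtain ⟨x, hx⟩ := h1
  choose p hp using h2
  have z : ∀ w (x : X.E w), f.f w x = 0 → x = 0 := fun w x h => hf w (h.trans (map_zero _).symm)
  refine ⟨⟨(x, p), fun h => ⟨z _ _ (hx.trans (y.2.1 h).1),
    fun w hw => z _ _ ((hp w).trans ((y.2.1 h).2.1 w hw)), z _ _ ?_⟩,
    fun h => funext fun w => z _ _ ((hp w).trans (congrFun (y.2.2 h) w))⟩,
    Subtype.ext (Prod.ext hx (funext hp))⟩
  rw [← inn_map, funext hp]
  exact (y.2.1 h).2.2

theorem Iso.sig (h : X.Iso Y) (F : Ind G) : (sig F X).Iso (sig F Y) :=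
  h.elim fun f hf => ⟨sigMap F f, fun v => ⟨sigMap_inj (fun v => (hf v).1) F v,
    fun y => sig_lift (fun v => (hf v).1) y ((hf v).2 _) fun w => (hf w).2 _⟩⟩
theorem Mono.sig (h : X.Mono Y) (F : Ind G) : (sig F X).Mono (sig F Y) :=
  h.elim fun f hf => ⟨sigMap F f, sigMap_inj hf F⟩
theorem LEx.sig {f : Hom X Y} {g : Hom Y Z} (h : LEx f g) (F : Ind G) :
    LEx (sigMap F f) (sigMap F g) := by
  refine fun v => ⟨sigMap_inj (fun v => (h v).1) F v, le_antisymm ?_ fun y hy => ?_⟩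
  · rintro _ ⟨x, rfl⟩
    have z : ∀ w x, g.f w (f.f w x) = 0 := fun w x => (h w).2.le ⟨x, rfl⟩
    exact Subtype.ext (Prod.ext (z _ _) (funext fun w => z _ _))
  · have hy0 : (sigMap F g).f v y = 0 := hy
    have hy' : amb g v y.1 = 0 := congrArg Subtype.val hy0
    exact sig_lift (fun v => (h v).1) y ((h v).2.ge (LinearMap.mem_ker.2 (congrArg (·.1) hy')))
      fun w => (h w).2.ge (LinearMap.mem_ker.2 (congrArg (·.2 w) hy'))

/-- The inclusion of `X v` in the reflected representation off `F`. -/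
def offE (X : Rp G) (hv : v ∉ F.F) : X.E v ≃ₗ[kk] (sig F X).E v where
  toFun x := ⟨(x, 0), fun h => absurd h hv, fun _ => rfl⟩
  invFun p := p.1.1
  map_add' _ _ := Subtype.ext (Prod.ext rfl (add_zero _).symm)
  map_smul' _ _ := Subtype.ext (Prod.ext rfl (smul_zero _).symm)
  left_inv _ := rfl
  right_inv p := Subtype.ext (Prod.ext rfl (p.2.2 hv).symm)

theorem dm_sig_off (X : Rp G) (hv : v ∉ F.F) : (sig F X).dm v = X.dm v :=
  (offE X hv).finrank_eq.symm

/-- Families supported on the neighbours. -/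
def NbS (X : Rp G) (v : G.V) : Submodule kk (∀ w, X.E w) where
  carrier := {p | ∀ w, ¬ G.adj v w → p w = 0}
  add_mem' := fun {p q} hp hq w hw => by simp [hp w hw, hq w hw]
  zero_mem' := fun _ _ => rfl
  smul_mem' := fun c {p} hp w hw => by simp [hp w hw]

theorem finrank_NbS (X : Rp G) (v : G.V) : Module.finrank kk (NbS X v) = X.nb v := by
  let e : NbS X v →ₗ[kk] ∀ w : {w // G.adj v w}, X.E w :=
    LinearMap.pi fun w => (LinearMap.proj w.1).comp (NbS X v).subtype
  have he : Function.Bijective e := ⟨fun p q h => Subtype.ext (funext fun w => by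
      by_cases hw : G.adj v w
      · exact congrFun h ⟨w, hw⟩
      · rw [p.2 w hw, q.2 w hw]),
    fun y => ⟨⟨fun w => if hw : G.adj v w then y ⟨w, hw⟩ else 0, fun w hw => dif_neg hw⟩,
      funext fun w => dif_pos w.2⟩⟩
  rw [(LinearEquiv.ofBijective e he).finrank_eq, Module.finrank_pi_fintype, nb, ← Finset.sum_filter]
  exact (Finset.sum_subtype _ (by simp) fun w => X.dm w).symm

theorem range_innN (X : Rp G) (v : G.V) :
    LinearMap.range ((X.inn v).domRestrict (NbS X v)) = LinearMap.range (X.inn v) := by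
  refine le_antisymm (by rintro _ ⟨p, rfl⟩; exact ⟨p.1, rfl⟩) ?_
  rintro _ ⟨p, rfl⟩
  exact ⟨⟨fun w => if G.adj v w then p w else 0, fun w hw => if_neg hw⟩,
    X.inn_congr v fun w hw => if_pos hw⟩

theorem dm_sig_add (X : Rp G) (hv : v ∈ F.F) :
    (sig F X).dm v + Module.finrank kk (LinearMap.range (X.inn v)) = X.nb v := by
  let e : (sig F X).E v ≃ₗ[kk] LinearMap.ker ((X.inn v).domRestrict (NbS X v)) :=
    { toFun := fun p => ⟨⟨p.1.2, (p.2.1 hv).2.1⟩, (p.2.1 hv).2.2⟩
      invFun := fun p => ⟨(0, p.1.1), fun _ => ⟨rfl, p.1.2, p.2⟩, fun h => absurd hv h⟩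
      map_add' := fun _ _ => rfl
      map_smul' := fun _ _ => rfl
      left_inv := fun p => Subtype.ext (Prod.ext (p.2.1 hv).1.symm rfl)
      right_inv := fun _ => rfl }
  rw [dm, e.finrank_eq, ← range_innN, add_comm, LinearMap.finrank_range_add_finrank_ker,
    finrank_NbS]

theorem dm_sig_ge (X : Rp G) (hv : v ∈ F.F) : X.nb v ≤ (sig F X).dm v + X.dm v :=
  (dm_sig_add X hv).ge.trans (Nat.add_le_add_left (Submodule.finrank_le _) _)
theorem dm_sig_eq (hv : v ∈ F.F) (h : X.InOn v) : (sig F X).dm v + X.dm v = X.nb v := by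
  rw [← dm_sig_add X hv, LinearMap.range_eq_top.2 h, finrank_top]; rfl
theorem dm_sig_le (X : Rp G) (hv : v ∈ F.F) : (sig F X).dm v ≤ X.nb v :=
  (Nat.le_add_right _ _).trans (dm_sig_add X hv).le
theorem outInj_sig (X : Rp G) (hv : v ∈ F.F) : (sig F X).OutInj v := by
  intro p hp
  obtain ⟨h1, h2, -⟩ := p.2.1 hv
  refine Subtype.ext (Prod.ext h1 (funext fun w => ?_))
  by_cases hw : G.adj v w
  · have hw' : w ∉ F.F := fun h => F.ind v hv w h hw
    have : (sigA F X v w p.1).1 = 0 := congrArg (·.1.1) (hp w)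
    change p.1.2 w = 0
    simpa [sigA, hw', h1] using this
  · exact h2 w hw

/-- The ambient unit map. -/
noncomputable def etaA (F : Ind G) (X : Rp G) (v : G.V) : X.E v →ₗ[kk] (X.E v × ∀ w, X.E w) :=
  if v ∈ F.F then LinearMap.prod 0 (LinearMap.pi fun w => X.a v w) else LinearMap.inl _ _ _

/-- The unit `X → sig F X`. -/
noncomputable def eta (F : Ind G) (X : Rp G) : Hom X (sig F X) where
  f v := LinearMap.codRestrict (sigSub F X v) (etaA F X v)
    fun x => ⟨fun h => ⟨by simp [etaA, h], fun w hw => by simp [etaA, h, X.a_zero v w hw], by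
      simpa [etaA, h, inn_apply] using X.rel v (fun e => F.no (e ▸ h)) x⟩,
      fun h => by simp [etaA, h]⟩
  comm v w x := by
    apply Subtype.ext
    change etaA F X w (X.a v w x) = sigA F X v w (etaA F X v x)
    by_cases hv : v ∈ F.F <;> by_cases hw : w ∈ F.F
    · ext u <;> simp [etaA, sigA, hv, hw, X.a_zero v w (F.ind v hv w hw)]
    · ext u <;> simp [etaA, sigA, hv, hw]
    · ext u <;> simp [etaA, sigA, hv, hw]
    · ext u <;> simp [etaA, sigA, hv, hw]

theorem mono_sig (h : ∀ v ∈ F.F, X.OutInj v) : X.Mono (sig F X) := by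
  refine ⟨eta F X, fun v => (injective_iff_map_eq_zero _).2 fun x hx => ?_⟩
  have : etaA F X v x = 0 := congrArg Subtype.val hx
  by_cases hv : v ∈ F.F
  · refine h v hv x fun w => ?_
    simpa [etaA, hv] using congrArg (·.2 w) this
  · simpa [etaA, hv] using congrArg (·.1) this

theorem inn_single (X : Rp G) (v w : G.V) (x : X.E w) : X.inn v (Pi.single w x) = X.a w v x := by
  rw [inn_apply, Finset.sum_eq_single w]
  · simp
  · intro u _ hu; simp [Pi.single_eq_of_ne hu]
  · simp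

theorem inOn_of_surj {w : G.V} (h : Function.Surjective (X.a w v)) : X.InOn v := fun y =>
  (h y).elim fun x hx => ⟨_, (inn_single X v w x).trans hx⟩
theorem surj_sig {w : G.V} (hw : w ∉ F.F) (hv : v ∉ F.F) (h : Function.Surjective (X.a w v)) :
    Function.Surjective ((sig F X).a w v) := by
  intro y
  obtain ⟨x, hx⟩ := h y.1.1
  refine ⟨offE X hw x, Subtype.ext ?_⟩
  change sigA F X w v (x, 0) = _
  refine Prod.ext (by simpa [sigA, hv] using hx) ?_
  rw [y.2.2 hv]; simp [sigA, hv]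
theorem inOn_sig_of_adj {i j : G.V} (hj : j ∈ F.F) (hij : G.adj i j) (hi : i ≠ G.o)
    (h : Function.Surjective (X.a G.o j)) : (sig F X).InOn i := by
  refine inOn_of_surj (w := j) fun y => ?_
  have hi' : i ∉ F.F := fun h => F.ind i h j hj hij
  obtain ⟨z, hz⟩ := h (-X.a i j y.1.1)
  refine ⟨⟨(0, Pi.single i y.1.1 + Pi.single G.o z), fun _ => ⟨rfl, fun w hw => ?_, ?_⟩,
    fun h => absurd hj h⟩, Subtype.ext ?_⟩
  · have h1 : w ≠ i := fun e => hw (e ▸ G.symm hij)
    have h2 : w ≠ G.o := fun e => hw (e ▸ G.symm (G.adj_o j fun e => F.no (e ▸ hj)))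
    simp [Pi.single_eq_of_ne h1, Pi.single_eq_of_ne h2]
  · simp [inn_single, hz]
  · change sigA F X j i _ = _
    refine Prod.ext (by simp [sigA, hi', Pi.single_eq_of_ne hi]) ?_
    rw [y.2.2 hi']; simp [sigA, hi']

theorem two_dm_le (hv : v ≠ G.o) (h1 : X.InOn v) (h2 : X.OutInj v) : 2 * X.dm v ≤ X.nb v := by
  let F : Ind G := ⟨{v}, fun a ha b hb => by rw [ha, hb]; exact G.irrefl v, fun h => hv h.symm⟩
  have a1 := (mono_sig (F := F) (X := X) fun w hw => by rw [hw]; exact h2).dm_le v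
  have a2 := dm_sig_eq (F := F) rfl h1
  omega
theorem dm_le_of_outInj (h : X.OutInj v) : X.dm v ≤ X.nb v := by
  rw [← finrank_NbS]
  exact LinearMap.finrank_le_finrank_of_injective (f := LinearMap.codRestrict (NbS X v)
    (LinearMap.pi fun w => X.a v w) fun x w hw => by simp [X.a_zero v w hw])
    ((injective_iff_map_eq_zero _).2 fun x hx => h x fun w => congrArg (·.1 w) hx)
theorem dm_le_of_inOn (h : X.InOn v) : X.dm v ≤ X.nb v := by
  rw [← finrank_NbS]
  exact LinearMap.finrank_le_finrank_of_surjective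
    (LinearMap.range_eq_top.1 ((range_innN X v).trans (LinearMap.range_eq_top.2 h)))

/-- The kernel of the outgoing map, placed at `v`. -/
noncomputable def kU (X : Rp G) (v w : G.V) : Submodule kk (X.E w) :=
  if w = v then LinearMap.ker (LinearMap.pi fun u => X.a w u) else ⊥

theorem kU_a (X : Rp G) (v w u : G.V) : ∀ x ∈ kU X v w, X.a w u x ∈ kU X v u := by
  intro x hx
  have : X.a w u x = 0 := by
    unfold kU at hx
    split_ifs at hx
    · exact congrFun hx u
    · rw [(Submodule.mem_bot _).1 hx, map_zero]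
  rw [this]; exact zero_mem _

theorem kU_pos (h : ¬ X.OutInj v) : 0 < Module.finrank kk (kU X v v) := by
  rw [Nat.pos_iff_ne_zero, Ne, Submodule.finrank_eq_zero, kU, if_pos rfl]
  exact fun e => h fun x hx => (Submodule.mem_bot kk).1 (e.le (funext hx))

/-- The image of the incoming map at `v`, everything elsewhere. -/
noncomputable def rU (X : Rp G) (v w : G.V) : Submodule kk (X.E w) :=
  if w = v then LinearMap.range (X.inn w) else ⊤

theorem rU_a (X : Rp G) (v w u : G.V) : ∀ x ∈ rU X v w, X.a w u x ∈ rU X v u := by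
  intro x _
  unfold rU
  split_ifs
  · exact ⟨_, inn_single X u w x⟩
  · trivial

theorem rU_lt (h : ¬ X.InOn v) : Module.finrank kk (rU X v v) < X.dm v := by
  rw [rU, if_pos rfl]
  exact Submodule.finrank_lt fun e => h (LinearMap.range_eq_top.1 e)

/-- Inclusion of a subrepresentation. -/
def subI (X : Rp G) (U : ∀ v, Submodule kk (X.E v)) (hU : ∀ v w, ∀ x ∈ U v, X.a v w x ∈ U w) :
    Hom (X.sub U hU) X := ⟨fun v => (U v).subtype, fun _ _ _ => rfl⟩

/-- Projection on a quotient representation. -/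
def quotP (X : Rp G) (U : ∀ v, Submodule kk (X.E v)) (hU : ∀ v w, ∀ x ∈ U v, X.a v w x ∈ U w) :
    Hom X (X.quot U hU) := ⟨fun v => (U v).mkQ, fun _ _ _ => rfl⟩

theorem dm_quot (X : Rp G) (U : ∀ v, Submodule kk (X.E v))
    (hU : ∀ v w, ∀ x ∈ U v, X.a v w x ∈ U w) (v : G.V) :
    (X.quot U hU).dm v + Module.finrank kk (U v) = X.dm v :=
  Submodule.finrank_quotient_add_finrank _

theorem exists_sub (h : ¬ X.OutInj v) :
    ∃ Q : Rp G, Q.Mono X ∧ 0 < Q.dm v ∧ ∀ w, w ≠ v → Q.dm w = 0 :=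
  ⟨X.sub _ (kU_a X v), ⟨subI _ _ _, fun _ => Subtype.val_injective⟩, kU_pos h,
    fun _ hw => Submodule.finrank_eq_zero.2 (if_neg hw)⟩
theorem rU_top {w : G.V} (hw : w ≠ v) : Module.finrank kk (rU X v w) = X.dm w := by
  rw [rU, if_neg hw, finrank_top]; rfl
theorem exists_quot (h : ¬ X.InOn v) :
    ∃ Q : Rp G, X.Epi Q ∧ 0 < Q.dm v ∧ ∀ w, w ≠ v → Q.dm w = 0 := by
  refine ⟨X.quot _ (rU_a X v), ⟨quotP _ _ _, fun _ => Submodule.mkQ_surjective _⟩, ?_,
    fun w hw => ?_⟩
  · have := dm_quot X _ (rU_a X v) v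
    have := rU_lt h
    omega
  · have := dm_quot X _ (rU_a X v) w
    have := rU_top (X := X) hw
    omega
theorem exists_rad (h : ¬ X.InOn v) :
    ∃ (X' Q : Rp G) (f : Hom X' X) (g : Hom X Q), LEx f g ∧ X'.dm v < X.dm v ∧
      (∀ w, w ≠ v → X'.dm w = X.dm w) ∧ ∀ w, w ≠ v → Q.dm w = 0 := by
  refine ⟨X.sub _ (rU_a X v), X.quot _ (rU_a X v), subI _ _ _, quotP _ _ _,
    fun w => ⟨Subtype.val_injective, (Submodule.range_subtype _).trans (Submodule.ker_mkQ _).symm⟩,
    rU_lt h, fun w hw => rU_top hw, fun w hw => ?_⟩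
  have := dm_quot X _ (rU_a X v) w
  have := rU_top (X := X) hw
  omega
theorem exists_top (h : ¬ X.OutInj v) :
    ∃ X' : Rp G, X.Epi X' ∧ X'.dm v < X.dm v ∧ ∀ w, w ≠ v → X'.dm w = X.dm w := by
  refine ⟨X.quot _ (kU_a X v), ⟨quotP _ _ _, fun _ => Submodule.mkQ_surjective _⟩, ?_,
    fun w hw => ?_⟩
  · have := dm_quot X _ (kU_a X v) v
    have := kU_pos h
    omega
  · have := dm_quot X _ (kU_a X v) w
    have : Module.finrank kk (kU X v w) = 0 := Submodule.finrank_eq_zero.2 (if_neg hw)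
    omega

end Vale.Agent.P203.Rp
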