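import Vale.Agent.P203.Cx
import Vale.Agent.P203.RepA

/-! Part CxA: quasi-isomorphisms and cohomology of classes. -/

namespace Vale.Agent.P203
open Classical

variable {G : Gr}

namespace Cx
variable {C D E : Cx G}

/-- Composition of chain maps. -/
def CHom.comp (g : CHom D E) (f : CHom C D) : CHom C E where
  f := g.f.comp f.f
  fp q v x := by
    change g.f.f v (f.f.f v _) = _
    rw [f.fp, g.fp]; rfl
  fd v x := by
    change g.f.f v (f.f.f v _) = _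
    rw [f.fd, g.fd]; rfl

theorem mem_Z {q : ℤ} {v : G.V} {x : C.X.E v} :
    x ∈ C.Z q v ↔ C.d.f v x = 0 ∧ (C.p q).f v x = x :=
  ⟨fun h => ⟨h.1, by obtain ⟨y, rfl⟩ := h.2; exact C.pp q v y⟩, fun h => ⟨h.1, x, h.2⟩⟩

theorem mem_B {q : ℤ} {v : G.V} {x : C.X.E v} :
    x ∈ C.B q v ↔ ∃ y, (C.p (q - 1)).f v y = y ∧ C.d.f v y = x :=
  ⟨fun h => by
    obtain ⟨_, ⟨y, rfl⟩, rfl⟩ := h
    exact ⟨_, C.pp _ v y, rfl⟩, fun ⟨y, h1, h2⟩ => ⟨y, ⟨y, h1⟩, h2⟩⟩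

theorem dp' (C : Cx G) (q : ℤ) (v : G.V) (x : C.X.E v) :
    C.d.f v ((C.p (q - 1)).f v x) = (C.p q).f v (C.d.f v x) := by
  rw [C.dp, sub_add_cancel]

/-- A cycle of degree `q` that is in the image of `d` is a boundary of degree `q`. -/
theorem mem_B_of_d {q : ℤ} {v : G.V} {x y : C.X.E v} (hx : (C.p q).f v x = x)
    (h : C.d.f v y = x) : x ∈ C.B q v :=
  mem_B.2 ⟨(C.p (q - 1)).f v y, C.pp _ v y, by rw [C.dp', h, hx]⟩

theorem CHom.map_Z (f : CHom C D) {q : ℤ} {v : G.V} {x : C.X.E v} (h : x ∈ C.Z q v) :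
    f.f.f v x ∈ D.Z q v := by
  rw [mem_Z] at h ⊢
  exact ⟨by rw [← f.fd, h.1, map_zero], by rw [← f.fp, h.2]⟩

theorem CHom.map_B (f : CHom C D) {q : ℤ} {v : G.V} {x : C.X.E v} (h : x ∈ C.B q v) :
    f.f.f v x ∈ D.B q v := by
  obtain ⟨y, h1, rfl⟩ := mem_B.1 h
  exact mem_B.2 ⟨f.f.f v y, by rw [← f.fp, h1], by rw [f.fd]⟩

/-- The cohomology class of a cycle. -/
def Hmk (C : Cx G) (q : ℤ) (v : G.V) : C.Z q v →ₗ[kk] (C.H q).E v :=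
  ((C.B q v).comap (C.Z q v).subtype).mkQ

theorem Hmk_eq_zero {q : ℤ} {v : G.V} {x : C.Z q v} : C.Hmk q v x = 0 ↔ x.1 ∈ C.B q v :=
  Submodule.Quotient.mk_eq_zero ((C.B q v).comap (C.Z q v).subtype)

theorem Hmk_eq {q : ℤ} {v : G.V} {x y : C.Z q v} :
    C.Hmk q v x = C.Hmk q v y ↔ x.1 - y.1 ∈ C.B q v :=
  Submodule.Quotient.eq ((C.B q v).comap (C.Z q v).subtype)

theorem Hmk_surj (C : Cx G) (q : ℤ) (v : G.V) : Function.Surjective (C.Hmk q v) :=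
  Submodule.mkQ_surjective _

theorem Hmk_a (C : Cx G) (q : ℤ) (v w : G.V) (x : C.Z q v) :
    (C.H q).a v w (C.Hmk q v x) = C.Hmk q w ⟨C.X.a v w x.1, C.Z_a q v w x.1 x.2⟩ := rfl

/-- The map induced on cohomology. -/
def CHom.HMap (f : CHom C D) (q : ℤ) : Rp.Hom (C.H q) (D.H q) where
  f v := Submodule.mapQ ((C.B q v).comap (C.Z q v).subtype) ((D.B q v).comap (D.Z q v).subtype)
    ((f.f.f v).restrict fun _ hx => f.map_Z hx) fun _ hx => f.map_B hx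
  comm v w x := by
    induction x using Submodule.Quotient.induction_on with
    | H x => exact congrArg Submodule.Quotient.mk (Subtype.ext (f.f.comm v w x.1))
theorem Qis.cl_eq {f : CHom C D} (h : Qis f) : C.cl = D.cl := Quot.sound ⟨f, h⟩
theorem CHom.HMap_mk (f : CHom C D) (q : ℤ) (v : G.V) (x : C.Z q v) :
    (f.HMap q).f v (C.Hmk q v x) = D.Hmk q v ⟨f.f.f v x.1, f.map_Z x.2⟩ := rfl
theorem Qis.of_bij (f : CHom C D) (h : ∀ v, Function.Bijective (f.f.f v)) : Qis f := by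
  intro q v
  refine ⟨fun z hz => ?_, fun z _ hz => ?_⟩
  · obtain ⟨y, rfl⟩ := (h v).2 z
    rw [mem_Z] at hz
    refine ⟨y, mem_Z.2 ⟨(h v).1 ?_, (h v).1 ?_⟩, by rw [sub_self]; exact zero_mem _⟩
    · rw [f.fd, hz.1, map_zero]
    · rw [f.fp, hz.2]
  · obtain ⟨y, h1, h2⟩ := mem_B.1 hz
    obtain ⟨y, rfl⟩ := (h v).2 y
    exact mem_B.2 ⟨y, (h v).1 (by rw [f.fp, h1]), (h v).1 (by rw [f.fd, h2])⟩
theorem cl_eq_of_bij (f : CHom C D) (h : ∀ v, Function.Bijective (f.f.f v)) : C.cl = D.cl :=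
  (Qis.of_bij f h).cl_eq
theorem Qis.comp {g : CHom D E} {f : CHom C D} (hg : Qis g) (hf : Qis f) : Qis (g.comp f) := by
  intro q v
  refine ⟨fun z hz => ?_, fun z hz h => (hf q v).2 z hz ((hg q v).2 _ (f.map_Z hz) h)⟩
  obtain ⟨y, hy, h1⟩ := (hg q v).1 z hz
  obtain ⟨x, hx, h2⟩ := (hf q v).1 y hy
  refine ⟨x, hx, ?_⟩
  have := add_mem (g.map_B h2) h1
  rwa [map_sub, sub_add_sub_cancel] at this
theorem Qis.of_comp_left {g : CHom D E} {f : CHom C D} {k : CHom C E}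
    (e : ∀ v x, g.f.f v (f.f.f v x) = k.f.f v x) (hk : Qis k) (hf : Qis f) : Qis g := by
  intro q v
  refine ⟨fun z hz => ?_, fun z hz h => ?_⟩
  · obtain ⟨y, hy, h1⟩ := (hk q v).1 z hz
    exact ⟨f.f.f v y, f.map_Z hy, by rwa [e]⟩
  · obtain ⟨y, hy, h1⟩ := (hf q v).1 z hz
    have h2 := add_mem (g.map_B h1) h
    rw [map_sub, sub_add_cancel, e] at h2
    have := sub_mem (f.map_B ((hk q v).2 y hy h2)) h1
    rwa [sub_sub_cancel] at this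
theorem Qis.of_comp_right {g : CHom D E} {f : CHom C D} {k : CHom C E}
    (e : ∀ v x, g.f.f v (f.f.f v x) = k.f.f v x) (hk : Qis k) (hg : Qis g) : Qis f := by
  intro q v
  refine ⟨fun z hz => ?_, fun z hz h => (hk q v).2 z hz (e v z ▸ g.map_B h)⟩
  obtain ⟨y, hy, h1⟩ := (hk q v).1 _ (g.map_Z hz)
  refine ⟨y, hy, (hg q v).2 _ (sub_mem (f.map_Z hy) hz) ?_⟩
  rwa [map_sub, e]
theorem Qis.iso_H {f : CHom C D} (h : Qis f) (q : ℤ) : (C.H q).Iso (D.H q) := by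
  refine ⟨f.HMap q, fun v => ⟨(injective_iff_map_eq_zero _).2 fun x hx => ?_, fun x => ?_⟩⟩
  · obtain ⟨x, rfl⟩ := C.Hmk_surj q v x
    rw [f.HMap_mk, Hmk_eq_zero] at hx
    exact Hmk_eq_zero.2 ((h q v).2 x.1 x.2 hx)
  · obtain ⟨x, rfl⟩ := D.Hmk_surj q v x
    obtain ⟨y, hy, h1⟩ := (h q v).1 x.1 x.2
    exact ⟨C.Hmk q v ⟨y, hy⟩, by rw [f.HMap_mk, Hmk_eq]; exact h1⟩
theorem iso_H_of_cl (h : C.cl = D.cl) (q : ℤ) : (C.H q).Iso (D.H q) := by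
  have h' := Quot.eqvGen_exact h
  clear h
  induction h' with
  | rel _ _ h => exact h.elim fun _ hf => hf.iso_H q
  | refl _ => exact Rp.Iso.refl _
  | symm _ _ _ ih => exact ih.symm
  | trans _ _ _ _ _ ih ih' => exact ih.trans ih'
theorem B_le_Z (C : Cx G) (q : ℤ) (v : G.V) : C.B q v ≤ C.Z q v := fun x hx => by
  obtain ⟨y, h1, rfl⟩ := mem_B.1 hx
  exact mem_Z.2 ⟨C.dd v y, by rw [← C.dp', h1]⟩
theorem hd_cl (C : Cx G) (q : ℤ) (v : G.V) : hd C.cl q v = (C.H q).dm v := (iso_H_of_cl (Quot.out_eq C.cl) q).dm_eq v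
theorem hd_eq_zero_iff (C : Cx G) (q : ℤ) (v : G.V) : hd C.cl q v = 0 ↔ C.Z q v ≤ C.B q v := by
  rw [hd_cl, Rp.dm, finrank_zero_iff_forall_zero]
  refine ⟨fun h x hx => Hmk_eq_zero.1 (h (C.Hmk q v ⟨x, hx⟩)), fun h x => ?_⟩
  obtain ⟨x, rfl⟩ := C.Hmk_surj q v x
  exact Hmk_eq_zero.2 (h x.2)

end Cx

variable {ξ : Cl G} {q : ℤ} {N N' : Rp G}

theorem exists_cl (ξ : Cl G) : ∃ C : Cx G, C.cl = ξ := Quot.exists_rep ξ
theorem hIs_cl (C : Cx G) (q : ℤ) : HIs C.cl q (C.H q) := ⟨C, rfl, Rp.Iso.refl _⟩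
theorem exists_hIs (ξ : Cl G) (q : ℤ) : ∃ N, HIs ξ q N := (exists_cl ξ).elim fun C h => ⟨C.H q, C, h, Rp.Iso.refl _⟩
theorem HIs.iso (h : HIs ξ q N) (h' : HIs ξ q N') : N.Iso N' := by
  obtain ⟨C, hC, e⟩ := h
  obtain ⟨D, hD, e'⟩ := h'
  exact e.symm.trans ((Cx.iso_H_of_cl (hC.trans hD.symm) q).trans e')
theorem HIs.of_iso (h : HIs ξ q N) (e : N.Iso N') : HIs ξ q N' := h.imp fun _ h => ⟨h.1, h.2.trans e⟩
theorem HIs.dm_eq (h : HIs ξ q N) (v : G.V) : N.dm v = hd ξ q v := by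
  obtain ⟨C, rfl, e⟩ := h
  rw [Cx.hd_cl, e.dm_eq]
theorem hd_bdd (ξ : Cl G) : ∃ q0, ∀ q < q0, ∀ v, hd ξ q v = 0 := by
  obtain ⟨C, rfl⟩ := exists_cl ξ
  obtain ⟨q0, h⟩ := C.bdd
  refine ⟨q0, fun q hq v => (C.hd_eq_zero_iff q v).2 fun x hx => ?_⟩
  rw [← (Cx.mem_Z.1 hx).2, h q hq]
  exact zero_mem _
theorem hIs_ofRp (N : Rp G) (q : ℤ) : HIs (Cx.ofRp N q).cl q N := by
  have hZ : ∀ v (x : N.E v), x ∈ (Cx.ofRp N q).Z q v := fun v x =>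
    Cx.mem_Z.2 ⟨rfl, show (if q = q then LinearMap.id else 0 : N.E v →ₗ[kk] N.E v) x = x by
      rw [if_pos rfl]; rfl⟩
  refine ⟨_, rfl, Rp.Iso.symm ⟨⟨fun v => ((Cx.ofRp N q).Hmk q v).comp (LinearMap.codRestrict
    ((Cx.ofRp N q).Z q v) LinearMap.id (hZ v)), fun v w x => rfl⟩,
    fun v => ⟨(injective_iff_map_eq_zero _).2 fun x hx => ?_, fun x => ?_⟩⟩⟩
  · have hx' : (Cx.ofRp N q).Hmk q v ⟨x, hZ v x⟩ = 0 := hx
    obtain ⟨y, _, h⟩ := Cx.mem_B.1 (Cx.Hmk_eq_zero.1 hx')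
    exact h.symm
  · obtain ⟨x, rfl⟩ := (Cx.ofRp N q).Hmk_surj q v x
    exact ⟨x.1, rfl⟩
theorem hd_ofRp (N : Rp G) {q q0 : ℤ} (h : q ≠ q0) (v : G.V) : hd (Cx.ofRp N q0).cl q v = 0 := (Cx.hd_eq_zero_iff _ q v).2 fun x hx => by
    have := (Cx.mem_Z.1 hx).2
    simp only [Cx.ofRp, if_neg h, LinearMap.zero_apply] at this
    rw [← this]
    exact zero_mem _
theorem dm_simpleO (v : G.V) : (simpleO G).dm v = if v = G.o then 1 else 0 := by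
  change Module.finrank kk (PLift (v = G.o) → kk) = _
  rw [Module.finrank_fintype_fun_eq_card]
  split_ifs with h
  · exact Fintype.card_eq_one_iff.2 ⟨⟨h⟩, fun _ => rfl⟩
  · exact Fintype.card_eq_zero_iff.2 ⟨fun x => h x.1⟩

end Vale.Agent.P203
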