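import Vale.Agent.P203.CxA

/-! Part CxB, helper file: five lemma chases for plain complexes. -/

namespace Vale.Agent.P203
open Classical

/-- A complex structure on a vector space. -/
structure PC (V : Type) [AddCommGroup V] [Module kk V] where
  p : ℤ → V →ₗ[kk] V
  d : V →ₗ[kk] V
  pp : ∀ q x, p q (p q x) = p q x
  dp : ∀ q x, d (p (q - 1) x) = p q (d x)
  dd : ∀ x, d (d x) = 0

namespace PC
variable {K M N K' M' N' : Type} [AddCommGroup K] [Module kk K] [AddCommGroup M] [Module kk M]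
  [AddCommGroup N] [Module kk N] [AddCommGroup K'] [Module kk K'] [AddCommGroup M'] [Module kk M']
  [AddCommGroup N'] [Module kk N']

/-- Chain maps. -/
structure Map (A : PC K) (B : PC M) (f : K →ₗ[kk] M) : Prop where
  fp : ∀ q x, f (A.p q x) = B.p q (f x)
  fd : ∀ x, f (A.d x) = B.d (f x)

/-- Quasi-isomorphisms. -/
structure Q (A : PC K) (B : PC M) (f : K →ₗ[kk] M) : Prop where
  surj : ∀ q z, B.d z = 0 → B.p q z = z → ∃ z' y, A.d z' = 0 ∧ A.p q z' = z' ∧ B.d y = f z' - z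
  inj : ∀ q z y, A.d z = 0 → A.p q z = z → B.d y = f z → ∃ y', A.d y' = z

/-- Short exact sequences. -/
structure SES (A : PC K) (B : PC M) (C : PC N) (i : K →ₗ[kk] M) (j : M →ₗ[kk] N) : Prop where
  mi : Map A B i
  mj : Map B C j
  inj : ∀ x, i x = 0 → x = 0
  ji : ∀ x, j (i x) = 0
  ex : ∀ y, j y = 0 → ∃ x, i x = y
  surj : ∀ z, ∃ y, j y = z

theorem fix (A : PC K) {q : ℤ} {x y : K} (hx : A.p q x = x) (h : A.d y = x) :
    ∃ y', A.p (q - 1) y' = y' ∧ A.d y' = x :=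
  ⟨A.p (q - 1) y, A.pp _ _, by rw [A.dp, h, hx]⟩

variable {A : PC K} {B : PC M} {C : PC N} {i : K →ₗ[kk] M} {j : M →ₗ[kk] N}
  {A' : PC K'} {B' : PC M'} {C' : PC N'} {i' : K' →ₗ[kk] M'} {j' : M' →ₗ[kk] N'}
  {a : K →ₗ[kk] K'} {b : M →ₗ[kk] M'} {c : N →ₗ[kk] N'}

theorem SES.lift (S : SES A B C i j) {q : ℤ} {z : N} (hz : C.p q z = z) :
    ∃ y, B.p q y = y ∧ j y = z := by
  obtain ⟨y, rfl⟩ := S.surj z
  exact ⟨B.p q y, B.pp _ _, by rw [S.mj.fp, hz]⟩

theorem SES.eq (S : SES A B C i j) {x y : K} (h : i x = i y) : x = y :=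
  sub_eq_zero.1 (S.inj _ (by rw [map_sub, h, sub_self]))

theorem five_ker (S : SES A B C i j) (S' : SES A' B' C' i' j') (mb : Map B B' b) (mc : Map C C' c)
    (e1 : ∀ x, i' (a x) = b (i x)) (e2 : ∀ x, j' (b x) = c (j x)) (qb : Q B B' b)
    (qc : Q C C' c) : Q A A' a := by
  constructor
  · intro q z hz1 hz2
    obtain ⟨z1, y, h1, h2, h3⟩ := qb.surj q (i' z) (by rw [← S'.mi.fd, hz1, map_zero])
      (by rw [← S'.mi.fp, hz2])
    obtain ⟨y, hy, h3⟩ := B'.fix (q := q) (by rw [map_sub, ← mb.fp, ← S'.mi.fp, h2, hz2]) h3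
    obtain ⟨t, ht⟩ := qc.inj q (j z1) (j' y) (by rw [← S.mj.fd, h1, map_zero])
      (by rw [← S.mj.fp, h2]) (by rw [← S'.mj.fd, h3, map_sub, S'.ji, sub_zero, e2])
    obtain ⟨t, ht', ht⟩ := C.fix (q := q) (by rw [← S.mj.fp, h2]) ht
    obtain ⟨s, hs, rfl⟩ := S.lift ht'
    obtain ⟨r, u, hr1, hr2, hu⟩ := qc.surj (q - 1) (j' (y - b s))
      (by rw [← S'.mj.fd, map_sub, h3, ← mb.fd, map_sub, map_sub, S'.ji, e2, e2, S.mj.fd, ht]; abel)
      (by rw [← S'.mj.fp, map_sub, hy, ← mb.fp, hs])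
    obtain ⟨s2, hs2, rfl⟩ := S.lift hr2
    obtain ⟨s3, rfl⟩ := S'.surj u
    obtain ⟨x, hx⟩ := S.ex (z1 - B.d s - B.d s2)
      (by rw [map_sub, map_sub, S.mj.fd, S.mj.fd, ht, hr1]; abel)
    obtain ⟨w, hw⟩ := S'.ex (y - b s - b s2 + B'.d s3)
      (by rw [map_add, map_sub, S'.mj.fd, hu, e2 s2]; abel)
    refine ⟨x, w, S.inj _ ?_, S.eq ?_, S'.eq ?_⟩
    · rw [S.mi.fd, hx, map_sub, map_sub, h1, B.dd, B.dd]; abel
    · rw [S.mi.fp, hx, map_sub, map_sub, h2, ← B.dp, ← B.dp, hs, hs2]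
    · rw [S'.mi.fd, hw, map_sub, e1, hx]
      simp only [map_add, map_sub, B'.dd, h3, mb.fd]; abel
  · intro q z y hz1 hz2 hy
    obtain ⟨y, hy', hy⟩ := A'.fix (q := q) (S'.eq (by rw [S'.mi.fp, e1, ← mb.fp, ← S.mi.fp, hz2])) hy
    obtain ⟨s, hs⟩ := qb.inj q (i z) (i' y) (by rw [← S.mi.fd, hz1, map_zero])
      (by rw [← S.mi.fp, hz2]) (by rw [← S'.mi.fd, hy, e1])
    obtain ⟨s, hs', hs⟩ := B.fix (q := q) (by rw [← S.mi.fp, hz2]) hs
    obtain ⟨s1, t, h1, h2, ht⟩ := qb.surj (q - 1) (b s - i' y)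
      (by rw [map_sub, ← mb.fd, ← S'.mi.fd, hs, hy, e1, sub_self])
      (by rw [map_sub, ← mb.fp, ← S'.mi.fp, hs', hy'])
    obtain ⟨u, hu⟩ := qc.inj (q - 1) (j (s1 - s)) (j' t)
      (by rw [← S.mj.fd, map_sub, h1, hs, map_sub, S.ji, map_zero, sub_zero])
      (by rw [← S.mj.fp, map_sub, h2, hs'])
      (by rw [← S'.mj.fd, ht, ← e2]; simp only [map_sub, S'.ji, sub_zero])
    obtain ⟨s3, rfl⟩ := S.surj u
    obtain ⟨x, hx⟩ := S.ex (s - s1 + B.d s3)
      (by rw [map_add, S.mj.fd, hu, map_sub, map_sub]; abel)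
    refine ⟨x, S.eq ?_⟩
    rw [S.mi.fd, hx, map_add, map_sub, B.dd, h1, hs]; abel

theorem five_coker (S : SES A B C i j) (S' : SES A' B' C' i' j') (ma : Map A A' a)
    (mb : Map B B' b) (e1 : ∀ x, i' (a x) = b (i x)) (e2 : ∀ x, j' (b x) = c (j x))
    (qa : Q A A' a) (qb : Q B B' b) : Q C C' c := by
  have hp : ∀ q (y : M) (x : K), B.p (q + 1 - 1) y = y → i x = B.d y → A.p (q + 1) x = x :=
    fun q y x h1 h2 => S.eq (by rw [S.mi.fp, h2, ← B.dp, h1])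
  have hp' : ∀ q (y : M') (x : K'), B'.p (q + 1 - 1) y = y → i' x = B'.d y → A'.p (q + 1) x = x :=
    fun q y x h1 h2 => S'.eq (by rw [S'.mi.fp, h2, ← B'.dp, h1])
  simp only [add_sub_cancel_right] at hp hp'
  constructor
  · intro q z hz1 hz2
    obtain ⟨y, hy, rfl⟩ := S'.lift hz2
    obtain ⟨x, hx⟩ := S'.ex (B'.d y) (by rw [S'.mj.fd, hz1])
    obtain ⟨x1, u, h1, h2, hu⟩ := qa.surj (q + 1) x (S'.inj _ (by rw [S'.mi.fd, hx, B'.dd]))
      (hp' q y x hy hx)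
    obtain ⟨u, hu', hu⟩ := A'.fix (q := q + 1)
      (by rw [map_sub, ← ma.fp, h2, hp' q y x hy hx]) hu
    rw [add_sub_cancel_right] at hu'
    obtain ⟨s, hs⟩ := qb.inj (q + 1) (i x1) (y + i' u) (by rw [← S.mi.fd, h1, map_zero])
      (by rw [← S.mi.fp, h2]) (by rw [map_add, ← S'.mi.fd, hu, map_sub, hx, e1]; abel)
    obtain ⟨s, hs', hs⟩ := B.fix (q := q + 1) (by rw [← S.mi.fp, h2]) hs
    rw [add_sub_cancel_right] at hs'
    obtain ⟨s1, t, h3, h4, ht⟩ := qb.surj q (y + i' u - b s)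
      (by rw [map_sub, map_add, ← S'.mi.fd, ← mb.fd, hu, map_sub, hx, e1, hs]; abel)
      (by rw [map_sub, map_add, ← S'.mi.fp, ← mb.fp, hu', hs', hy])
    refine ⟨j (s + s1), j' t, ?_, ?_, ?_⟩
    · rw [← S.mj.fd, map_add, hs, h3, add_zero, S.ji]
    · rw [← S.mj.fp, map_add, hs', h4]
    · rw [← S'.mj.fd, ht, ← e2]
      simp only [map_sub, map_add, S'.ji]; abel
  · intro q z y hz1 hz2 hy
    obtain ⟨s, hs, rfl⟩ := S.lift hz2
    obtain ⟨x, hx⟩ := S.ex (B.d s) (by rw [S.mj.fd, hz1])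
    obtain ⟨y, hy', hy⟩ := C'.fix (q := q) (by rw [← e2, ← S'.mj.fp, ← mb.fp, hs]) hy
    obtain ⟨t, ht, rfl⟩ := S'.lift hy'
    obtain ⟨u, hu⟩ := S'.ex (b s - B'.d t) (by rw [map_sub, S'.mj.fd, hy, e2, sub_self])
    have hu' : A'.p q u = u := S'.eq (by rw [S'.mi.fp, hu, map_sub, ← mb.fp, ← B'.dp, hs, ht])
    obtain ⟨x1, h1⟩ := qa.inj (q + 1) x u (S.inj _ (by rw [S.mi.fd, hx, B.dd])) (hp q s x hs hx)
      (S'.eq (by rw [S'.mi.fd, hu, e1, hx, map_sub, B'.dd, mb.fd, sub_zero]))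
    obtain ⟨x1, h1', h1⟩ := A.fix (hp q s x hs hx) h1
    rw [add_sub_cancel_right] at h1'
    obtain ⟨x2, w, h2, h3, hw⟩ := qa.surj q (u - a x1)
      (S'.eq (by
        rw [S'.mi.fd, map_sub, map_sub, hu, e1, ← mb.fd, ← S.mi.fd, h1, hx, map_sub, B'.dd, mb.fd,
          map_zero]; abel))
      (by rw [map_sub, ← ma.fp, hu', h1'])
    obtain ⟨r, hr⟩ := qb.inj q (s - i x1 - i x2) (t - i' w)
      (by rw [map_sub, map_sub, ← S.mi.fd, ← S.mi.fd, h1, h2, hx, map_zero]; abel)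
      (by rw [map_sub, map_sub, ← S.mi.fp, ← S.mi.fp, hs, h1', h3])
      (by
        rw [map_sub, ← S'.mi.fd, hw]
        simp only [map_sub, hu, e1]; abel)
    refine ⟨j r, ?_⟩
    rw [← S.mj.fd, hr, map_sub, map_sub, S.ji, S.ji]; abel

theorem Q.of_bij (mi : Map A B i) (mi' : Map A' B' i') (hi : Function.Bijective i)
    (hi' : Function.Bijective i') (e1 : ∀ x, i' (a x) = b (i x)) : Q A A' a ↔ Q B B' b := by
  constructor
  · intro qa
    constructor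
    · intro q z hz1 hz2
      obtain ⟨z, rfl⟩ := hi'.2 z
      obtain ⟨x, y, h1, h2, h3⟩ := qa.surj q z (hi'.1 (by rw [mi'.fd, hz1, map_zero]))
        (hi'.1 (by rw [mi'.fp, hz2]))
      exact ⟨i x, i' y, by rw [← mi.fd, h1, map_zero], by rw [← mi.fp, h2],
        by rw [← mi'.fd, h3, map_sub, e1]⟩
    · intro q z y hz1 hz2 hy
      obtain ⟨z, rfl⟩ := hi.2 z
      obtain ⟨y, rfl⟩ := hi'.2 y
      obtain ⟨x, hx⟩ := qa.inj q z y (hi.1 (by rw [mi.fd, hz1, map_zero]))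
        (hi.1 (by rw [mi.fp, hz2])) (hi'.1 (by rw [mi'.fd, hy, e1]))
      exact ⟨i x, by rw [← mi.fd, hx]⟩
  · intro qb
    constructor
    · intro q z hz1 hz2
      obtain ⟨x, y, h1, h2, h3⟩ := qb.surj q (i' z) (by rw [← mi'.fd, hz1, map_zero])
        (by rw [← mi'.fp, hz2])
      obtain ⟨x, rfl⟩ := hi.2 x
      obtain ⟨y, rfl⟩ := hi'.2 y
      exact ⟨x, y, hi.1 (by rw [mi.fd, h1, map_zero]), hi.1 (by rw [mi.fp, h2]),
        hi'.1 (by rw [mi'.fd, h3, map_sub, e1])⟩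
    · intro q z y hz1 hz2 hy
      obtain ⟨x, hx⟩ := qb.inj q (i z) (i' y) (by rw [← mi.fd, hz1, map_zero])
        (by rw [← mi.fp, hz2]) (by rw [← mi'.fd, hy, e1])
      obtain ⟨x, rfl⟩ := hi.2 x
      exact ⟨x, hi.1 (by rw [mi.fd, hx])⟩

end PC

namespace Cx
variable {G : Gr} {C D : Cx G}

/-- The plain complex at a vertex. -/
def pc (C : Cx G) (v : G.V) : PC (C.X.E v) :=
  ⟨fun q => (C.p q).f v, C.d.f v, fun q => C.pp q v, fun q => C.dp' q v, C.dd v⟩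

theorem CHom.pc_map (f : CHom C D) (v : G.V) : PC.Map (C.pc v) (D.pc v) (f.f.f v) :=
  ⟨fun q => f.fp q v, f.fd v⟩

theorem qis_iff (f : CHom C D) : Qis f ↔ ∀ v, PC.Q (C.pc v) (D.pc v) (f.f.f v) := by
  constructor
  · intro h v
    constructor
    · intro q z h1 h2
      obtain ⟨x, hx, h3⟩ := (h q v).1 z (mem_Z.2 ⟨h1, h2⟩)
      obtain ⟨y, _, hy⟩ := mem_B.1 h3
      exact ⟨x, y, (mem_Z.1 hx).1, (mem_Z.1 hx).2, hy⟩
    · intro q z y h1 h2 h3
      have hz := mem_Z.2 ⟨h1, h2⟩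
      obtain ⟨x, _, hx⟩ := mem_B.1 ((h q v).2 z hz (mem_B_of_d (mem_Z.1 (f.map_Z hz)).2 h3))
      exact ⟨x, hx⟩
  · intro h q v
    refine ⟨fun z hz => ?_, fun z hz hb => ?_⟩
    · obtain ⟨x, y, h1, h2, h3⟩ := (h v).surj q z (mem_Z.1 hz).1 (mem_Z.1 hz).2
      have hx := mem_Z.2 ⟨h1, h2⟩
      exact ⟨x, hx, mem_B_of_d (mem_Z.1 (sub_mem (f.map_Z hx) hz)).2 h3⟩
    · obtain ⟨y, _, hy⟩ := mem_B.1 hb
      obtain ⟨x, hx⟩ := (h v).inj q z y (mem_Z.1 hz).1 (mem_Z.1 hz).2 hy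
      exact mem_B_of_d (mem_Z.1 hz).2 hx

/-- The map induced on families supported on the neighbours. -/
def nbM {X Y : Rp G} (f : Rp.Hom X Y) (v : G.V) : Rp.NbS X v →ₗ[kk] Rp.NbS Y v where
  toFun p := ⟨fun w => f.f w (p.1 w),
    fun w hw => (congrArg (f.f w) (p.2 w hw)).trans (map_zero _)⟩
  map_add' p q := Subtype.ext (funext fun w => map_add (f.f w) _ _)
  map_smul' c p := Subtype.ext (funext fun w => map_smul (f.f w) _ _)

/-- The plain complex of families supported on the neighbours. -/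
def nbpc (C : Cx G) (v : G.V) : PC (Rp.NbS C.X v) :=
  ⟨fun q => nbM (C.p q) v, nbM C.d v, fun q _ => Subtype.ext (funext fun w => C.pp q w _),
    fun q _ => Subtype.ext (funext fun w => C.dp' q w _),
    fun _ => Subtype.ext (funext fun w => C.dd w _)⟩

theorem CHom.nbpc_map (f : CHom C D) (v : G.V) : PC.Map (C.nbpc v) (D.nbpc v) (nbM f.f v) :=
  ⟨fun q _ => Subtype.ext (funext fun w => f.fp q w _),
    fun _ => Subtype.ext (funext fun w => f.fd w _)⟩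

theorem Qis.nb {f : CHom C D} (h : Qis f) (v : G.V) : PC.Q (C.nbpc v) (D.nbpc v) (nbM f.f v) := by
  rw [qis_iff] at h
  constructor
  · intro q z h1 h2
    have : ∀ w, ∃ x y, (¬ G.adj v w → x = 0) ∧ (¬ G.adj v w → y = 0) ∧ C.d.f w x = 0 ∧
        (C.p q).f w x = x ∧ D.d.f w y = f.f.f w x - z.1 w := by
      intro w
      by_cases hw : G.adj v w
      · obtain ⟨x, y, h⟩ := (h w).surj q (z.1 w) (congrArg (fun t => t.1 w) h1)
          (congrArg (fun t => t.1 w) h2)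
        exact ⟨x, y, fun h => absurd hw h, fun h => absurd hw h, h⟩
      · exact ⟨0, 0, fun _ => rfl, fun _ => rfl, map_zero _, map_zero _, by simp [z.2 w hw]⟩
    choose x y hx hy k1 k2 k3 using this
    exact ⟨⟨x, hx⟩, ⟨y, hy⟩, Subtype.ext (funext k1), Subtype.ext (funext k2),
      Subtype.ext (funext k3)⟩
  · intro q z y h1 h2 h3
    have : ∀ w, ∃ x, (¬ G.adj v w → x = 0) ∧ C.d.f w x = z.1 w := by
      intro w
      by_cases hw : G.adj v w
      · obtain ⟨x, h⟩ := (h w).inj q (z.1 w) (y.1 w) (congrArg (fun t => t.1 w) h1)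
          (congrArg (fun t => t.1 w) h2) (congrArg (fun t => t.1 w) h3)
        exact ⟨x, fun h => absurd hw h, h⟩
      · exact ⟨0, fun _ => rfl, by simp [z.2 w hw]⟩
    choose x hx k using this
    exact ⟨⟨x, hx⟩, Subtype.ext (funext k)⟩

/-- The kernel reflection functor on chain maps. -/
noncomputable def CHom.sig (f : CHom C D) (F : Ind G) : CHom (C.sig F) (D.sig F) where
  f := Rp.sigMap F f.f
  fp q v _ := Subtype.ext (Prod.ext (f.fp q v _) (funext fun w => f.fp q w _))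
  fd v _ := Subtype.ext (Prod.ext (f.fd v _) (funext fun w => f.fd w _))

/-- The cokernel reflection functor on chain maps. -/
noncomputable def CHom.cos (f : CHom C D) (F : Ind G) : CHom (C.cos F) (D.cos F) where
  f := Rp.cosMap F f.f
  fp q v x := Submodule.Quotient.induction_on _ x fun x => congrArg Submodule.Quotient.mk
    (Prod.ext (f.fp q v x.1) (funext fun w => f.fp q w (x.2 w)))
  fd v x := Submodule.Quotient.induction_on _ x fun x => congrArg Submodule.Quotient.mk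
    (Prod.ext (f.fd v x.1) (funext fun w => f.fd w (x.2 w)))

variable {F : Ind G} {v : G.V}

/-- The inclusion of the kernel. -/
def sigI (X : Rp G) (hv : v ∈ F.F) : (Rp.sig F X).E v →ₗ[kk] Rp.NbS X v where
  toFun p := ⟨p.1.2, (p.2.1 hv).2.1⟩
  map_add' _ _ := rfl
  map_smul' _ _ := rfl

theorem ses_sig (C : Cx G) (hv : v ∈ F.F) (h : C.X.InOn v) :
    PC.SES ((C.sig F).pc v) (C.nbpc v) (C.pc v) (sigI C.X hv)
      ((C.X.inn v).domRestrict (Rp.NbS C.X v)) where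
  mi := ⟨fun _ _ => rfl, fun _ => rfl⟩
  mj := ⟨fun q x => Rp.inn_map (C.p q) v x.1, fun x => Rp.inn_map C.d v x.1⟩
  inj x hx := Subtype.ext (Prod.ext (x.2.1 hv).1 (congrArg Subtype.val hx))
  ji x := (x.2.1 hv).2.2
  ex y hy := ⟨⟨(0, y.1), fun _ => ⟨rfl, y.2, hy⟩, fun h => absurd hv h⟩, rfl⟩
  surj z := (Rp.range_innN C.X v).ge (h z)

theorem map_offE (C : Cx G) (hv : v ∉ F.F) :
    PC.Map (C.pc v) ((C.sig F).pc v) (Rp.offE C.X hv).toLinearMap :=
  ⟨fun q _ => Subtype.ext (Prod.ext rfl (funext fun w => (map_zero ((C.p q).f w)).symm)),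
    fun _ => Subtype.ext (Prod.ext rfl (funext fun w => (map_zero (C.d.f w)).symm))⟩

theorem Qis.sig {f : CHom C D} (h : Qis f) (hC : ∀ v ∈ F.F, C.X.InOn v)
    (hD : ∀ v ∈ F.F, D.X.InOn v) : Qis (f.sig F) := by
  refine (qis_iff _).2 fun v => ?_
  by_cases hv : v ∈ F.F
  · exact PC.five_ker (ses_sig C hv (hC v hv)) (ses_sig D hv (hD v hv)) (f.nbpc_map v) (f.pc_map v)
      (fun _ => rfl) (fun x => Rp.inn_map f.f v x.1) (h.nb v) ((qis_iff f).1 h v)
  · exact (PC.Q.of_bij (a := f.f.f v) (b := (f.sig F).f.f v) (map_offE C hv) (map_offE D hv)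
      (Rp.offE C.X hv).bijective (Rp.offE D.X hv).bijective fun _ =>
        Subtype.ext (Prod.ext rfl (funext fun w => (map_zero (f.f.f w)).symm))).1
      ((qis_iff f).1 h v)

/-- The outgoing map. -/
def outN (X : Rp G) (v : G.V) : X.E v →ₗ[kk] Rp.NbS X v where
  toFun x := ⟨fun w => X.a v w x, fun w hw => LinearMap.congr_fun (X.a_zero v w hw) x⟩
  map_add' _ _ := Subtype.ext (funext fun w => map_add (X.a v w) _ _)
  map_smul' _ _ := Subtype.ext (funext fun w => map_smul (X.a v w) _ _)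

/-- The projection on the cokernel. -/
noncomputable def cosP (F : Ind G) (X : Rp G) (v : G.V) : Rp.NbS X v →ₗ[kk] (Rp.cos F X).E v :=
  (Rp.cosSub F X v).mkQ.comp ((LinearMap.inr kk _ _).comp (Rp.NbS X v).subtype)

theorem cosP_map (F : Ind G) {X Y : Rp G} (f : Rp.Hom X Y) (v : G.V) (x : Rp.NbS X v) :
    cosP F Y v (nbM f v x) = (Rp.cosMap F f).f v (cosP F X v x) :=
  congrArg Submodule.Quotient.mk (Prod.ext (map_zero (f.f v)).symm rfl)

theorem cosP_eq_zero {X : Rp G} (hv : v ∈ F.F) (y : Rp.NbS X v) :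
    cosP F X v y = 0 ↔ ∃ x, outN X v x = y := by
  refine (Submodule.Quotient.mk_eq_zero (Rp.cosSub F X v)).trans ⟨fun h => ?_, fun h => ?_⟩
  · obtain ⟨x, hx⟩ := h.1 hv
    refine ⟨x, Subtype.ext (funext fun w => ?_)⟩
    by_cases hw : G.adj v w
    · exact (hx w hw).symm
    · exact ((outN X v x).2 w hw).trans (y.2 w hw).symm
  · obtain ⟨x, rfl⟩ := h
    exact ⟨fun _ => ⟨x, fun _ _ => rfl⟩, fun h => absurd hv h⟩

theorem cosP_surj (X : Rp G) (hv : v ∈ F.F) : Function.Surjective (cosP F X v) := by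
  intro z
  induction z using Submodule.Quotient.induction_on with
  | H z =>
    refine ⟨⟨fun w => if G.adj v w then z.2 w else 0, fun w hw => if_neg hw⟩,
      (Submodule.Quotient.eq (Rp.cosSub F X v)).2 ⟨fun _ => ⟨0, fun w hw => ?_⟩,
        fun h => absurd hv h⟩⟩
    change (if G.adj v w then z.2 w else 0) - z.2 w = _
    rw [if_pos hw, sub_self, map_zero]

theorem ses_cos (C : Cx G) (hv : v ∈ F.F) (h : C.X.OutInj v) :
    PC.SES (C.pc v) (C.nbpc v) ((C.cos F).pc v) (outN C.X v) (cosP F C.X v) where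
  mi := ⟨fun q x => Subtype.ext (funext fun w => ((C.p q).comm v w x).symm),
    fun x => Subtype.ext (funext fun w => (C.d.comm v w x).symm)⟩
  mj := ⟨fun q x => cosP_map F (C.p q) v x, fun x => cosP_map F C.d v x⟩
  inj x hx := h x fun w => congrArg (fun t => t.1 w) hx
  ji x := (cosP_eq_zero hv _).2 ⟨x, rfl⟩
  ex y hy := (cosP_eq_zero hv _).1 hy
  surj := cosP_surj C.X hv

/-- The inclusion of `X v` in the cokernel reflection off `F`. -/
noncomputable def cosO (F : Ind G) (X : Rp G) (v : G.V) : X.E v →ₗ[kk] (Rp.cos F X).E v :=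
  (Rp.cosSub F X v).mkQ.comp (LinearMap.inl kk _ _)

theorem cosO_map (F : Ind G) {X Y : Rp G} (f : Rp.Hom X Y) (v : G.V) (x : X.E v) :
    cosO F Y v (f.f v x) = (Rp.cosMap F f).f v (cosO F X v x) :=
  congrArg Submodule.Quotient.mk (Prod.ext rfl (funext fun w => (map_zero (f.f w)).symm))

theorem cosO_bij (X : Rp G) (hv : v ∉ F.F) : Function.Bijective (cosO F X v) := by
  refine ⟨(injective_iff_map_eq_zero _).2 fun x hx =>
    ((Submodule.Quotient.mk_eq_zero (Rp.cosSub F X v)).1 hx).2 hv, fun z => ?_⟩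
  induction z using Submodule.Quotient.induction_on with
  | H z =>
    exact ⟨z.1, (Submodule.Quotient.eq (Rp.cosSub F X v)).2 ⟨fun h => absurd h hv,
      fun _ => sub_self z.1⟩⟩

theorem Qis.cos {f : CHom C D} (h : Qis f) (hC : ∀ v ∈ F.F, C.X.OutInj v)
    (hD : ∀ v ∈ F.F, D.X.OutInj v) : Qis (f.cos F) := by
  refine (qis_iff _).2 fun v => ?_
  by_cases hv : v ∈ F.F
  · exact PC.five_coker (ses_cos C hv (hC v hv)) (ses_cos D hv (hD v hv)) (f.pc_map v)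
      (f.nbpc_map v) (fun x => Subtype.ext (funext fun w => (f.f.comm v w x).symm))
      (cosP_map F f.f v) ((qis_iff f).1 h v) (h.nb v)
  · exact (PC.Q.of_bij (A := C.pc v) (B := (C.cos F).pc v) (A' := D.pc v) (B' := (D.cos F).pc v)
      ⟨fun q => cosO_map F (C.p q) v, cosO_map F C.d v⟩
      ⟨fun q => cosO_map F (D.p q) v, cosO_map F D.d v⟩ (cosO_bij C.X hv) (cosO_bij D.X hv)
      (cosO_map F f.f v)).1 ((qis_iff f).1 h v)

end Cx

end Vale.Agent.P203
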