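import Vale.Agent.P203.CxA

/-! Part RepB: the cokernel reflection functor. -/

namespace Vale.Agent.P203
open Classical

variable {G : Gr} {F : Ind G}

namespace Rp
variable {X Y : Rp G} {v : G.V}

/-- The class of a pair in the cokernel reflection. -/
noncomputable def cmk (F : Ind G) (X : Rp G) (v : G.V) :
    (X.E v × ∀ w, X.E w) →ₗ[kk] (cos F X).E v := (cosSub F X v).mkQ

theorem cmk_surj (q : (cos F X).E v) : ∃ p, cmk F X v p = q := Submodule.mkQ_surjective _ q

theorem cmk_zero {p : X.E v × ∀ w, X.E w} : cmk F X v p = 0 ↔ p ∈ cosSub F X v :=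
  Submodule.Quotient.mk_eq_zero _

theorem cmk_eq {p q : X.E v × ∀ w, X.E w} : cmk F X v p = cmk F X v q ↔ p - q ∈ cosSub F X v :=
  Submodule.Quotient.eq _

theorem cos_a (w : G.V) (p : X.E v × ∀ w, X.E w) :
    (cos F X).a v w (cmk F X v p) = cmk F X w (cosA F X v w p) := rfl

theorem cosMap_cmk (f : Hom X Y) (p : X.E v × ∀ w, X.E w) :
    (cosMap F f).f v (cmk F X v p) = cmk F Y v (amb f v p) := rfl

theorem cmk_off (hv : v ∉ F.F) {p q : X.E v × ∀ w, X.E w} :
    cmk F X v p = cmk F X v q ↔ p.1 = q.1 :=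
  cmk_eq.trans ⟨fun h => sub_eq_zero.1 (h.2 hv),
    fun h => ⟨fun h' => absurd h' hv, fun _ => sub_eq_zero.2 h⟩⟩

theorem cos_inn (hv : v ∈ F.F) (p : ∀ w, X.E w × ∀ u, X.E u) :
    (cos F X).inn v (fun w => cmk F X w (p w)) = cmk F X v (0, fun u => (p u).1) := by
  simp only [inn_apply, cos_a]
  rw [← map_sum, cmk_eq]
  refine ⟨fun _ => ⟨0, fun u hu => ?_⟩, fun h => absurd hv h⟩
  have hu' : u ∉ F.F := fun h => F.ind v hv u h hu
  simp only [Prod.snd_sub, Prod.snd_sum, Pi.sub_apply, Finset.sum_apply, map_zero]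
  rw [Finset.sum_eq_single u]
  · simp [cosA, hu']
  · intro w _ hw
    by_cases hw' : w ∈ F.F
    · simp [cosA, hw']
    · simp [cosA, hw', Pi.single_eq_of_ne (Ne.symm hw)]
  · simp

theorem cosMap_surj {f : Hom X Y} (hf : ∀ v, Function.Surjective (f.f v)) (F : Ind G) (v : G.V) :
    Function.Surjective ((cosMap F f).f v) := by
  intro q
  obtain ⟨p, rfl⟩ := cmk_surj q
  obtain ⟨x, hx⟩ := hf v p.1
  choose r hr using fun w => hf w (p.2 w)
  exact ⟨cmk F X v (x, r), congrArg (cmk F Y v) (Prod.ext hx (funext hr))⟩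

theorem Epi.cos (h : X.Epi Y) (F : Ind G) : (cos F X).Epi (cos F Y) :=
  h.elim fun f hf => ⟨cosMap F f, cosMap_surj hf F⟩
theorem Iso.cos (h : X.Iso Y) (F : Ind G) : (cos F X).Iso (cos F Y) := by
  obtain ⟨f, hf⟩ := h
  refine ⟨cosMap F f, fun v => ⟨(injective_iff_map_eq_zero _).2 fun q hq => ?_,
    cosMap_surj (fun v => (hf v).2) F v⟩⟩
  obtain ⟨p, rfl⟩ := cmk_surj q
  rw [cosMap_cmk, cmk_zero] at hq
  refine cmk_zero.2 ⟨fun h => ?_, fun h => (hf v).1 ((hq.2 h).trans (map_zero _).symm)⟩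
  obtain ⟨y, hy⟩ := hq.1 h
  obtain ⟨x, rfl⟩ := (hf v).2 y
  exact ⟨x, fun w hw => (hf w).1 ((hy w hw).trans (f.comm v w x).symm)⟩

/-- The map `X v → (cos F X) v`. -/
noncomputable def cin (F : Ind G) (X : Rp G) (v : G.V) : X.E v →ₗ[kk] (cos F X).E v :=
  (cmk F X v).comp (LinearMap.inl _ _ _)

theorem cin_apply (x : X.E v) : cin F X v x = cmk F X v (x, 0) := rfl

theorem cin_bij (hv : v ∉ F.F) : Function.Bijective (cin F X v) :=
  ⟨fun _ _ h => (cmk_off hv).1 h, fun q => (cmk_surj q).elim fun p hp =>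
    ⟨p.1, ((cmk_off (p := (p.1, 0)) (q := p) hv).2 rfl).trans hp⟩⟩

theorem dm_cos_off (X : Rp G) (hv : v ∉ F.F) : (cos F X).dm v = X.dm v :=
  (LinearEquiv.ofBijective _ (cin_bij hv)).finrank_eq.symm
theorem dm_cos_ge (X : Rp G) (hv : v ∈ F.F) : X.nb v ≤ (cos F X).dm v + X.dm v := by
  let φ : NbS X v →ₗ[kk] (cos F X).E v :=
    (cmk F X v).comp ((LinearMap.inr _ _ _).comp (NbS X v).subtype)
  let ψ : X.E v →ₗ[kk] NbS X v := LinearMap.codRestrict (NbS X v)
    (LinearMap.pi fun w => X.a v w) fun x w hw => by simp [X.a_zero v w hw]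
  have h1 := LinearMap.finrank_range_add_finrank_ker φ
  have h2 := Submodule.finrank_le (LinearMap.range φ)
  have h3 : LinearMap.ker φ ≤ LinearMap.range ψ := fun p hp => by
    obtain ⟨y, hy⟩ := (cmk_zero.1 hp).1 hv
    refine ⟨y, Subtype.ext (funext fun w => ?_)⟩
    by_cases hw : G.adj v w
    · exact (hy w hw).symm
    · rw [(ψ y).2 w hw, p.2 w hw]
  have h4 := (Submodule.finrank_mono h3).trans (LinearMap.finrank_range_le ψ)
  rw [finrank_NbS] at h1
  unfold dm
  omega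
theorem inOn_cos (X : Rp G) (hv : v ∈ F.F) : (cos F X).InOn v := by
  intro q
  obtain ⟨p, rfl⟩ := cmk_surj q
  exact ⟨_, (cos_inn hv fun w => (p.2 w, 0)).trans
    (cmk_eq.2 ⟨fun _ => ⟨0, fun w _ => by simp⟩, fun h => absurd hv h⟩)⟩

theorem sig_a (w : G.V) (s : (sig F X).E v) : ((sig F X).a v w s).1 = sigA F X v w s.1 := rfl

theorem sig_inn (hv : v ∈ F.F) (s : ∀ w, (sig F X).E w) :
    ((sig F X).inn v s).1 = (0, fun t => X.a v t (X.inn v fun u => (s u).1.1)) := by
  have e : ((sig F X).inn v s).1 = ∑ w, sigA F X w v (s w).1 := by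
    rw [inn_apply]
    exact map_sum (sigSub F X v).subtype _ _
  rw [e]
  ext u
  · simp [Prod.fst_sum, sigA, hv]
  · simp [Prod.snd_sum, sigA, hv, inn_apply]

/-- First coordinate of an element of the kernel reflection. -/
noncomputable def sfst (F : Ind G) (X : Rp G) (v : G.V) : (sig F X).E v →ₗ[kk] X.E v :=
  (LinearMap.fst _ _ _).comp (sigSub F X v).subtype

/-- The ambient counit. -/
noncomputable def epsA (F : Ind G) (X : Rp G) (v : G.V) :
    ((sig F X).E v × ∀ w, (sig F X).E w) →ₗ[kk] X.E v :=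
  if v ∈ F.F then (X.inn v).comp ((LinearMap.pi fun w => (sfst F X w).comp
    (LinearMap.proj w)).comp (LinearMap.snd _ _ _))
  else (sfst F X v).comp (LinearMap.fst _ _ _)

theorem epsA_in (hv : v ∈ F.F) (p : (sig F X).E v × ∀ w, (sig F X).E w) :
    epsA F X v p = X.inn v fun w => (p.2 w).1.1 := by rw [epsA, if_pos hv]; rfl

theorem epsA_off (hv : v ∉ F.F) (p : (sig F X).E v × ∀ w, (sig F X).E w) :
    epsA F X v p = p.1.1.1 := by rw [epsA, if_neg hv]; rfl

/-- The counit `cos F (sig F X) → X`. -/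
noncomputable def eps (F : Ind G) (X : Rp G) : Hom (cos F (sig F X)) X where
  f v := (cosSub F (sig F X) v).liftQ (epsA F X v) fun p hp => by
    rw [LinearMap.mem_ker]
    by_cases hv : v ∈ F.F
    · obtain ⟨y, hy⟩ := hp.1 hv
      obtain ⟨h1, -, h3⟩ := y.2.1 hv
      rw [epsA_in hv, ← h3]
      refine X.inn_congr v fun w hw => ?_
      have hw' : w ∉ F.F := fun h => F.ind v hv w h hw
      rw [hy w hw, sig_a]
      simp [sigA, hw', h1]
    · rw [epsA_off hv, hp.2 hv]; rfl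
  comm v w q := by
    obtain ⟨p, rfl⟩ := cmk_surj q
    change epsA F X w (cosA F (sig F X) v w p) = X.a v w (epsA F X v p)
    by_cases hv : v ∈ F.F <;> by_cases hw : w ∈ F.F
    · rw [epsA_in hw, X.a_zero v w (F.ind v hv w hw), cosA, if_pos hv]
      exact map_zero (X.inn w)
    · rw [epsA_off hw, epsA_in hv, cosA, if_pos hv]
      change (sigA F X v w ((sig F X).inn v p.2).1).1 = _
      rw [sig_inn hv]
      simp [sigA, hw]
    · rw [epsA_in hw, epsA_off hv, cosA, if_neg hv, ← inn_single]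
      congr 1
      funext u
      change ((Pi.single v p.1 : ∀ w, (sig F X).E w) u).1.1 = _
      by_cases hu : u = v
      · subst hu; simp
      · rw [Pi.single_eq_of_ne hu, Pi.single_eq_of_ne hu]; rfl
    · rw [epsA_off hw, epsA_off hv, cosA, if_neg hv]
      change (sigA F X v w p.1.1).1 = _
      simp [sigA, hw, p.1.2.2 hv]

theorem eps_cmk (p : (sig F X).E v × ∀ w, (sig F X).E w) :
    (eps F X).f v (cmk F (sig F X) v p) = epsA F X v p := rfl

theorem eps_bij (h : ∀ v ∈ F.F, X.InOn v) (v : G.V) : Function.Bijective ((eps F X).f v) := by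
  refine ⟨(injective_iff_map_eq_zero _).2 fun q hq => ?_, fun x => ?_⟩
  · obtain ⟨p, rfl⟩ := cmk_surj q
    rw [eps_cmk] at hq
    refine cmk_zero.2 ⟨fun hv => ?_, fun hv => ?_⟩
    · rw [epsA_in hv] at hq
      refine ⟨⟨(0, fun w => if G.adj v w then (p.2 w).1.1 else 0), fun _ => ⟨rfl,
        fun w hw => if_neg hw, (X.inn_congr v fun w hw => if_pos hw).trans hq⟩,
        fun h => absurd hv h⟩, fun w hw => Subtype.ext ?_⟩
      have hw' : w ∉ F.F := fun h => F.ind v hv w h hw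
      change _ = sigA F X v w _
      refine Prod.ext (by simp [sigA, hw', hw]) ?_
      rw [(p.2 w).2.2 hw']
      simp [sigA, hw']
    · rw [epsA_off hv] at hq
      exact Subtype.ext (Prod.ext hq (p.1.2.2 hv))
  · by_cases hv : v ∈ F.F
    · obtain ⟨p, rfl⟩ := h v hv x
      refine ⟨cmk F (sig F X) v (0, fun w => if hw : w ∈ F.F then 0 else offE X hw (p w)), ?_⟩
      rw [eps_cmk, epsA_in hv]
      refine X.inn_congr v fun w hw => ?_
      have hw' : w ∉ F.F := fun h => F.ind v hv w h hw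
      simp only [dif_neg hw']
      rfl
    · exact ⟨cmk F (sig F X) v (offE X hv x, 0), by rw [eps_cmk, epsA_off hv]; rfl⟩

theorem eps_nat (e : Hom X Y) (v : G.V) (q : (cos F (sig F X)).E v) :
    (eps F Y).f v ((cosMap F (sigMap F e)).f v q) = e.f v ((eps F X).f v q) := by
  obtain ⟨p, rfl⟩ := cmk_surj q
  rw [cosMap_cmk, eps_cmk, eps_cmk]
  by_cases hv : v ∈ F.F
  · rw [epsA_in hv, epsA_in hv, ← inn_map]; rfl
  · rw [epsA_off hv, epsA_off hv]; rfl

theorem cos_sig (h : ∀ v ∈ F.F, X.InOn v) : (cos F (sig F X)).Iso X := ⟨eps F X, eps_bij h⟩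

/-- The ambient unit. -/
noncomputable def uniA (F : Ind G) (X : Rp G) (v : G.V) :
    X.E v →ₗ[kk] ((cos F X).E v × ∀ w, (cos F X).E w) :=
  if v ∈ F.F then LinearMap.prod 0 (LinearMap.pi fun w => (cin F X w).comp (X.a v w))
  else (LinearMap.inl _ _ _).comp (cin F X v)

theorem uniA_in (hv : v ∈ F.F) (x : X.E v) :
    uniA F X v x = (0, fun w => cmk F X w (X.a v w x, 0)) := by rw [uniA, if_pos hv]; rfl

theorem uniA_off (hv : v ∉ F.F) (x : X.E v) : uniA F X v x = (cmk F X v (x, 0), 0) := by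
  rw [uniA, if_neg hv]; rfl

/-- The unit `X → sig F (cos F X)`. -/
noncomputable def uni (F : Ind G) (X : Rp G) : Hom X (sig F (cos F X)) where
  f v := LinearMap.codRestrict (sigSub F (cos F X) v) (uniA F X v) fun x =>
    ⟨fun hv => by
      rw [uniA_in hv]
      refine ⟨rfl, fun w hw => ?_, (cos_inn hv _).trans (cmk_zero.2
        ⟨fun _ => ⟨x, fun _ _ => rfl⟩, fun h => absurd hv h⟩)⟩
      simp only [X.a_zero v w hw]
      exact map_zero (cmk F X w), fun hv => by rw [uniA_off hv]⟩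
  comm v w x := by
    apply Subtype.ext
    change uniA F X w (X.a v w x) = sigA F (cos F X) v w (uniA F X v x)
    by_cases hv : v ∈ F.F <;> by_cases hw : w ∈ F.F
    · rw [uniA_in hv, X.a_zero v w (F.ind v hv w hw), LinearMap.zero_apply, map_zero]
      ext u <;> simp [sigA, hw]
    · rw [uniA_in hv, uniA_off hw]
      ext u <;> simp [sigA, hw]
    · rw [uniA_in hw, uniA_off hv]
      ext u
      · simp [sigA, hw]
      · simp [sigA, hw, cos_a, cosA, hv, inn_single]
    · rw [uniA_off hw, uniA_off hv]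
      ext u
      · simp [sigA, hw, cos_a, cosA, hv, cmk_off hw]
      · simp [sigA, hw]

theorem uni_val (x : X.E v) : ((uni F X).f v x).1 = uniA F X v x := rfl

theorem uni_bij (h : ∀ v ∈ F.F, X.OutInj v) (v : G.V) : Function.Bijective ((uni F X).f v) := by
  refine ⟨(injective_iff_map_eq_zero _).2 fun x hx => ?_, fun s => ?_⟩
  · have e : uniA F X v x = 0 := congrArg Subtype.val hx
    by_cases hv : v ∈ F.F
    · rw [uniA_in hv] at e
      refine h v hv x fun w => ?_
      by_cases hw : w ∈ F.F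
      · rw [X.a_zero v w (F.ind v hv w hw)]; rfl
      · exact (cmk_zero.1 (congrFun (congrArg Prod.snd e) w)).2 hw
    · rw [uniA_off hv] at e
      exact (cmk_zero.1 (congrArg Prod.fst e)).2 hv
  · by_cases hv : v ∈ F.F
    · obtain ⟨h1, h2, h3⟩ := s.2.1 hv
      choose p hp using fun w => cmk_surj (s.1.2 w)
      rw [← funext hp, cos_inn hv, cmk_zero] at h3
      obtain ⟨y, hy⟩ := h3.1 hv
      refine ⟨y, Subtype.ext ?_⟩
      rw [uni_val, uniA_in hv]
      refine Prod.ext h1.symm (funext fun w => ?_)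
      by_cases hw : G.adj v w
      · exact ((cmk_off fun h => F.ind v hv w h hw).2 (hy w hw).symm).trans (hp w)
      · rw [h2 w hw]
        simp only [X.a_zero v w hw]
        exact map_zero (cmk F X w)
    · obtain ⟨x, hx⟩ := (cin_bij hv).2 s.1.1
      exact ⟨x, Subtype.ext (by
        rw [uni_val, uniA_off hv]; exact Prod.ext hx (s.2.2 hv).symm)⟩

theorem uni_nat (e : Hom X Y) (v : G.V) (x : X.E v) :
    (uni F Y).f v (e.f v x) = (sigMap F (cosMap F e)).f v ((uni F X).f v x) := by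
  apply Subtype.ext
  change uniA F Y v _ = amb (cosMap F e) v (uniA F X v x)
  have z : ∀ w (y : X.E w), (cosMap F e).f w (cmk F X w (y, 0)) = cmk F Y w (e.f w y, 0) :=
    fun w y => congrArg (cmk F Y w) (Prod.ext rfl (funext fun u => map_zero (e.f u)))
  by_cases hv : v ∈ F.F
  · rw [uniA_in hv, uniA_in hv]
    exact Prod.ext (map_zero ((cosMap F e).f v)).symm
      (funext fun w => ((z w _).trans (by rw [e.comm])).symm)
  · rw [uniA_off hv, uniA_off hv]
    exact Prod.ext (z v x).symm (funext fun w => (map_zero ((cosMap F e).f w)).symm)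

theorem sig_cos (h : ∀ v ∈ F.F, X.OutInj v) : X.Iso (sig F (cos F X)) := ⟨uni F X, uni_bij h⟩

end Rp

theorem Cx.cos_sig_cl (C : Cx G) (h : ∀ v ∈ F.F, C.X.InOn v) : ((C.sig F).cos F).cl = C.cl :=
  Cx.cl_eq_of_bij ⟨Rp.eps F C.X, fun q => Rp.eps_nat (C.p q), Rp.eps_nat C.d⟩ (Rp.eps_bij h)
theorem Cx.sig_cos_cl (C : Cx G) (h : ∀ v ∈ F.F, C.X.OutInj v) : ((C.cos F).sig F).cl = C.cl :=
  (Cx.cl_eq_of_bij (D := (C.cos F).sig F)
    ⟨Rp.uni F C.X, fun q => Rp.uni_nat (C.p q), Rp.uni_nat C.d⟩ (Rp.uni_bij h)).symm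

end Vale.Agent.P203
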