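import Vale.Agent.P203.CxR
import Vale.Agent.P203.RepB
import Vale.Agent.P203.CxB2

/-! Part CxB: the derived reflection functors. -/

namespace Vale.Agent.P203
open Classical

variable {G : Gr} {F : Ind G}

theorem Cx.Qis.sig_cl {C D : Cx G} {f : Cx.CHom C D} (h : Cx.Qis f)
    (hC : ∀ v ∈ F.F, C.X.InOn v) (hD : ∀ v ∈ F.F, D.X.InOn v) : (C.sig F).cl = (D.sig F).cl := (h.sig hC hD).cl_eq

theorem Cx.Qis.cos_cl {C D : Cx G} {f : Cx.CHom C D} (h : Cx.Qis f)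
    (hC : ∀ v ∈ F.F, C.X.OutInj v) (hD : ∀ v ∈ F.F, D.X.OutInj v) :
    (C.cos F).cl = (D.cos F).cl := (h.cos hC hD).cl_eq

theorem Ind.cxB_ne (F : Ind G) {v : G.V} (hv : v ∈ F.F) : v ≠ G.o := fun h => F.no (h ▸ hv)

theorem cxB_outInj {X : Rp G} {v w : G.V} (h : Function.Injective (X.a v w)) : X.OutInj v :=
  fun _ hx => h ((hx w).trans (map_zero _).symm)
theorem exists_T (F : Ind G) : ∃ T, IsT F T := by
  obtain ⟨R, hR1, hR2, hR3⟩ := Cx.exists_R G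
  obtain ⟨L, hL1, hL2, hL3⟩ := Cx.exists_L G
  have iR : ∀ C, ∀ v ∈ F.F, (R C).X.InOn v := fun C v hv =>
    Rp.inOn_of_surj (hR2 C v (F.cxB_ne hv))
  have iL : ∀ C, ∀ v ∈ F.F, (L C).X.OutInj v := fun C v hv => cxB_outInj (hL2 C v (F.cxB_ne hv))
  let T : Cl G → Cl G := Quot.lift (fun C => ((R C).sig F).cl) fun C D h =>
    h.elim fun f hf => (hR3 C D f hf).elim fun _ hg => hg.sig_cl (iR C) (iR D)
  let S : Cl G → Cl G := Quot.lift (fun C => ((L C).cos F).cl) fun C D h =>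
    h.elim fun f hf => (hL3 C D f hf).elim fun _ hg => hg.cos_cl (iL C) (iL D)
  have hT : ∀ C : Cx G, (∀ v ∈ F.F, C.X.InOn v) → T C.cl = (C.sig F).cl := fun C h =>
    (hR1 C).elim fun _ hg => (hg.sig_cl h (iR C)).symm
  have hS : ∀ C : Cx G, (∀ v ∈ F.F, C.X.OutInj v) → S C.cl = (C.cos F).cl := fun C h =>
    (hL1 C).elim fun _ hg => hg.cos_cl (iL C) h
  refine ⟨⟨T, S, fun ξ => ?_, fun ξ => ?_⟩, hT, hS⟩
  · obtain ⟨C, rfl⟩ := exists_cl ξ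
    obtain ⟨_, hg⟩ := hR1 C
    rw [hg.cl_eq, hT _ (iR C), hS _ fun v hv => Rp.outInj_sig _ hv, Cx.cos_sig_cl _ (iR C)]
  · obtain ⟨C, rfl⟩ := exists_cl ξ
    obtain ⟨_, hg⟩ := hL1 C
    rw [← hg.cl_eq, hS _ (iL C), hT _ fun v hv => Rp.inOn_cos _ hv, Cx.sig_cos_cl _ (iL C)]

theorem isT_TT (F : Ind G) : IsT F (TT F) := by
  unfold TT; rw [dif_pos (exists_T F)]; exact (exists_T F).choose_spec

theorem TT_cl (C : Cx G) (h : ∀ v ∈ F.F, C.X.InOn v) : TT F C.cl = (C.sig F).cl :=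
  (isT_TT F).1 C h

theorem TT_symm_cl (C : Cx G) (h : ∀ v ∈ F.F, C.X.OutInj v) :
    (TT F).symm C.cl = (C.cos F).cl := (isT_TT F).2 C h

theorem exists_surj (ξ : Cl G) :
    ∃ C : Cx G, C.cl = ξ ∧ ∀ v, v ≠ G.o → Function.Surjective (C.X.a G.o v) := by
  obtain ⟨R, hR1, hR2, _⟩ := Cx.exists_R G
  obtain ⟨C, rfl⟩ := exists_cl ξ
  exact ⟨R C, (hR1 C).elim fun _ hg => hg.cl_eq.symm, hR2 C⟩

theorem exists_inj (ξ : Cl G) :
    ∃ C : Cx G, C.cl = ξ ∧ ∀ v, v ≠ G.o → Function.Injective (C.X.a v G.o) := by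
  obtain ⟨L, hL1, hL2, _⟩ := Cx.exists_L G
  obtain ⟨C, rfl⟩ := exists_cl ξ
  exact ⟨L C, (hL1 C).elim fun _ hg => hg.cl_eq, hL2 C⟩

end Vale.Agent.P203
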