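import Vale.Agent.P203.CxB

/-! Part CxC: cohomology of the derived reflection functors. -/

namespace Vale.Agent.P203
open Classical

variable {G : Gr} {F : Ind G} {ξ : Cl G} {q : ℤ} {N : Rp G} {v : G.V}

namespace Cx

/-- The representation of cycles. -/
def cZ (C : Cx G) (q : ℤ) : Rp G := C.X.sub (C.Z q) (C.Z_a q)

/-- The inclusion of the cycles. -/
def cI (C : Cx G) (q : ℤ) : Rp.Hom (C.cZ q) C.X := Rp.subI _ _ _

/-- The projection from cycles to cohomology. -/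
def cP (C : Cx G) (q : ℤ) : Rp.Hom (C.cZ q) (C.H q) := ⟨C.Hmk q, fun _ _ _ => rfl⟩

theorem cxC_Z1 {C : Cx G} (z : (C.sig F).Z q v) : z.1.1.1 ∈ C.Z q v :=
  mem_Z.2 ⟨congrArg (fun t => t.1.1) (mem_Z.1 z.2).1, congrArg (fun t => t.1.1) (mem_Z.1 z.2).2⟩

theorem cxC_Z2 {C : Cx G} (z : (C.sig F).Z q v) (w : G.V) : z.1.1.2 w ∈ C.Z q w :=
  mem_Z.2 ⟨congrArg (fun t => t.1.2 w) (mem_Z.1 z.2).1,
    congrArg (fun t => t.1.2 w) (mem_Z.1 z.2).2⟩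

/-- Cycles of the reflected complex as elements of the reflection of the cycles. -/
noncomputable def cθ0 (F : Ind G) (C : Cx G) (q : ℤ) (v : G.V) :
    (C.sig F).Z q v →ₗ[kk] (Rp.sig F (C.cZ q)).E v where
  toFun z := ⟨(⟨z.1.1.1, cxC_Z1 z⟩, fun w => ⟨z.1.1.2 w, cxC_Z2 z w⟩),
    fun h => ⟨Subtype.ext (z.1.2.1 h).1, fun w hw => Subtype.ext ((z.1.2.1 h).2.1 w hw),
      Subtype.ext ((Rp.inn_map (C.cI q) v _).symm.trans (z.1.2.1 h).2.2)⟩,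
    fun h => funext fun w => Subtype.ext (congrFun (z.1.2.2 h) w)⟩
  map_add' _ _ := rfl
  map_smul' _ _ := rfl

/-- The same as a morphism. -/
noncomputable def cθ (F : Ind G) (C : Cx G) (q : ℤ) :
    Rp.Hom ((C.sig F).cZ q) (Rp.sig F (C.cZ q)) where
  f := cθ0 F C q
  comm v w z := Rp.sigMap_inj (f := C.cI q) (fun _ => Subtype.val_injective) F w
    (by rw [(Rp.sigMap F (C.cI q)).comm]; rfl)

/-- The comparison morphism. -/
noncomputable def cφ (F : Ind G) (C : Cx G) (q : ℤ) :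
    Rp.Hom ((C.sig F).H q) (Rp.sig F (C.H q)) where
  f v := (((C.sig F).B q v).comap ((C.sig F).Z q v).subtype).liftQ
    (((Rp.sigMap F (C.cP q)).comp (cθ F C q)).f v) fun z hz => by
      obtain ⟨y, h1, h2⟩ := mem_B.1 hz
      exact Subtype.ext (Prod.ext
        (Hmk_eq_zero.2 (mem_B.2 ⟨y.1.1, congrArg (fun t => t.1.1) h1, congrArg (fun t => t.1.1) h2⟩))
        (funext fun w => Hmk_eq_zero.2 (mem_B.2 ⟨y.1.2 w, congrArg (fun t => t.1.2 w) h1,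
          congrArg (fun t => t.1.2 w) h2⟩)))
  comm v w x := by
    obtain ⟨x, rfl⟩ := (C.sig F).Hmk_surj q v x
    exact ((Rp.sigMap F (C.cP q)).comp (cθ F C q)).comm v w x

theorem cφ_1 (C : Cx G) (z : (C.sig F).Z q v) :
    ((cφ F C q).f v ((C.sig F).Hmk q v z)).1.1 = C.Hmk q v ⟨z.1.1.1, cxC_Z1 z⟩ := rfl

theorem cφ_2 (C : Cx G) (z : (C.sig F).Z q v) (w : G.V) :
    ((cφ F C q).f v ((C.sig F).Hmk q v z)).1.2 w = C.Hmk q w ⟨z.1.1.2 w, cxC_Z2 z w⟩ := rfl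

theorem cφ_bij_off (C : Cx G) (hv : v ∉ F.F) : Function.Bijective ((cφ F C q).f v) := by
  have m := map_offE C hv
  refine ⟨(injective_iff_map_eq_zero _).2 fun x hx => ?_, fun y => ?_⟩
  · obtain ⟨z, rfl⟩ := (C.sig F).Hmk_surj q v x
    have h1 : C.Hmk q v ⟨z.1.1.1, cxC_Z1 z⟩ = 0 := congrArg (fun t => t.1.1) hx
    obtain ⟨t, _, ht⟩ := mem_B.1 (Hmk_eq_zero.1 h1)
    refine Hmk_eq_zero.2 (mem_B_of_d (y := Rp.offE C.X hv t) (mem_Z.1 z.2).2 ?_)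
    exact (m.fd t).symm.trans (Subtype.ext (Prod.ext ht (z.1.2.2 hv).symm))
  · obtain ⟨p, hp⟩ := C.Hmk_surj q v y.1.1
    have hz : Rp.offE C.X hv p.1 ∈ (C.sig F).Z q v :=
      mem_Z.2 ⟨(m.fd p.1).symm.trans ((congrArg _ (mem_Z.1 p.2).1).trans (map_zero _)),
        (m.fp q p.1).symm.trans (congrArg _ (mem_Z.1 p.2).2)⟩
    refine ⟨(C.sig F).Hmk q v ⟨_, hz⟩, Subtype.ext (Prod.ext hp ?_)⟩
    exact (((cφ F C q).f v _).2.2 hv).trans (y.2.2 hv).symm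

theorem cφ_surj (C : Cx G) (hv : v ∈ F.F) (h : C.X.InOn v) :
    Function.Surjective ((cφ F C q).f v) := by
  intro y
  have S := ses_sig C hv h
  obtain ⟨h1, h2, h3⟩ := y.2.1 hv
  have : ∀ w, ∃ p : C.Z q w, (¬ G.adj v w → p.1 = 0) ∧ C.Hmk q w p = y.1.2 w := by
    intro w
    by_cases hw : G.adj v w
    · obtain ⟨p, hp⟩ := C.Hmk_surj q w (y.1.2 w)
      exact ⟨p, fun h => absurd hw h, hp⟩
    · exact ⟨0, fun _ => rfl, (map_zero _).trans (h2 w hw).symm⟩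
  choose p hp1 hp2 using this
  have h4 : C.Hmk q v ((C.cZ q).inn v p) = 0 :=
    (Rp.inn_map (C.cP q) v p).symm.trans ((congrArg _ (funext hp2)).trans h3)
  obtain ⟨t, ht1, ht2⟩ := mem_B.1 (Hmk_eq_zero.1 h4)
  obtain ⟨s, hs, rfl⟩ := S.lift ht1
  let n : Rp.NbS C.X v := ⟨fun w => (p w).1, hp1⟩
  have hn1 : (C.nbpc v).d n = 0 := Subtype.ext (funext fun w => (mem_Z.1 (p w).2).1)
  have hn2 : (C.nbpc v).p q n = n := Subtype.ext (funext fun w => (mem_Z.1 (p w).2).2)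
  obtain ⟨x, hx⟩ := S.ex (n - (C.nbpc v).d s) (by
    rw [map_sub, S.mj.fd, sub_eq_zero]
    exact (Rp.inn_map (C.cI q) v p).trans ht2.symm)
  have hz : x ∈ (C.sig F).Z q v := mem_Z.2 ⟨S.inj _ ((S.mi.fd x).trans (by
      rw [hx, map_sub, hn1, PC.dd, sub_zero])), S.eq ((S.mi.fp q x).trans (by
      rw [hx, map_sub, hn2, ← PC.dp, hs]))⟩
  refine ⟨(C.sig F).Hmk q v ⟨x, hz⟩, Subtype.ext (Prod.ext ?_ (funext fun w => ?_))⟩
  · exact (((cφ F C q).f v _).2.1 hv).1.trans h1.symm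
  · rw [cφ_2, ← hp2, Hmk_eq]
    have e : x.1.2 w = (p w).1 - C.d.f w (s.1 w) := congrArg (fun t => t.1 w) hx
    have e2 : (C.p (q - 1)).f w (s.1 w) = s.1 w := congrArg (fun t => t.1 w) hs
    change x.1.2 w - (p w).1 ∈ _
    rw [e, sub_sub_cancel_left]
    exact neg_mem (mem_B.2 ⟨_, e2, rfl⟩)

theorem cφ_inj (C : Cx G) (hv : v ∈ F.F) (h : C.X.InOn v)
    (h0 : C.Z (q - 1) v ≤ C.B (q - 1) v) : Function.Injective ((cφ F C q).f v) := by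
  refine (injective_iff_map_eq_zero _).2 fun x hx => ?_
  have S := ses_sig C hv h
  obtain ⟨z, rfl⟩ := (C.sig F).Hmk_surj q v x
  have : ∀ w, ∃ s, (¬ G.adj v w → s = 0) ∧ (C.p (q - 1)).f w s = s ∧ C.d.f w s = z.1.1.2 w := by
    intro w
    by_cases hw : G.adj v w
    · have h1 : C.Hmk q w ⟨z.1.1.2 w, cxC_Z2 z w⟩ = 0 := congrArg (fun t => t.1.2 w) hx
      obtain ⟨s, hs⟩ := mem_B.1 (Hmk_eq_zero.1 h1)
      exact ⟨s, fun h => absurd hw h, hs⟩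
    · exact ⟨0, fun _ => rfl, map_zero _, (map_zero _).trans ((z.1.2.1 hv).2.1 w hw).symm⟩
  choose s hs1 hs2 hs3 using this
  let n : Rp.NbS C.X v := ⟨s, hs1⟩
  have hn1 : (C.nbpc v).d n = sigI C.X hv z.1 := Subtype.ext (funext hs3)
  have hn2 : (C.nbpc v).p (q - 1) n = n := Subtype.ext (funext hs2)
  obtain ⟨t, _, ht⟩ := mem_B.1 (h0 (mem_Z.2 ⟨(S.mj.fd n).symm.trans
    ((congrArg _ hn1).trans (S.ji z.1)),
    (S.mj.fp (q - 1) n).symm.trans (by rw [hn2])⟩))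
  obtain ⟨s2, rfl⟩ := S.surj t
  obtain ⟨x, hx⟩ := S.ex (n - (C.nbpc v).d s2) (by
    rw [map_sub, S.mj.fd, sub_eq_zero]; exact ht.symm)
  refine Hmk_eq_zero.2 (mem_B_of_d (y := x) (mem_Z.1 z.2).2 (S.eq ((S.mi.fd x).trans ?_)))
  rw [hx, map_sub, hn1, PC.dd, sub_zero]; rfl

end Cx
theorem HIs.TT (h : HIs ξ q N) (h0 : ∀ v ∈ F.F, hd ξ (q - 1) v = 0) :
    HIs (TT F ξ) q (Rp.sig F N) := by
  obtain ⟨C, rfl, hC⟩ := exists_surj ξ
  have hI : ∀ v ∈ F.F, C.X.InOn v := fun v hv => Rp.inOn_of_surj (hC v (F.cxB_ne hv))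
  rw [TT_cl C hI]
  refine (hIs_cl _ q).of_iso (Rp.Iso.trans ⟨Cx.cφ F C q, fun v => ?_⟩
    (((hIs_cl C q).iso h).sig F))
  by_cases hv : v ∈ F.F
  · exact ⟨C.cφ_inj hv (hI v hv) ((C.hd_eq_zero_iff _ v).1 (h0 v hv)), C.cφ_surj hv (hI v hv)⟩
  · exact C.cφ_bij_off hv

theorem hd_TT_off (ξ : Cl G) (q : ℤ) (hv : v ∉ F.F) : hd (TT F ξ) q v = hd ξ q v := by
  obtain ⟨C, rfl, hC⟩ := exists_surj ξ
  rw [TT_cl C fun v hv => Rp.inOn_of_surj (hC v (F.cxB_ne hv)), Cx.hd_cl, Cx.hd_cl,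
    ← Rp.dm_sig_off (C.H q) hv]
  exact (LinearEquiv.ofBijective _ (C.cφ_bij_off hv)).finrank_eq

theorem hd_TT_symm (hv : v ∈ F.F) (h : HIs ξ q N) (hN : N.OutInj v)
    (h0 : ∀ w, G.adj v w → hd ξ (q - 1) w = 0) : hd ((TT F).symm ξ) (q - 1) v = 0 := by
  obtain ⟨C, rfl, hC⟩ := exists_inj ξ
  have hO : ∀ v ∈ F.F, C.X.OutInj v := fun v hv => cxB_outInj (hC v (F.cxB_ne hv))
  have S := Cx.ses_cos C hv (hO v hv)
  have hH : (C.H q).OutInj v := ((hIs_cl C q).iso h).mono.outInj hN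
  rw [TT_symm_cl C hO, Cx.hd_eq_zero_iff]
  intro z hz
  obtain ⟨hz1, hz2⟩ := Cx.mem_Z.1 hz
  obtain ⟨x, hx, rfl⟩ := S.lift hz2
  obtain ⟨y, hy⟩ := S.ex ((C.nbpc v).d x) ((S.mj.fd x).trans hz1)
  have hyZ : y ∈ C.Z q v := Cx.mem_Z.2 ⟨S.inj _ ((S.mi.fd y).trans (by rw [hy, PC.dd])),
    S.eq ((S.mi.fp q y).trans (by rw [hy, ← PC.dp, hx]))⟩
  have hB : C.Hmk q v ⟨y, hyZ⟩ = 0 := hH _ fun w => by
    rw [Cx.Hmk_a, Cx.Hmk_eq_zero]
    exact Cx.mem_B.2 ⟨x.1 w, congrArg (fun t => t.1 w) hx, (congrArg (fun t => t.1 w) hy).symm⟩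
  obtain ⟨y', hy1, hy2⟩ := Cx.mem_B.1 (Cx.Hmk_eq_zero.1 hB)
  have k1 : (C.nbpc v).d (x - Cx.outN C.X v y') = 0 := by
    rw [map_sub, ← S.mi.fd, ← hy, sub_eq_zero]; exact congrArg _ hy2.symm
  have k2 : (C.nbpc v).p (q - 1) (x - Cx.outN C.X v y') = x - Cx.outN C.X v y' := by
    rw [map_sub, ← S.mi.fp, hx]; exact congrArg (fun t => x - Cx.outN C.X v t) hy1
  have : ∀ w, ∃ t, (¬ G.adj v w → t = 0) ∧ C.d.f w t = (x - Cx.outN C.X v y').1 w := by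
    intro w
    by_cases hw : G.adj v w
    · obtain ⟨t, _, ht⟩ := Cx.mem_B.1 ((C.hd_eq_zero_iff _ w).1 (h0 w hw) (Cx.mem_Z.2
        ⟨congrArg (fun t => t.1 w) k1, congrArg (fun t => t.1 w) k2⟩))
      exact ⟨t, fun h => absurd hw h, ht⟩
    · exact ⟨0, fun _ => rfl, (map_zero _).trans ((x - Cx.outN C.X v y').2 w hw).symm⟩
  choose t ht1 ht2 using this
  have k3 : (C.nbpc v).d ⟨t, ht1⟩ = x - Cx.outN C.X v y' := Subtype.ext (funext ht2)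
  refine Cx.mem_B_of_d (y := Cx.cosP F C.X v ⟨t, ht1⟩) hz2 ((S.mj.fd _).symm.trans ?_)
  exact (congrArg _ k3).trans ((map_sub (Cx.cosP F C.X v) _ _).trans
    ((congrArg (fun t => Cx.cosP F C.X v x - t) (S.ji y')).trans (sub_zero _)))

end Vale.Agent.P203
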