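import Vale.Agent.P203.CxA

/-! Part CxR: resolutions. -/

namespace Vale.Agent.P203.Cx
open Classical

section
variable {G : Gr}

/-- The extra summand at the framing vertex. -/
abbrev CxRT (X : Rp G) (v : G.V) : Type := PLift (v = G.o) → (∀ u, X.E u) × ∀ u, X.E u

/-- Componentwise map on the extra summand. -/
def cxRM {X Y : Rp G} (f g : Rp.Hom X Y) (v : G.V) : CxRT X v →ₗ[kk] CxRT Y v where
  toFun φ h := (fun u => f.f u ((φ h).1 u), fun u => g.f u ((φ h).2 u))
  map_add' φ ψ := by ext h u <;> simp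
  map_smul' c φ := by ext h u <;> simp

/-- The differential on the extra summand. -/
def cxRD (X : Rp G) (v : G.V) : CxRT X v →ₗ[kk] CxRT X v where
  toFun φ h := (0, (φ h).1)
  map_add' φ ψ := by ext h u <;> simp
  map_smul' c φ := by ext h u <;> simp

/-- The extra arrows of the right resolution. -/
noncomputable def cxRE (C : Cx G) (v w : G.V) : CxRT C.X v →ₗ[kk] C.X.E w where
  toFun φ := if h : v = G.o ∧ w ≠ G.o then (φ ⟨h.1⟩).1 w + C.d.f w ((φ ⟨h.1⟩).2 w) else 0
  map_add' φ ψ := by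
    split_ifs
    · simp only [Pi.add_apply, Prod.fst_add, Prod.snd_add, map_add]; abel
    · simp
  map_smul' c φ := by split_ifs <;> simp

theorem cxRE_apply (C : Cx G) (v w : G.V) (φ : CxRT C.X v) : cxRE C v w φ =
    if h : v = G.o ∧ w ≠ G.o then (φ ⟨h.1⟩).1 w + C.d.f w ((φ ⟨h.1⟩).2 w) else 0 := rfl

/-- The representation underlying the right resolution. -/
noncomputable def cxRX (C : Cx G) : Rp G where
  E v := C.X.E v × CxRT C.X v
  a v w := LinearMap.prod ((C.X.a v w).coprod (cxRE C v w)) 0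
  a_zero v w h := by
    refine LinearMap.ext fun x => Prod.ext ?_ rfl
    change C.X.a v w x.1 + cxRE C v w x.2 = 0
    rw [C.X.a_zero v w h, cxRE_apply, dif_neg]
    · simp
    · rintro ⟨rfl, h2⟩; exact h (G.adj_o w h2)
  rel v hv x := by
    refine Prod.ext ?_ (by simp [Prod.snd_sum])
    rw [Prod.fst_sum]
    refine Eq.trans (Finset.sum_congr rfl fun w _ => ?_) (C.X.rel v hv x.1)
    change C.X.a w v (C.X.a v w x.1 + cxRE C v w x.2) + cxRE C w v 0 = _
    rw [map_zero, add_zero, cxRE_apply, dif_neg fun h => hv h.1, add_zero]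

/-- Homomorphisms between right resolutions. -/
noncomputable def cxRH {C D : Cx G} (f g : Rp.Hom C.X D.X)
    (h : ∀ v x, f.f v (C.d.f v x) = D.d.f v (g.f v x)) : Rp.Hom (cxRX C) (cxRX D) where
  f v := (f.f v).prodMap (cxRM f g v)
  comm v w x := by
    refine Prod.ext ?_ (map_zero (cxRM f g w))
    change f.f w (C.X.a v w x.1 + cxRE C v w x.2) =
      D.X.a v w (f.f v x.1) + cxRE D v w (cxRM f g v x.2)
    rw [map_add, f.comm, cxRE_apply, cxRE_apply]
    split_ifs
    · rw [map_add, h]; rfl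
    · rw [map_zero]

/-- The right resolution. -/
noncomputable def cxR (C : Cx G) : Cx G where
  X := cxRX C
  p q := cxRH (C.p q) (C.p (q - 1)) fun v x => (C.dp' q v x).symm
  d := ⟨fun v => (C.d.f v).prodMap (cxRD C.X v), fun v w x => by
    refine Prod.ext ?_ (map_zero (cxRD C.X w))
    change C.d.f w (C.X.a v w x.1 + cxRE C v w x.2) =
      C.X.a v w (C.d.f v x.1) + cxRE C v w (cxRD C.X v x.2)
    rw [map_add, C.d.comm, cxRE_apply, cxRE_apply]
    split_ifs
    · rw [map_add, C.dd, add_zero]; exact congrArg _ (zero_add _).symm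
    · rw [map_zero]⟩
  pp q v x := Prod.ext (C.pp q v x.1) (funext fun h =>
    Prod.ext (funext fun u => C.pp q u _) (funext fun u => C.pp _ u _))
  dp q v x := Prod.ext (C.dp q v x.1) (funext fun h =>
    Prod.ext (funext fun u => (map_zero ((C.p (q + 1)).f u)).symm) (funext fun u => by
      change (C.p q).f u _ = (C.p (q + 1 - 1)).f u _
      rw [add_sub_cancel_right]; rfl))
  dd v x := Prod.ext (C.dd v x.1) rfl
  bdd := C.bdd.imp fun q0 h q hq v x => Prod.ext (h q hq v x.1) (funext fun _ =>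
    Prod.ext (funext fun u => h q hq u _) (funext fun u => h (q - 1) (by omega) u _))

/-- The unit of the right resolution. -/
noncomputable def cxRη (C : Cx G) : CHom C (cxR C) where
  f := ⟨fun v => LinearMap.inl kk _ _, fun v w x => by
    refine Prod.ext ?_ rfl
    change _ = C.X.a v w x + cxRE C v w 0
    rw [map_zero, add_zero]; rfl⟩
  fp q v x := Prod.ext rfl (map_zero (cxRM (C.p q) (C.p (q - 1)) v)).symm
  fd v x := Prod.ext rfl (map_zero (cxRD C.X v)).symm

theorem cxRη_qis (C : Cx G) : Qis (cxRη C) := by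
  intro q v
  refine ⟨fun z hz => ?_, fun z hz h => ?_⟩
  · have hz' := mem_Z.1 hz
    have h1 : z.1 ∈ C.Z q v := mem_Z.2 ⟨congrArg Prod.fst hz'.1, congrArg Prod.fst hz'.2⟩
    refine ⟨z.1, h1, mem_B_of_d (y := (0, fun h => (-(z.2 h).2, 0)))
      (mem_Z.1 (sub_mem ((cxRη C).map_Z h1) hz)).2 (Prod.ext ?_ (funext fun h => Prod.ext ?_ ?_))⟩
    · exact (map_zero (C.d.f v)).trans (sub_self z.1).symm
    · have : (z.2 h).1 = 0 := congrArg (fun x => (x.2 h).2) hz'.1
      change 0 = 0 - (z.2 h).1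
      rw [this, sub_zero]
    · exact (zero_sub _).symm
  · obtain ⟨y, _, h2⟩ := mem_B.1 h
    exact mem_B_of_d (mem_Z.1 hz).2 (congrArg Prod.fst h2)

/-- Functoriality of the right resolution. -/
noncomputable def cxRMap {C D : Cx G} (f : CHom C D) : CHom (cxR C) (cxR D) where
  f := cxRH f.f f.f f.fd
  fp q v x := Prod.ext (f.fp q v x.1) (funext fun h =>
    Prod.ext (funext fun u => f.fp q u _) (funext fun u => f.fp _ u _))
  fd v x := Prod.ext (f.fd v x.1) (funext fun h =>
    Prod.ext (funext fun u => map_zero (f.f.f u)) rfl)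

/-- The extra arrows of the left resolution. -/
noncomputable def cxLE (C : Cx G) (v w : G.V) : C.X.E v →ₗ[kk] CxRT C.X w where
  toFun x _ := if v = G.o then 0 else (Pi.single v (C.d.f v x), Pi.single v x)
  map_add' x y := by
    funext h
    split_ifs with hv
    · simp [hv]
    · simp [hv, Pi.single_add]
  map_smul' c x := by
    funext h
    split_ifs with hv
    · simp [hv]
    · simp [hv, Pi.single_smul]

theorem cxLE_apply (C : Cx G) (v w : G.V) (x : C.X.E v) (h : PLift (w = G.o)) :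
    cxLE C v w x h = if v = G.o then 0 else (Pi.single v (C.d.f v x), Pi.single v x) := rfl

/-- The representation underlying the left resolution. -/
noncomputable def cxLX (C : Cx G) : Rp G where
  E v := C.X.E v × CxRT C.X v
  a v w := (LinearMap.prod (C.X.a v w) (cxLE C v w)).comp (LinearMap.fst _ _ _)
  a_zero v w h := by
    refine LinearMap.ext fun x => Prod.ext ?_ (funext fun hw => ?_)
    · change C.X.a v w x.1 = 0
      rw [C.X.a_zero v w h]; rfl
    · change cxLE C v w x.1 hw = 0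
      rw [cxLE_apply, if_pos]
      by_contra hv
      obtain ⟨rfl⟩ := hw
      exact h (G.symm (G.adj_o v hv))
  rel v hv x := by
    refine Prod.ext ?_ (funext fun h => absurd h.1 hv)
    rw [Prod.fst_sum]
    exact C.X.rel v hv x.1

theorem cxR_single {X Y : Rp G} (f : Rp.Hom X Y) (v : G.V) (x : X.E v) :
    (fun u => f.f u ((Pi.single v x : ∀ u, X.E u) u)) = (Pi.single v (f.f v x) : ∀ u, Y.E u) := by
  funext u
  by_cases hu : u = v
  · subst hu; simp
  · simp [Pi.single_eq_of_ne hu]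

/-- Homomorphisms between left resolutions. -/
noncomputable def cxLH {C D : Cx G} (f g : Rp.Hom C.X D.X)
    (h : ∀ v x, g.f v (C.d.f v x) = D.d.f v (f.f v x)) : Rp.Hom (cxLX C) (cxLX D) where
  f v := (f.f v).prodMap (cxRM g f v)
  comm v w x := by
    refine Prod.ext (f.comm v w x.1) (funext fun hw => ?_)
    change ((fun u => g.f u ((cxLE C v w x.1 hw).1 u), fun u => f.f u ((cxLE C v w x.1 hw).2 u)) :
      (∀ u, D.X.E u) × ∀ u, D.X.E u) = cxLE D v w (f.f v x.1) hw
    rw [cxLE_apply, cxLE_apply]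
    split_ifs
    · exact Prod.ext (funext fun u => map_zero (g.f u)) (funext fun u => map_zero (f.f u))
    · rw [← h]
      exact Prod.ext (cxR_single g v _) (cxR_single f v _)

/-- The left resolution. -/
noncomputable def cxL (C : Cx G) : Cx G where
  X := cxLX C
  p q := cxLH (C.p q) (C.p (q + 1)) fun v x => (C.dp q v x).symm
  d := ⟨fun v => (C.d.f v).prodMap (cxRD C.X v), fun v w x => by
    refine Prod.ext (C.d.comm v w x.1) (funext fun hw => ?_)
    change ((0, (cxLE C v w x.1 hw).1) : (∀ u, C.X.E u) × ∀ u, C.X.E u) =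
      cxLE C v w (C.d.f v x.1) hw
    rw [cxLE_apply, cxLE_apply]
    split_ifs
    · rfl
    · rw [C.dd, Pi.single_zero]⟩
  pp q v x := Prod.ext (C.pp q v x.1) (funext fun h =>
    Prod.ext (funext fun u => C.pp _ u _) (funext fun u => C.pp q u _))
  dp q v x := Prod.ext (C.dp q v x.1) (funext fun h =>
    Prod.ext (funext fun u => (map_zero ((C.p (q + 1 + 1)).f u)).symm) rfl)
  dd v x := Prod.ext (C.dd v x.1) rfl
  bdd := by
    obtain ⟨q0, h⟩ := C.bdd
    exact ⟨q0 - 1, fun q hq v x => Prod.ext (h q (by omega) v x.1) (funext fun _ =>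
      Prod.ext (funext fun u => h (q + 1) (by omega) u _) (funext fun u => h q (by omega) u _))⟩

/-- The counit of the left resolution. -/
noncomputable def cxLη (C : Cx G) : CHom (cxL C) C where
  f := ⟨fun v => LinearMap.fst kk _ _, fun _ _ _ => rfl⟩
  fp _ _ _ := rfl
  fd _ _ := rfl

theorem cxLη_qis (C : Cx G) : Qis (cxLη C) := by
  intro q v
  refine ⟨fun z hz => ?_, fun z hz h => ?_⟩
  · have hz' := mem_Z.1 hz
    refine ⟨(z, 0), mem_Z.2 ⟨Prod.ext hz'.1 (map_zero (cxRD C.X v)),
      Prod.ext hz'.2 (map_zero (cxRM (C.p (q + 1)) (C.p q) v))⟩, ?_⟩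
    change z - z ∈ _
    rw [sub_self]; exact zero_mem _
  · obtain ⟨y, _, h2⟩ := mem_B.1 h
    have hz' := mem_Z.1 hz
    refine mem_B_of_d (y := (y, fun h => ((z.2 h).2, 0))) hz'.2
      (Prod.ext h2 (funext fun h => Prod.ext ?_ rfl))
    exact (congrArg (fun x => (x.2 h).2) hz'.1).symm

/-- Functoriality of the left resolution. -/
noncomputable def cxLMap {C D : Cx G} (f : CHom C D) : CHom (cxL C) (cxL D) where
  f := cxLH f.f f.f f.fd
  fp q v x := Prod.ext (f.fp q v x.1) (funext fun h =>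
    Prod.ext (funext fun u => f.fp _ u _) (funext fun u => f.fp q u _))
  fd v x := Prod.ext (f.fd v x.1) (funext fun h =>
    Prod.ext (funext fun u => map_zero (f.f.f u)) rfl)

end

variable (G : Gr)

theorem exists_R : ∃ R : Cx G → Cx G, (∀ C, ∃ η : CHom C (R C), Qis η) ∧
    (∀ C v, v ≠ G.o → Function.Surjective ((R C).X.a G.o v)) ∧
    ∀ (C D : Cx G) (f : CHom C D), Qis f → ∃ g : CHom (R C) (R D), Qis g := by
  refine ⟨cxR, fun C => ⟨_, cxRη_qis C⟩, fun C v hv y => ?_, fun C D f hf => ⟨cxRMap f,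
    Qis.of_comp_left (k := (cxRη D).comp f) (fun v x => ?_) ((cxRη_qis D).comp hf) (cxRη_qis C)⟩⟩
  · refine ⟨(0, fun _ => (Pi.single v y.1, 0)), Prod.ext ?_ (funext fun h => absurd h.1 hv)⟩
    change C.X.a G.o v 0 + cxRE C G.o v _ = _
    rw [cxRE_apply, dif_pos ⟨rfl, hv⟩]
    simp
  · exact Prod.ext rfl (map_zero (cxRM f.f f.f v))

theorem exists_L : ∃ L : Cx G → Cx G, (∀ C, ∃ η : CHom (L C) C, Qis η) ∧
    (∀ C v, v ≠ G.o → Function.Injective ((L C).X.a v G.o)) ∧
    ∀ (C D : Cx G) (f : CHom C D), Qis f → ∃ g : CHom (L C) (L D), Qis g := by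
  refine ⟨cxL, fun C => ⟨_, cxLη_qis C⟩, fun C v hv x y h => ?_, fun C D f hf => ⟨cxLMap f,
    Qis.of_comp_right (k := f.comp (cxLη C)) (fun v x => rfl) (hf.comp (cxLη_qis C)) (cxLη_qis D)⟩⟩
  refine Prod.ext ?_ (funext fun h => absurd h.1 hv)
  have h' : cxLE C v G.o x.1 ⟨rfl⟩ = cxLE C v G.o y.1 ⟨rfl⟩ := congrArg (fun z => z.2 ⟨rfl⟩) h
  rw [cxLE_apply, cxLE_apply, if_neg hv, if_neg hv] at h'
  simpa using congrArg (fun z => z.2 v) h'

end Vale.Agent.P203.Cx
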