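import Vale.Agent.P203.SCc

/-! General lemmas on flag complexes, and the barycentric subdivision. -/

namespace Vale.Agent.P203.SC
open Classical

variable {V V' : Type}

theorem flg_link (r : V → V → Prop) (A B : Set V) {y : V} (hy : y ∈ A) :
    ((((flag r).full A).link y).full B) =
      (flag r).full {b | b ∈ A ∧ b ∈ B ∧ b ≠ y ∧ (r b y ∨ r y b)} := by
  refine ext' fun a => ⟨?_, ?_⟩
  · rintro ⟨⟨hn, hf, hA⟩, hB⟩
    refine ⟨fun u hu v hv => hf u (Finset.mem_insert_of_mem hu) v (Finset.mem_insert_of_mem hv),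
      fun v hv => ?_⟩
    have : v ≠ y := fun e => hn (e ▸ hv)
    exact ⟨hA v (Finset.mem_insert_of_mem hv), hB v hv, this,
      hf v (Finset.mem_insert_of_mem hv) y (Finset.mem_insert_self _ _) this⟩
  · rintro ⟨hf, h⟩
    refine ⟨⟨fun hy => (h y hy).2.2.1 rfl, fun u hu v hv huv => ?_, fun v hv => ?_⟩,
      fun v hv => (h v hv).2.1⟩
    · rcases Finset.mem_insert.1 hu with rfl | hu' <;> rcases Finset.mem_insert.1 hv with rfl | hv'
      · exact absurd rfl huv
      · exact (h v hv').2.2.2.symm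
      · exact (h u hu').2.2.2
      · exact hf u hu' v hv' huv
    · rcases Finset.mem_insert.1 hv with rfl | hv'
      · exact hy
      · exact (h v hv').1

theorem flg_full_full (K : SC V) (A B : Set V) : (K.full A).full B = K.full (A ∩ B) :=
  ext' fun _ => ⟨fun h => ⟨h.1.1, fun v hv => ⟨h.1.2 v hv, h.2 v hv⟩⟩,
    fun h => ⟨⟨h.1, fun v hv => (h.2 v hv).1⟩, fun v hv => (h.2 v hv).2⟩⟩

theorem flg_full_univ (K : SC V) : K.full Set.univ = K :=
  ext' fun _ => ⟨fun h => h.1, fun h => ⟨h, fun _ _ => trivial⟩⟩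

theorem flg_single (r : V → V → Prop) (v : V) : (flag r).face {v} := by
  intro a ha b hb hab
  rw [Finset.mem_singleton] at ha hb
  exact absurd (ha.trans hb.symm) hab

theorem flg_pair {r : V → V → Prop} {a b : V} (h : (flag r).face {a, b}) (hab : a ≠ b) :
    r a b ∨ r b a := h a (by simp) b (by simp) hab

theorem flg_cone (r : V → V → Prop) (A : Set V) {a : V} (ha : a ∈ A)
    (h : ∀ b ∈ A, b ≠ a → r a b ∨ r b a) : ((flag r).full A).WC := by
  refine wc_cone _ a ⟨flg_single r a, by simpa using ha⟩ fun b hb => ⟨fun u hu v hv huv => ?_,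
    fun v hv => ?_⟩
  · rcases Finset.mem_insert.1 hu with rfl | hu' <;> rcases Finset.mem_insert.1 hv with rfl | hv'
    · exact absurd rfl huv
    · exact h v (hb.2 v hv') huv.symm
    · exact (h u (hb.2 u hu') huv).symm
    · exact hb.1 u hu' v hv' huv
  · rcases Finset.mem_insert.1 hv with rfl | hv'
    · exact ha
    · exact hb.2 v hv'

/-- The Morse lemma for flag complexes. -/
theorem flg_morse {κ : Type} [LinearOrder κ] (r : V → V → Prop) (P P' : Set V) (hPP : P ⊆ P')
    (key : V → κ) (hwf : (P' \ P).WellFoundedOn fun a b => key a < key b)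
    (hadj : ∀ a ∈ P' \ P, ∀ b ∈ P' \ P, a ≠ b → r a b → key a ≠ key b)
    (hlk : ∀ y ∈ P' \ P, ((flag r).full {b | (b ∈ P ∨ (b ∈ P' ∧ key b < key y)) ∧ b ≠ y ∧
      (r b y ∨ r y b)}).WC) : ((flag r).full P).WC ↔ ((flag r).full P').WC := by
  refine morse (flag r) P P' hPP key hwf (fun a ha b hb hab hf => ?_) fun y hy _ => ?_
  · rcases flg_pair hf hab with h | h
    · exact hadj a ha b hb hab h
    · exact (hadj b hb a ha hab.symm h).symm
  · have := flg_link r Set.univ (P ∪ {b | b ∈ P' ∧ key b < key y}) (y := y) trivial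
    rw [flg_full_univ] at this
    rw [this]
    convert hlk y hy using 2
    ext b
    simp

theorem flg_iff (r : V → V → Prop) (r' : V' → V' → Prop) (A : Set V) (A' : Set V') (f : V → V')
    (hinj : ∀ a ∈ A, ∀ b ∈ A, f a = f b → a = b) (hm : ∀ a ∈ A, f a ∈ A')
    (hs : ∀ b ∈ A', ∃ a ∈ A, f a = b)
    (hr : ∀ a ∈ A, ∀ b ∈ A, (r a b ∨ r b a ↔ r' (f a) (f b) ∨ r' (f b) (f a))) :
    ((flag r).full A).WC ↔ ((flag r').full A').WC := by
  refine wc_iff_of_map _ _ f (fun u v hu hv => hinj u (hu.2 u (by simp)) v (hv.2 v (by simp)))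
    (fun a ha => ⟨fun u hu v hv huv => ?_, fun u hu => ?_⟩) fun b hb => ?_
  · obtain ⟨u, hu', rfl⟩ := Finset.mem_image.1 hu
    obtain ⟨v, hv', rfl⟩ := Finset.mem_image.1 hv
    exact (hr u (ha.2 u hu') v (ha.2 v hv')).1 (ha.1 u hu' v hv' fun e => huv (e ▸ rfl))
  · obtain ⟨u, hu', rfl⟩ := Finset.mem_image.1 hu
    exact hm u (ha.2 u hu')
  · choose g hg hfg using fun x : b => hs x.1 (hb.2 x.1 x.2)
    refine ⟨Finset.univ.image g, ⟨fun u hu v hv huv => ?_, fun u hu => ?_⟩, ?_⟩
    · obtain ⟨u, -, rfl⟩ := Finset.mem_image.1 hu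
      obtain ⟨v, -, rfl⟩ := Finset.mem_image.1 hv
      rw [hr _ (hg u) _ (hg v), hfg, hfg]
      exact hb.1 _ u.2 _ v.2 fun e => huv (by rw [Subtype.ext e])
    · obtain ⟨u, -, rfl⟩ := Finset.mem_image.1 hu
      exact hg u
    · ext x
      simp only [Finset.mem_image, Finset.mem_univ, true_and, exists_exists_eq_and, hfg]
      exact ⟨fun hx => ⟨⟨x, hx⟩, rfl⟩, fun ⟨y, hy⟩ => hy ▸ y.2⟩

/-- Vertices of the mixed complex: vertices and faces. -/
inductive Mx (V : Type) : Type
  | inl (v : V) : Mx V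
  | inr (a : Finset V) : Mx V

/-- Case distinction on the vertices of the mixed complex. -/
def Mx.elim {β : Type} (f : V → β) (g : Finset V → β) : Mx V → β
  | Mx.inl v => f v
  | Mx.inr a => g a

theorem exists_key (V : Type) : ∃ (κ : Type) (_ : LinearOrder κ) (_ : WellFoundedLT κ)
    (ky : V → κ), Function.Injective ky := by
  obtain ⟨a, b⟩ := exists_wellOrder V
  exact ⟨V, a, b, id, Function.injective_id⟩

/-- The mixed complex interpolating between a complex and its barycentric subdivision. -/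
def mix (K : SC V) (ρ : Finset V) (Q : Set V) : SC (Mx V) where
  face a := (∃ σ, K.face σ ∧ ρ ⊆ σ ∧ ∀ v, Mx.inl v ∈ a → v ∈ σ) ∧ (∀ v, Mx.inl v ∈ a → v ∈ Q) ∧
    (∀ τ, Mx.inr τ ∈ a → K.face τ ∧ τ.Nonempty ∧ ρ ⊆ τ ∧ ∀ v, Mx.inl v ∈ a → v ∈ τ) ∧
    ∀ τ τ', Mx.inr τ ∈ a → Mx.inr τ' ∈ a → τ ⊆ τ' ∨ τ' ⊆ τ
  down h := fun ⟨⟨σ, a1, a2, a3⟩, b, c, d⟩ => ⟨⟨σ, a1, a2, fun v hv => a3 v (h hv)⟩,
    fun v hv => b v (h hv), fun τ hτ => ⟨(c τ (h hτ)).1, (c τ (h hτ)).2.1, (c τ (h hτ)).2.2.1,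
      fun v hv => (c τ (h hτ)).2.2.2 v (h hv)⟩, fun τ τ' h1 h2 => d τ τ' (h h1) (h h2)⟩

theorem mix_step {κ : Type} [LinearOrder κ] [WellFoundedLT κ] {ky : V → κ}
    (hk : Function.Injective ky) (K : SC V) (ρ : Finset V) (Q : Set V) (v0 : V)
    (h : ∀ u ∈ Q, K.face (insert u ρ) → (K.mix (insert u ρ) (Q ∩ {v | ky v < ky u})).WC) :
    ((K.mix ρ Q).full (Set.range Mx.inr)).WC ↔ (K.mix ρ Q).WC := by
  let key : Mx V → κ := Mx.elim ky fun _ => ky v0
  have := morse (K.mix ρ Q) (Set.range Mx.inr) Set.univ (Set.subset_univ _) key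
    (InvImage.wf key wellFounded_lt).wellFoundedOn (by
      rintro (a | a) ha (b | b) hb hab -
      · exact fun e => hab (congrArg Mx.inl (hk e))
      · exact absurd ⟨b, rfl⟩ hb.2
      · exact absurd ⟨a, rfl⟩ ha.2
      · exact absurd ⟨a, rfl⟩ ha.2) (by
      rintro (u | a) hu hf
      swap
      · exact absurd ⟨a, rfl⟩ hu.2
      obtain ⟨⟨σ, a1, a2, a3⟩, b, -⟩ := hf
      convert h u (b u (by simp)) (K.down (Finset.insert_subset (a3 u (by simp)) a2) a1) using 1
      refine ext' fun a => ⟨?_, ?_⟩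
      · rintro ⟨⟨-, ⟨σ, a1, a2, a3⟩, b, c, d⟩, e⟩
        refine ⟨⟨σ, a1, Finset.insert_subset (a3 u (by simp)) a2, fun v hv => a3 v (by simp [hv])⟩,
          fun v hv => ⟨b v (by simp [hv]), ?_⟩, fun τ hτ => ?_,
          fun τ τ' h1 h2 => d τ τ' (by simp [h1]) (by simp [h2])⟩
        · rcases e _ hv with ⟨x, hx⟩ | hx
          · cases hx
          · exact hx.2
        · obtain ⟨c1, c2, c3, c4⟩ := c τ (by simp [hτ])
          exact ⟨c1, c2, Finset.insert_subset (c4 u (by simp)) c3, fun v hv => c4 v (by simp [hv])⟩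
      · rintro ⟨⟨σ, a1, a2, a3⟩, b', c, d⟩
        refine ⟨⟨fun hu => lt_irrefl (ky u) (b' u hu).2, ⟨σ, a1, (Finset.subset_insert _ _).trans a2,
          fun v hv => ?_⟩, fun v hv => ?_, fun τ hτ => ?_, fun τ τ' h1 h2 =>
            d τ τ' (by simpa using h1) (by simpa using h2)⟩, ?_⟩
        · rcases Finset.mem_insert.1 hv with e | hv
          · cases e; exact a2 (Finset.mem_insert_self _ _)
          · exact a3 v hv
        · rcases Finset.mem_insert.1 hv with e | hv
          · cases e; exact b u (by simp)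
          · exact (b' v hv).1
        · obtain ⟨c1, c2, c3, c4⟩ := c τ (by simpa using hτ)
          refine ⟨c1, c2, (Finset.subset_insert _ _).trans c3, fun v hv => ?_⟩
          rcases Finset.mem_insert.1 hv with e | hv
          · cases e; exact c3 (Finset.mem_insert_self _ _)
          · exact c4 v hv
        · rintro (v | τ) hv
          · exact Or.inr ⟨trivial, (b' v hv).2⟩
          · exact Or.inl ⟨τ, rfl⟩)
  rwa [flg_full_univ] at this

theorem mix_wc {κ : Type} [LinearOrder κ] [WellFoundedLT κ] {ky : V → κ}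
    (hk : Function.Injective ky) (K : SC V) (N : ℕ)
    (hN : ∀ a, K.face a → a.card ≤ N) (k : ℕ) : ∀ (ρ : Finset V) (Q : Set V), N < ρ.card + k →
      K.face ρ → ρ.Nonempty → (∀ u ∈ Q, u ∉ ρ) → (K.mix ρ Q).WC := by
  induction k with
  | zero => intro ρ Q h hf; exact absurd (hN ρ hf) (by omega)
  | succ k ih =>
    intro ρ Q h hf hne hQ
    refine (mix_step hk K ρ Q hne.choose fun u hu hf' => ih _ _ ?_ hf' (Finset.insert_nonempty _ _)
      fun v hv hv' => ?_).1 ?_
    · rw [Finset.card_insert_of_notMem (hQ u hu)]; omega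
    · rcases Finset.mem_insert.1 hv' with e | hv'
      · exact lt_irrefl (ky u) (e ▸ hv.2)
      · exact hQ v hv.1 hv'
    have key : ∀ b, ((K.mix ρ Q).full (Set.range Mx.inr)).face b →
        ((K.mix ρ Q).full (Set.range Mx.inr)).face (insert (Mx.inr ρ) b) := by
      rintro b ⟨⟨-, -, c, d⟩, e⟩
      have hn : ∀ v, Mx.inl v ∉ insert (Mx.inr ρ : Mx V) b := by
        intro v hv
        rcases Finset.mem_insert.1 hv with e' | hv
        · cases e'
        · obtain ⟨x, hx⟩ := e _ hv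
          cases hx
      refine ⟨⟨⟨ρ, hf, subset_rfl, fun v hv => absurd hv (hn v)⟩, fun v hv => absurd hv (hn v),
        fun τ hτ => ?_, fun τ τ' h1 h2 => ?_⟩, fun x hx => ?_⟩
      · rcases Finset.mem_insert.1 hτ with e' | hτ
        · cases e'; exact ⟨hf, hne, subset_rfl, fun v hv => absurd hv (hn v)⟩
        · exact ⟨(c τ hτ).1, (c τ hτ).2.1, (c τ hτ).2.2.1, fun v hv => absurd hv (hn v)⟩
      · rcases Finset.mem_insert.1 h1 with e1 | h1 <;> rcases Finset.mem_insert.1 h2 with e2 | h2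
        · cases e1; cases e2; exact Or.inl subset_rfl
        · cases e1; exact Or.inl (c _ h2).2.2.1
        · cases e2; exact Or.inr (c _ h1).2.2.1
        · exact d _ _ h1 h2
      · rcases Finset.mem_insert.1 hx with e' | hx
        · exact ⟨ρ, e'.symm⟩
        · exact e x hx
    exact wc_cone _ (Mx.inr ρ) (key ∅ ⟨⟨⟨ρ, hf, subset_rfl, by simp⟩, by simp, by simp, by simp⟩,
      by simp⟩) key

/-- The barycentric subdivision of a contractible finite dimensional complex is contractible. -/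
theorem bary_wc (K : SC V) (N : ℕ) (hN : ∀ a, K.face a → a.card ≤ N) (h : K.WC) :
    ((flag fun a b : Finset V => a ⊆ b).full {τ | K.face τ ∧ τ.Nonempty}).WC := by
  obtain ⟨κ, _, _, ky, hk⟩ := exists_key V
  obtain ⟨v0, hv0⟩ := h.1
  have h1 : ((K.mix ∅ Set.univ).full (Set.range Mx.inl)).WC := by
    refine (wc_iff_of_map K _ Mx.inl (fun u v _ _ e => Mx.inl.inj e) (fun a ha => ?_)
      fun b hb => ?_).1 h
    · exact ⟨⟨⟨a, ha, Finset.empty_subset _, by simp⟩, by simp, by simp, by simp⟩, fun v hv => by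
        obtain ⟨u, -, rfl⟩ := Finset.mem_image.1 hv
        exact ⟨u, rfl⟩⟩
    · obtain ⟨⟨⟨σ, a1, -, a3⟩, -⟩, e⟩ := hb
      refine ⟨σ.filter fun v => Mx.inl v ∈ b, K.down (Finset.filter_subset _ _) a1, ?_⟩
      ext x
      simp only [Finset.mem_image, Finset.mem_filter]
      constructor
      · intro hx
        obtain ⟨u, rfl⟩ := e x hx
        exact ⟨u, ⟨a3 u hx, hx⟩, rfl⟩
      · rintro ⟨u, hu, rfl⟩
        exact hu.2
  let key : Mx V → ℕ := Mx.elim (fun _ => 0) fun τ => N - τ.card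
  have h2 := (morse (K.mix ∅ Set.univ) (Set.range Mx.inl) Set.univ (Set.subset_univ _) key
    (InvImage.wf key wellFounded_lt).wellFoundedOn (by
      rintro (a | a) ha (b | b) hb hab hf
      · exact absurd ⟨a, rfl⟩ ha.2
      · exact absurd ⟨a, rfl⟩ ha.2
      · exact absurd ⟨b, rfl⟩ hb.2
      · obtain ⟨-, -, c, d⟩ := hf
        have ca := hN a (c a (by simp)).1
        have cb := hN b (c b (by simp)).1
        intro e
        have e' : N - a.card = N - b.card := e
        rcases d a b (by simp) (by simp) with h | h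
        · exact hab (congrArg Mx.inr (Finset.eq_of_subset_of_card_le h (by omega)))
        · exact hab (congrArg Mx.inr (Finset.eq_of_subset_of_card_le h (by omega)).symm)) (by
      rintro (u | ρ) hu hf
      · exact absurd ⟨u, rfl⟩ hu.2
      obtain ⟨hρ, ⟨u, hu⟩, -⟩ := hf.2.2.1 ρ (by simp)
      have key' : ∀ b, (((K.mix ∅ Set.univ).link (Mx.inr ρ)).full (Set.range Mx.inl ∪
          {b | b ∈ Set.univ ∧ key b < key (Mx.inr ρ)})).face b →
          (((K.mix ∅ Set.univ).link (Mx.inr ρ)).full (Set.range Mx.inl ∪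
          {b | b ∈ Set.univ ∧ key b < key (Mx.inr ρ)})).face (insert (Mx.inl u) b) := by
        rintro b ⟨⟨hn, -, -, c, d⟩, e⟩
        have hb : ∀ τ, Mx.inr τ ∈ insert (Mx.inr ρ : Mx V) b → u ∈ τ := by
          intro τ hτ
          rcases d τ ρ hτ (by simp) with h | h
          · rcases Finset.mem_insert.1 hτ with e' | hτ
            · cases e'; exact hu
            · rcases e _ hτ with ⟨x, hx⟩ | hx
              · cases hx
              · have h3 : N - τ.card < N - ρ.card := hx.2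
                have := Finset.card_le_card h
                omega
          · exact h hu
        have hm : ∀ τ, Mx.inr τ ∈ insert (Mx.inr ρ : Mx V) (insert (Mx.inl u) b) →
            Mx.inr τ ∈ insert (Mx.inr ρ : Mx V) b := fun τ hτ => by simpa using hτ
        have hv : ∀ τ, Mx.inr τ ∈ insert (Mx.inr ρ : Mx V) b → ∀ v,
            Mx.inl v ∈ insert (Mx.inr ρ : Mx V) (insert (Mx.inl u) b) → v ∈ τ := by
          intro τ hτ v hv
          have hv' : v = u ∨ Mx.inl v ∈ b := by simpa using hv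
          rcases hv' with rfl | hv'
          · exact hb τ hτ
          · exact (c τ hτ).2.2.2 v (Finset.mem_insert_of_mem hv')
        refine ⟨⟨by simpa using hn, ⟨ρ, hρ, Finset.empty_subset _, hv ρ (by simp)⟩,
          fun _ _ => trivial, fun τ hτ => ?_, fun τ τ' h1 h2 => d τ τ' (hm τ h1) (hm τ' h2)⟩,
          fun x hx => ?_⟩
        · have := c τ (hm τ hτ)
          exact ⟨this.1, this.2.1, this.2.2.1, hv τ (hm τ hτ)⟩
        · rcases Finset.mem_insert.1 hx with e' | hx
          · exact Or.inl ⟨u, e'.symm⟩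
          · exact e x hx
      exact wc_cone _ (Mx.inl u) (key' ∅ ⟨⟨by simp, hf⟩, by simp⟩) key')).1 h1
  rw [flg_full_univ] at h2
  have h3 := (mix_step hk K ∅ Set.univ v0 fun u _ hf => mix_wc hk K N hN (N + 1) _ _ (by omega) hf
    (Finset.insert_nonempty _ _) fun v hv hv' => by
      have e : v = u := by simpa using hv'
      exact lt_irrefl (ky u) (e ▸ hv.2)).2 h2
  refine (wc_iff_of_map _ _ Mx.inr (fun u v _ _ e => Mx.inr.inj e) (fun a ha => ?_)
    fun b hb => ?_).2 h3
  · refine ⟨⟨⟨{v0}, hv0, Finset.empty_subset _, by simp⟩, by simp, fun τ hτ => ?_,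
      fun τ τ' h1 h2 => ?_⟩, fun v hv => by
        obtain ⟨u, -, rfl⟩ := Finset.mem_image.1 hv
        exact ⟨u, rfl⟩⟩
    · have := ha.2 τ (by simpa using hτ)
      exact ⟨this.1, this.2, Finset.empty_subset _, by simp⟩
    · by_cases e : τ = τ'
      · exact Or.inl (e ▸ subset_rfl)
      · exact ha.1 τ (by simpa using h1) τ' (by simpa using h2) e
  · obtain ⟨⟨-, -, c, d⟩, e⟩ := hb
    refine ⟨b.preimage Mx.inr (fun _ _ _ _ e => Mx.inr.inj e), ⟨fun u hu v hv _ =>
      d u v (Finset.mem_preimage.1 hu) (Finset.mem_preimage.1 hv), fun u hu =>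
        ⟨(c u (Finset.mem_preimage.1 hu)).1, (c u (Finset.mem_preimage.1 hu)).2.1⟩⟩, ?_⟩
    ext x
    rw [Finset.mem_image]
    constructor
    · intro hx
      obtain ⟨u, rfl⟩ := e x hx
      exact ⟨u, Finset.mem_preimage.2 hx, rfl⟩
    · rintro ⟨u, hu, rfl⟩
      exact Finset.mem_preimage.1 hu

end Vale.Agent.P203.SC
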