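import Mathlib

/-! Representations of the framed preprojective algebra of a graph over `F_2`, reflection
functors, complexes. -/

namespace Vale.Agent.P203
open Classical

/-- The ground field. -/
abbrev kk : Type := ZMod 2

/-- A finite graph with a framing vertex `o` adjacent to all other vertices. -/
structure Gr where
  V : Type
  [fin : Fintype V]
  adj : V → V → Prop
  symm : ∀ {v w}, adj v w → adj w v
  irrefl : ∀ v, ¬ adj v v
  o : V
  adj_o : ∀ v, v ≠ o → adj o v

attribute [instance] Gr.fin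

/-- Representations: the preprojective relation is imposed away from the framing vertex. -/
structure Rp (G : Gr) where
  E : G.V → Type
  [acg : ∀ v, AddCommGroup (E v)]
  [mod : ∀ v, Module kk (E v)]
  [fd : ∀ v, Module.Finite kk (E v)]
  a : ∀ v w, E v →ₗ[kk] E w
  a_zero : ∀ v w, ¬ G.adj v w → a v w = 0
  rel : ∀ v, v ≠ G.o → ∀ x, ∑ w, a w v (a v w x) = 0

attribute [instance] Rp.acg Rp.mod Rp.fd

/-- An independent set of vertices not containing the framing vertex. -/
structure Ind (G : Gr) where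
  F : Set G.V
  ind : ∀ v ∈ F, ∀ w ∈ F, ¬ G.adj v w
  no : G.o ∉ F

namespace Rp
variable {G : Gr}

/-- Morphisms. -/
@[ext] structure Hom (X Y : Rp G) where
  f : ∀ v, X.E v →ₗ[kk] Y.E v
  comm : ∀ v w x, f w (X.a v w x) = Y.a v w (f v x)

def Hom.id (X : Rp G) : Hom X X := ⟨fun _ => LinearMap.id, fun _ _ _ => rfl⟩

def Hom.comp {X Y Z : Rp G} (g : Hom Y Z) (f : Hom X Y) : Hom X Z :=
  ⟨fun v => (g.f v).comp (f.f v), fun v w x => by simp [f.comm, g.comm]⟩

def Iso (X Y : Rp G) : Prop := ∃ f : Hom X Y, ∀ v, Function.Bijective (f.f v)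
def Mono (X Y : Rp G) : Prop := ∃ f : Hom X Y, ∀ v, Function.Injective (f.f v)
def Epi (X Y : Rp G) : Prop := ∃ f : Hom X Y, ∀ v, Function.Surjective (f.f v)

/-- `0 → X → Y → Z` is exact. -/
def LEx {X Y Z : Rp G} (f : Hom X Y) (g : Hom Y Z) : Prop :=
  ∀ v, Function.Injective (f.f v) ∧ LinearMap.range (f.f v) = LinearMap.ker (g.f v)

/-- Dimension at a vertex. -/
noncomputable def dm (X : Rp G) (v : G.V) : ℕ := Module.finrank kk (X.E v)

/-- The incoming map at `v`. -/
noncomputable def inn (X : Rp G) (v : G.V) : (∀ w, X.E w) →ₗ[kk] X.E v :=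
  ∑ w, (X.a w v).comp (LinearMap.proj w)

/-- The incoming map at `v` is onto. -/
def InOn (X : Rp G) (v : G.V) : Prop := Function.Surjective (X.inn v)

/-- The outgoing map at `v` is injective. -/
def OutInj (X : Rp G) (v : G.V) : Prop := ∀ x : X.E v, (∀ w, X.a v w x = 0) → x = 0

/-- Subrepresentation. -/
def sub (X : Rp G) (U : ∀ v, Submodule kk (X.E v)) (hU : ∀ v w, ∀ x ∈ U v, X.a v w x ∈ U w) :
    Rp G where
  E v := U v
  a v w := (X.a v w).restrict (hU v w)
  a_zero v w h := by ext x; simp [X.a_zero v w h]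
  rel v hv x := by
    ext
    simpa [AddSubmonoidClass.coe_finsetSum] using X.rel v hv x.1

/-- Quotient representation. -/
def quot (X : Rp G) (U : ∀ v, Submodule kk (X.E v)) (hU : ∀ v w, ∀ x ∈ U v, X.a v w x ∈ U w) :
    Rp G where
  E v := X.E v ⧸ U v
  a v w := (U v).mapQ (U w) (X.a v w) (hU v w)
  a_zero v w h := by ext x; simp [X.a_zero v w h]
  rel v hv x := by
    induction x using Submodule.Quotient.induction_on with
    | H x =>
      have : ∑ w, (U v).mkQ (X.a w v (X.a v w x)) = 0 := by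
        rw [← map_sum, X.rel v hv, map_zero]
      simpa using this

/-- Carrier of the kernel reflection functor. -/
def sigSub (F : Ind G) (X : Rp G) (v : G.V) : Submodule kk (X.E v × ∀ w, X.E w) where
  carrier := {p | (v ∈ F.F → p.1 = 0 ∧ (∀ w, ¬ G.adj v w → p.2 w = 0) ∧ X.inn v p.2 = 0) ∧
    (v ∉ F.F → p.2 = 0)}
  add_mem' := fun {p q} hp hq => ⟨fun h => ⟨by simp [(hp.1 h).1, (hq.1 h).1],
    fun w hw => by simp [(hp.1 h).2.1 w hw, (hq.1 h).2.1 w hw],
    by simp [(hp.1 h).2.2, (hq.1 h).2.2]⟩, fun h => by simp [hp.2 h, hq.2 h]⟩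
  zero_mem' := ⟨fun _ => ⟨rfl, fun _ _ => rfl, by simp⟩, fun _ => rfl⟩
  smul_mem' := fun c {p} hp => ⟨fun h => ⟨by simp [(hp.1 h).1],
    fun w hw => by simp [(hp.1 h).2.1 w hw], by simp [(hp.1 h).2.2]⟩, fun h => by simp [hp.2 h]⟩

/-- The arrows of the kernel reflection functor on the ambient spaces. -/
noncomputable def sigA (F : Ind G) (X : Rp G) (v w : G.V) :
    (X.E v × ∀ u, X.E u) →ₗ[kk] (X.E w × ∀ u, X.E u) :=
  if w ∈ F.F then
    LinearMap.prod 0 (LinearMap.pi fun u => (X.a w u).comp ((X.a v w).comp (LinearMap.fst _ _ _)))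
  else
    LinearMap.prod ((X.a v w).comp (LinearMap.fst _ _ _) +
      (LinearMap.proj w).comp (LinearMap.snd _ _ _)) 0

theorem inn_apply (X : Rp G) (v : G.V) (x : ∀ w, X.E w) : X.inn v x = ∑ w, X.a w v (x w) := by
  simp [inn, LinearMap.sum_apply]

theorem sigA_mem (F : Ind G) (X : Rp G) (v w : G.V) :
    ∀ p ∈ sigSub F X v, sigA F X v w p ∈ sigSub F X w := by
  intro p _
  by_cases hw : w ∈ F.F
  · refine ⟨fun _ => ⟨by simp [sigA, hw], fun u hu => by simp [sigA, hw, X.a_zero w u hu], ?_⟩,
      fun h => absurd hw h⟩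
    have hwo : w ≠ G.o := fun h => F.no (h ▸ hw)
    simpa [sigA, hw, inn_apply] using X.rel w hwo _
  · exact ⟨fun h => absurd h hw, fun _ => by simp [sigA, hw]⟩

/-- The kernel reflection functor at an independent set. -/
noncomputable def sig (F : Ind G) (X : Rp G) : Rp G where
  E v := sigSub F X v
  a v w := (sigA F X v w).restrict (sigA_mem F X v w)
  a_zero v w h := by
    ext p : 1
    apply Subtype.ext
    by_cases hw : w ∈ F.F
    · simp [sigA, hw, X.a_zero v w h]; rfl
    · by_cases hv : v ∈ F.F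
      · simp [sigA, hw, X.a_zero v w h, (p.2.1 hv).2.1 w h]
      · simp [sigA, hw, X.a_zero v w h, p.2.2 hv]
  rel v hv p := by
    apply Subtype.ext
    simp only [AddSubmonoidClass.coe_finsetSum, LinearMap.coe_restrict_apply,
      ZeroMemClass.coe_zero]
    by_cases hF : v ∈ F.F
    · obtain ⟨h1, h2, h3⟩ := p.2.1 hF
      have key : ∀ w, (sigA F X v w p.1).1 = p.1.2 w := by
        intro w
        by_cases hw : w ∈ F.F
        · simp [sigA, hw, h2 w (F.ind v hF w hw)]
        · simp [sigA, hw, h1]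
      ext u
      · simp [Prod.fst_sum, sigA, hF]
      · have : ∀ w, (sigA F X w v (sigA F X v w p.1)).2 u = X.a v u (X.a w v (p.1.2 w)) := by
          intro w; rw [← key w]; simp [sigA, hF]
        simp only [Prod.snd_sum, Finset.sum_apply, this]
        rw [← map_sum, ← inn_apply, h3]; simp
    · have h2 := p.2.2 hF
      ext u
      · have : ∀ w, (sigA F X w v (sigA F X v w p.1)).1 = X.a w v (X.a v w p.1.1) := by
          intro w
          by_cases hw : w ∈ F.F
          · simp [sigA, hw, hF]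
          · simp [sigA, hw, hF, h2]
        simp only [Prod.fst_sum, this]
        simpa using X.rel v hv _
      · simp [Prod.snd_sum, sigA, hF]

/-- The ambient map of a morphism. -/
def amb {X Y : Rp G} (f : Hom X Y) (v : G.V) :
    (X.E v × ∀ w, X.E w) →ₗ[kk] (Y.E v × ∀ w, Y.E w) :=
  (f.f v).prodMap (LinearMap.pi fun w => (f.f w).comp (LinearMap.proj w))

theorem inn_map {X Y : Rp G} (f : Hom X Y) (v : G.V) (x : ∀ w, X.E w) :
    Y.inn v (fun w => f.f w (x w)) = f.f v (X.inn v x) := by
  simp [inn_apply, map_sum, f.comm]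

/-- Functoriality of the kernel reflection functor. -/
noncomputable def sigMap (F : Ind G) {X Y : Rp G} (f : Hom X Y) : Hom (sig F X) (sig F Y) where
  f v := (amb f v).restrict (p := sigSub F X v) (q := sigSub F Y v) fun p hp =>
    ⟨fun h => ⟨by simp [amb, (hp.1 h).1], fun w hw => by simp [amb, (hp.1 h).2.1 w hw], by
      have := inn_map f v p.2
      rw [(hp.1 h).2.2, map_zero] at this
      exact this⟩, fun h => by ext w; simp [amb, hp.2 h]⟩
  comm v w p := by
    apply Subtype.ext
    change amb f w (sigA F X v w p.1) = sigA F Y v w (amb f v p.1)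
    by_cases hw : w ∈ F.F
    · ext u <;> simp [amb, sigA, hw, f.comm]
    · ext u <;> simp [amb, sigA, hw, f.comm]

end Rp
end Vale.Agent.P203
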