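import Vale.Agent.P203.CxA

/-! Part RepC: the reflection functor at a disjoint union. -/

namespace Vale.Agent.P203.Rp
open Classical

variable {G : Gr} {F F' U : Ind G} {X Y : Rp G} {v : G.V}

theorem eta_nat (F : Ind G) (e : Hom X Y) (v : G.V) (x : X.E v) :
    (eta F Y).f v (e.f v x) = (sigMap F e).f v ((eta F X).f v x) := by
  apply Subtype.ext
  change etaA F Y v _ = amb e v (etaA F X v x)
  by_cases hv : v ∈ F.F <;> ext u <;> simp [etaA, amb, hv, e.comm]

theorem eta_bij (hv : v ∉ F.F) : Function.Bijective ((eta F X).f v) := by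
  have : ⇑((eta F X).f v) = offE X hv := funext fun x => Subtype.ext (by
    change etaA F X v x = (x, 0)
    simp [etaA, hv])
  rw [this]
  exact (offE X hv).bijective

theorem sig_snd {w : G.V} (s : (sig F X).E v) (h : v ∈ F.F → ¬ G.adj v w) : s.1.2 w = 0 := by
  by_cases hv : v ∈ F.F
  · exact (s.2.1 hv).2.1 w (h hv)
  · exact congrFun (s.2.2 hv) w

theorem sig_inn_off (hv : v ∉ F.F) (s : ∀ w, (sig F X).E w) (h : ∀ w ∈ F.F, ¬ G.adj w v) :
    ((sig F X).inn v s).1 = (X.inn v fun u => (s u).1.1, 0) := by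
  have e : ((sig F X).inn v s).1 = ∑ w, sigA F X w v (s w).1 := by
    rw [inn_apply]
    exact map_sum (sigSub F X v).subtype _ _
  rw [e]
  ext u
  · simp [Prod.fst_sum, sigA, hv, inn_apply, fun w => sig_snd (s w) (h w)]
  · simp [Prod.snd_sum, sigA, hv]

/-- The ambient comparison map. -/
noncomputable def unA (F' : Ind G) (X : Rp G) (v : G.V) :
    ((sig F' X).E v × ∀ w, (sig F' X).E w) →ₗ[kk] (X.E v × ∀ w, X.E w) where
  toFun p := (p.1.1.1, p.1.1.2 + fun w => (p.2 w).1.1)
  map_add' p q := Prod.ext rfl (funext fun w => add_add_add_comm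
    (p.1.1.2 w) (q.1.1.2 w) (p.2 w).1.1 (q.2 w).1.1)
  map_smul' c p := Prod.ext rfl (funext fun w => (smul_add c (p.1.1.2 w) (p.2 w).1.1).symm)

theorem unA_apply (p : (sig F' X).E v × ∀ w, (sig F' X).E w) :
    unA F' X v p = (p.1.1.1, p.1.1.2 + fun w => (p.2 w).1.1) := rfl

theorem sig_coe_zero : (0 : (sig F X).E v).1 = 0 := rfl

section
variable (hU : U.F = F.F ∪ F'.F) (hd : Disjoint F.F F'.F)
include hU

theorem un_na {v w : G.V} (hv : v ∈ F.F ∨ v ∈ F'.F) (hw : w ∈ F.F ∨ w ∈ F'.F) : ¬ G.adj v w :=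
  U.ind v (hU ▸ hv) w (hU ▸ hw)

include hd

theorem unA_mem (v : G.V) : ∀ p ∈ sigSub F (sig F' X) v, unA F' X v p ∈ sigSub U X v := by
  intro p hp
  rw [unA_apply]
  by_cases hv : v ∈ F.F
  · obtain ⟨h1, h2, h3⟩ := hp.1 hv
    have h4 := sig_inn_off (Set.disjoint_left.1 hd hv) p.2
      fun w hw => un_na hU (.inr hw) (.inl hv)
    rw [h3] at h4
    refine ⟨fun _ => ⟨by rw [h1]; rfl, fun w hw => ?_, ?_⟩, fun h => absurd (hU ▸ .inl hv) h⟩
    · simp [h1, h2 w hw, sig_coe_zero]
    · rw [h1]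
      exact (congrArg (X.inn v) (zero_add _)).trans (congrArg Prod.fst h4).symm
  · have e : (p.1.1.1, p.1.1.2 + fun w => (p.2 w).1.1) = p.1.1 := by
      rw [hp.2 hv]
      exact Prod.ext rfl (add_zero p.1.1.2)
    rw [e]
    exact ⟨fun h => p.1.2.1 ((hU ▸ h : v ∈ F.F ∪ F'.F).resolve_left hv),
      fun h => p.1.2.2 fun h' => h (hU ▸ .inr h')⟩

/-- The comparison morphism. -/
noncomputable def unH (X : Rp G) : Hom (sig F (sig F' X)) (sig U X) where
  f v := (unA F' X v).restrict (unA_mem hU hd v)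
  comm v w p := by
    apply Subtype.ext
    change unA F' X w (sigA F (sig F' X) v w p.1) = sigA U X v w (unA F' X v p.1)
    have A : ∀ v w (s : (sig F' X).E v), ((sig F' X).a v w s).1 = sigA F' X v w s.1 :=
      fun _ _ _ => rfl
    have B : ∀ s t : (sig F' X).E w, (s + t).1 = s.1 + t.1 := fun _ _ => rfl
    by_cases hw : w ∈ F.F
    · have hU' : w ∈ U.F := hU ▸ .inl hw
      have hw' : w ∉ F'.F := Set.disjoint_left.1 hd hw
      have h1 := sig_snd p.1.1 fun h => un_na hU (.inr h) (.inl hw)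
      rw [sigA, if_pos hw, unA_apply, unA_apply]
      ext u
      · simp [sigA, hU', sig_coe_zero]
      · by_cases hu : u ∈ F'.F
        · simp [sigA, hU', sig_coe_zero, A, hu, X.a_zero w u (un_na hU (.inl hw) (.inr hu))]
        · simp [sigA, hU', sig_coe_zero, A, hu, hw', h1]
    · rw [sigA, if_neg hw, unA_apply, unA_apply]
      by_cases hw' : w ∈ F'.F
      · have hU' : w ∈ U.F := hU ▸ .inr hw'
        have h1 := sig_snd (X := sig F' X) p fun h => un_na hU (.inl h) (.inr hw')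
        ext u <;> simp [sigA, hU', sig_coe_zero, A, hw', h1]
      · have hU' : w ∉ U.F := fun h => (hU ▸ h : w ∈ F.F ∪ F'.F).elim hw hw'
        ext u
        · simp [sigA, hU', A, B, hw', add_assoc]
        · simp [sigA, hU', sig_coe_zero, A, B, hw', (p.1.2 w).2.2 hw']

theorem unH_bij (X : Rp G) (v : G.V) : Function.Bijective ((unH hU hd X).f v) := by
  refine ⟨(injective_iff_map_eq_zero _).2 fun p hp => Subtype.ext ?_, fun t => ?_⟩
  · have e : unA F' X v p.1 = 0 := congrArg Subtype.val hp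
    rw [unA_apply] at e
    by_cases hv : v ∈ F.F
    · obtain ⟨h1, h2, -⟩ := p.2.1 hv
      refine Prod.ext h1 (funext fun w => ?_)
      by_cases hw : G.adj v w
      · refine Subtype.ext (Prod.ext ?_ ((p.1.2 w).2.2 fun h => un_na hU (.inl hv) (.inr h) hw))
        have := congrFun (congrArg Prod.snd e) w
        rw [h1] at this
        exact (zero_add _).symm.trans this
      · exact h2 w hw
    · rw [p.2.2 hv] at e
      have e1 := congrArg Prod.fst e
      have e2 := congrArg Prod.snd e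
      exact Prod.ext (Subtype.ext (Prod.ext e1 ((add_zero _).symm.trans e2))) (p.2.2 hv)
  · by_cases hv : v ∈ F.F
    · obtain ⟨h1, h2, h3⟩ := t.2.1 (hU ▸ .inl hv)
      have e : ∀ w, (if hw : w ∈ F'.F then 0 else offE X hw (t.1.2 w)).1.1 = t.1.2 w := fun w => by
        split_ifs with hw
        · exact (h2 w (un_na hU (.inl hv) (.inr hw))).symm
        · rfl
      refine ⟨⟨(0, fun w => if hw : w ∈ F'.F then 0 else offE X hw (t.1.2 w)), fun _ =>
        ⟨rfl, fun w hw => ?_, Subtype.ext ?_⟩, fun h => absurd hv h⟩, Subtype.ext ?_⟩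
      · simp [h2 w hw]
      · rw [sig_inn_off (Set.disjoint_left.1 hd hv) _ fun w hw => un_na hU (.inr hw) (.inl hv),
          funext e, h3]
        rfl
      · exact Prod.ext h1.symm (funext fun w => (zero_add _).trans (e w))
    · exact ⟨⟨(⟨t.1, fun h => t.2.1 (hU ▸ .inr h),
        fun h => t.2.2 fun h' => (hU ▸ h' : v ∈ F.F ∪ F'.F).elim hv h⟩, 0),
        fun h => absurd h hv, fun _ => rfl⟩, Subtype.ext (Prod.ext rfl (add_zero t.1.2))⟩

theorem unH_nat (e : Hom X Y) (v : G.V) (p : (sig F (sig F' X)).E v) :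
    (unH hU hd Y).f v ((sigMap F (sigMap F' e)).f v p) =
      (sigMap U e).f v ((unH hU hd X).f v p) :=
  Subtype.ext (Prod.ext rfl (funext fun w => (map_add (e.f w) _ _).symm))

end

end Vale.Agent.P203.Rp

namespace Vale.Agent.P203.Cx
open Classical

variable {G : Gr} {F F' U : Ind G}

theorem sig_empty (h : F.F = ∅) (C : Cx G) : (C.sig F).cl = C.cl :=
  (cl_eq_of_bij (D := C.sig F) ⟨Rp.eta F C.X, fun q => Rp.eta_nat F (C.p q), Rp.eta_nat F C.d⟩
    fun v => Rp.eta_bij (by rw [h]; exact id)).symm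

theorem sig_union (hU : U.F = F.F ∪ F'.F) (hd : Disjoint F.F F'.F) (C : Cx G) :
    ((C.sig F').sig F).cl = (C.sig U).cl :=
  cl_eq_of_bij (C := (C.sig F').sig F) (D := C.sig U) ⟨Rp.unH hU hd C.X,
    fun q => Rp.unH_nat hU hd (C.p q), Rp.unH_nat hU hd C.d⟩ (Rp.unH_bij hU hd C.X)

end Vale.Agent.P203.Cx
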