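import Vale.Agent.P203.CxA

/-! Part RepD: the braid relation for reflection functors at adjacent vertices. -/

namespace Vale.Agent.P203.Rp.Br
open Classical

variable {G : Gr} {F F' : Ind G} {X X' : Rp G} {i j v w t : G.V}

/-- First coordinate. -/
noncomputable def lo (F : Ind G) (X : Rp G) (v : G.V) : (sig F X).E v →ₗ[kk] X.E v :=
  (LinearMap.fst _ _ _).comp (sigSub F X v).subtype

/-- Second coordinates. -/
noncomputable def hi (F : Ind G) (X : Rp G) (v w : G.V) : (sig F X).E v →ₗ[kk] X.E w :=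
  (LinearMap.proj w).comp ((LinearMap.snd _ _ _).comp (sigSub F X v).subtype)

theorem eq0 {p : (sig F X).E v} (h1 : lo F X v p = 0) (h2 : ∀ w, hi F X v w p = 0) : p = 0 :=
  Subtype.ext (Prod.ext h1 (funext h2))
theorem lo_on (hv : v ∈ F.F) (p : (sig F X).E v) : lo F X v p = 0 := (p.2.1 hv).1
theorem hi_nadj (h : ¬ G.adj v w) (p : (sig F X).E v) : hi F X v w p = 0 :=
  if hv : v ∈ F.F then (p.2.1 hv).2.1 w h else congrFun (p.2.2 hv) w
theorem inn_hi (hv : v ∈ F.F) (p : (sig F X).E v) : X.inn v (fun w => hi F X v w p) = 0 :=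
  (p.2.1 hv).2.2
theorem hi_off (hv : v ∉ F.F) (w : G.V) (p : (sig F X).E v) : hi F X v w p = 0 :=
  congrFun (p.2.2 hv) w
theorem lo_a (p : (sig F X).E v) : lo F X w ((sig F X).a v w p) =
    if w ∈ F.F then 0 else X.a v w (lo F X v p) + hi F X v w p := by
  change (sigA F X v w p.1).1 = _
  split_ifs with h <;> (simp [sigA, h]; try rfl)
theorem hi_a (p : (sig F X).E v) : hi F X w t ((sig F X).a v w p) =
    if w ∈ F.F then X.a w t (X.a v w (lo F X v p)) else 0 := by
  change (sigA F X v w p.1).2 t = _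
  split_ifs with h <;> (simp [sigA, h]; try rfl)
theorem lo_map (f : Hom X X') (p : (sig F X).E v) :
    lo F X' v ((sigMap F f).f v p) = f.f v (lo F X v p) := rfl
theorem hi_map (f : Hom X X') (p : (sig F X).E v) :
    hi F X' v w ((sigMap F f).f v p) = f.f w (hi F X v w p) := rfl

theorem lo_inn (hF : ∀ w, w ∈ F.F ↔ w = i) (hv : v ≠ i) (p : ∀ w, (sig F X).E w) :
    lo F X v ((sig F X).inn v p) = X.inn v (fun w => lo F X w (p w)) + hi F X i v (p i) := by
  simp only [inn_apply, map_sum, lo_a, hF, hv, if_false, Finset.sum_add_distrib]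
  rw [Finset.sum_eq_single i (fun w _ hw => hi_off (by simpa [hF] using hw) _ _) (by simp)]
theorem hi_inn (hv : v ∈ F.F) (p : ∀ w, (sig F X).E w) :
    hi F X v t ((sig F X).inn v p) = X.a v t (X.inn v fun w => lo F X w (p w)) := by
  simp only [inn_apply, map_sum, hi_a, hv, if_true]

theorem ex_on (hv : v ∈ F.F) (p : ∀ w, X.E w) (h1 : ∀ w, ¬ G.adj v w → p w = 0)
    (h2 : X.inn v p = 0) : ∃ q : (sig F X).E v, ∀ w, hi F X v w q = p w :=
  ⟨⟨(0, p), fun _ => ⟨rfl, h1, h2⟩, fun h => absurd hv h⟩, fun _ => rfl⟩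

theorem ex_off (p : ∀ w, X.E w) (h : ∀ w ∈ F.F, p w = 0) :
    ∃ q : ∀ w, (sig F X).E w, ∀ w, lo F X w (q w) = p w ∧ ∀ t, hi F X w t (q w) = 0 :=
  ⟨fun w => ⟨(p w, 0), fun hw => ⟨h w hw, fun _ _ => rfl, map_zero _⟩, fun _ => rfl⟩,
    fun _ => ⟨rfl, fun _ => rfl⟩⟩

theorem ex_two (hF : ∀ w, w ∈ F.F ↔ w = i) (hj : j ∈ F'.F) (hij : G.adj j i) (y : ∀ w, X.E w)
    (hy : ∀ t, ¬ G.adj j t ∨ t = i → y t = 0) (p : (sig F X).E i)
    (h : X.inn j y + hi F X i j p = 0) : ∃ q : (sig F' (sig F X)).E j,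
      hi F' _ j i q = p ∧ ∀ t, lo F X t (hi F' _ j t q) = y t := by
  have hne : j ≠ i := fun e => G.irrefl i (e ▸ hij)
  obtain ⟨z, hz⟩ := ex_off (F := F) y fun w hw => hy w (Or.inr ((hF w).1 hw))
  have zi : z i = 0 := eq0 (lo_on ((hF i).2 rfl) _) (hz i).2
  have e : ∀ t, lo F X t ((Pi.single i p + z : ∀ w, (sig F X).E w) t) = y t := fun t => by
    by_cases ht : t = i
    · subst ht; rw [lo_on ((hF t).2 rfl), hy t (Or.inr rfl)]
    · simp [Pi.single_eq_of_ne ht, (hz t).1]
  obtain ⟨q, hq⟩ := ex_on (F := F') hj (Pi.single i p + z) (fun w hw => by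
      have : w ≠ i := fun e => hw (e ▸ hij)
      simp only [Pi.add_apply, Pi.single_eq_of_ne this, zero_add]
      exact eq0 ((hz w).1.trans (hy w (Or.inl hw))) (hz w).2)
    (eq0 (by rw [lo_inn hF hne, funext e]; simpa [zi] using h) fun w =>
      hi_off (by simpa [hF] using hne) _ _)
  exact ⟨q, by simp [hq, zi], fun t => by rw [hq, e]⟩

theorem inn_cut (X : Rp G) (i j : G.V) (p : ∀ w, X.E w) :
    X.inn i (fun t => if t = j then 0 else p t) + X.a j i (p j) = X.inn i p := by
  rw [← inn_single, ← map_add]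
  congr 1
  funext t
  by_cases h : t = j
  · subst h; simp
  · simp [h]

/-- The common ambient space. -/
abbrev M (X : Rp G) (w : G.V) : Type := X.E w × (∀ t, X.E t) × ∀ t, X.E t

/-- Coordinates on the triple reflection. -/
noncomputable def co (F F' : Ind G) (i j : G.V) (X : Rp G) (w : G.V) :
    (sig F (sig F' (sig F X))).E w →ₗ[kk] M X w :=
  LinearMap.prod (lo F X w ∘ₗ lo F' _ w ∘ₗ lo F _ w) (LinearMap.prod
    (LinearMap.pi fun t => lo F X t ∘ₗ lo F' _ t ∘ₗ hi F _ w t +
      if t = j then 0 else hi F X i t ∘ₗ hi F' _ w i ∘ₗ lo F _ w)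
    (LinearMap.pi fun t => lo F X t ∘ₗ hi F' _ w t ∘ₗ lo F _ w + lo F X t ∘ₗ hi F' _ j t ∘ₗ hi F _ w j))

theorem co1 (r : (sig F (sig F' (sig F X))).E w) :
    (co F F' i j X w r).1 = lo F X w (lo F' _ w (lo F _ w r)) := rfl
theorem co2 (r : (sig F (sig F' (sig F X))).E w) : (co F F' i j X w r).2.1 t =
    lo F X t (lo F' _ t (hi F _ w t r)) +
      if t = j then 0 else hi F X i t (hi F' _ w i (lo F _ w r)) := by
  by_cases h : t = j <;> simp [co, h]
theorem co3 (r : (sig F (sig F' (sig F X))).E w) : (co F F' i j X w r).2.2 t =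
    lo F X t (hi F' _ w t (lo F _ w r)) + lo F X t (hi F' _ j t (hi F _ w j r)) := rfl

theorem co2f (r : (sig F (sig F' (sig F X))).E w) : (co F F' i j X w r).2.1 = fun t =>
    lo F X t (lo F' _ t (hi F _ w t r)) +
      if t = j then 0 else hi F X i t (hi F' _ w i (lo F _ w r)) := funext fun _ => co2 r
theorem co3f (r : (sig F (sig F' (sig F X))).E w) : (co F F' i j X w r).2.2 = fun t =>
    lo F X t (hi F' _ w t (lo F _ w r)) + lo F X t (hi F' _ j t (hi F _ w j r)) := rfl

/-- The image of the coordinates. -/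
def Dm (X : Rp G) (i j w : G.V) (m : M X w) : Prop :=
  (w = i ∨ w = j → m.1 = 0) ∧ (∀ t, ¬ G.adj i t ∨ t = j → m.2.1 t = 0) ∧
    (∀ t, ¬ G.adj j t ∨ t = i → m.2.2 t = 0) ∧ (w = i → X.inn j m.2.2 = X.a i j (X.inn i m.2.1)) ∧
    (w = j → X.inn i m.2.1 = X.a j i (X.inn j m.2.2)) ∧ (w ≠ i → w ≠ j → m.2.1 = 0 ∧ m.2.2 = 0)

/-- The arrows in coordinates. -/
noncomputable def DA (X : Rp G) (i j w t : G.V) (m : M X w) : M X t :=
  if t = i then (if w = i then 0 else
    (0, fun s => (if s = j then 0 else X.a i s (X.a w i m.1)) + m.2.1 s,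
      fun s => if s = i then 0 else X.a j s (X.a i j (X.a w i m.1) - X.inn j m.2.2)))
  else if t = j then (if w = j then 0 else
    (0, fun s => if s = j then 0 else X.a i s (X.a j i (X.a w j m.1) - X.inn i m.2.1),
      fun s => (if s = i then 0 else X.a j s (X.a w j m.1)) + m.2.2 s))
  else (X.a w t m.1 + ((if w = i then m.2.1 t else 0) + if w = j then m.2.2 t else 0), 0, 0)

/-- Swap of the two families. -/
def sw (X : Rp G) (w : G.V) : M X w ≃ₗ[kk] M X w :=
  (LinearEquiv.refl kk _).prodCongr (LinearEquiv.prodComm kk _ _)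

theorem sw_DA (h : i ≠ j) (m : M X w) : sw X t (DA X j i w t m) = DA X i j w t (sw X w m) := by
  unfold DA
  by_cases h1 : t = i
  · subst h1; simp only [h, if_false, if_true]; split_ifs <;> rfl
  · by_cases h2 : t = j
    · subst h2; simp only [h1, if_false, if_true]; split_ifs <;> rfl
    · simp only [h1, h2, if_false]; rw [add_comm (ite _ _ _)]; rfl

theorem sw_Dm (m : M X w) : Dm X i j w (sw X w m) ↔ Dm X j i w m := by
  change (_ ∧ (∀ t, _ → m.2.2 t = 0) ∧ (∀ t, _ → m.2.1 t = 0) ∧ (_ → X.inn j m.2.1 = X.a i j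
    (X.inn i m.2.2)) ∧ (_ → X.inn i m.2.2 = X.a j i (X.inn j m.2.1)) ∧
    (_ → _ → m.2.2 = 0 ∧ m.2.1 = 0)) ↔ _
  have : (sw X w m).1 = m.1 := rfl
  unfold Dm
  rw [this]
  tauto

section
variable (hF : ∀ w, w ∈ F.F ↔ w = i) (hF' : ∀ w, w ∈ F'.F ↔ w = j) (hij : G.adj i j)
include hF hF' hij

theorem rel1 (q : (sig F' (sig F X)).E j) :
    X.inn j (fun t => lo F X t (hi F' _ j t q)) + hi F X i j (hi F' _ j i q) = 0 := by
  rw [← lo_inn hF (fun e : j = i => G.irrefl j (e ▸ hij)), inn_hi ((hF' j).2 rfl), map_zero]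

theorem q_zero (q : (sig F' (sig F X)).E j) (h1 : ∀ t, lo F X t (hi F' _ j t q) = 0)
    (h2 : hi F' _ j i q = 0) : q = 0 := by
  refine eq0 (lo_on ((hF' j).2 rfl) _) fun t => ?_
  by_cases ht : t = i
  · subst ht; exact h2
  · exact eq0 (h1 t) fun s => hi_off (by simpa [hF] using ht) _ _

theorem co_inj : Function.Injective (co F F' i j X w) := by
  have hne : i ≠ j := fun e => G.irrefl i (e ▸ hij)
  refine (injective_iff_map_eq_zero _).2 fun r hr => ?_
  have h1 := co1 (i := i) (j := j) r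
  have h2 := fun t => co2 (i := i) (j := j) (t := t) r
  have h3 := fun t => co3 (i := i) (j := j) (t := t) r
  simp only [hr, Prod.fst_zero, Prod.snd_zero, Pi.zero_apply] at h1 h2 h3
  by_cases hi' : w = i
  · subst hi'
    have l0 := lo_on ((hF w).2 rfl) r
    simp only [l0, map_zero, ite_self, add_zero, zero_add] at h2 h3
    have a1 : ∀ t, lo F' _ t (hi F _ w t r) = 0 := fun t => by
      by_cases ht : t = w
      · subst ht; rw [hi_nadj (G.irrefl t), map_zero]
      · exact eq0 (h2 t).symm fun s => hi_off (by simpa [hF] using ht) _ _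
    refine q_zero hF' hF (G.symm hij) r a1 (q_zero hF hF' hij _ (fun t => (h3 t).symm) ?_)
    have := rel1 hF' hF (G.symm hij) r
    rwa [funext a1, show (fun t => (0 : (sig F X).E t)) = 0 from rfl, map_zero, zero_add] at this
  · have l0 := fun t => hi_off (X := sig F' (sig F X)) (show w ∉ F.F by simpa [hF] using hi') t r
    simp only [l0, map_zero, add_zero, zero_add] at h2 h3
    refine eq0 ?_ l0
    by_cases hj' : w = j
    · subst hj'
      refine q_zero hF hF' hij _ (fun t => (h3 t).symm) (eq0 (lo_on ((hF i).2 rfl) _) fun t => ?_)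
      by_cases ht : t = w
      · subst ht
        have := rel1 hF hF' hij (lo F _ t r)
        rwa [funext fun t => (h3 t).symm, show (fun t => (0 : X.E t)) = 0 from rfl, map_zero,
          zero_add] at this
      · simpa [ht] using (h2 t).symm
    · exact eq0 (eq0 h1.symm fun s => hi_off (by simpa [hF] using hi') _ _)
        fun s => hi_off (by simpa [hF'] using hj') _ _

theorem co_mem (r : (sig F (sig F' (sig F X))).E w) : Dm X i j w (co F F' i j X w r) := by
  have hne : i ≠ j := fun e => G.irrefl i (e ▸ hij)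
  have oi : i ∈ F.F := (hF i).2 rfl
  have oj : j ∈ F'.F := (hF' j).2 rfl
  refine ⟨?_, fun t ht => ?_, fun t ht => ?_, ?_, ?_, fun h1 h2 => ?_⟩
  · rintro (rfl | rfl) <;> simp [co1, lo_on oi, lo_on oj]
  · rcases ht with ht | rfl
    · by_cases h : w = i
      · subst h; simp [co2, hi_nadj ht]
      · simp [co2, hi_nadj ht, hi_off (show w ∉ F.F by simpa [hF] using h)]
    · simp [co2, lo_on oj]
  · rcases ht with ht | rfl
    · by_cases h : w = j
      · subst h; simp [co3, hi_nadj ht]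
      · simp [co3, hi_nadj ht, hi_off (show w ∉ F'.F by simpa [hF'] using h)]
    · simp [co3, lo_on oi]
  · rintro rfl
    have a1 := rel1 hF hF' hij (hi F _ w j r)
    have a2 := congrArg (hi F X w j) (rel1 hF' hF (G.symm hij) r)
    rw [map_add, hi_inn oi, map_zero] at a2
    rw [co2f, co3f]
    simp only [lo_on oi, map_zero, ite_self, add_zero, zero_add]
    exact add_right_cancel (a1.trans a2.symm)
  · rintro rfl
    have a1 := rel1 hF hF' hij (lo F _ w r)
    have a2 := (inn_cut X i w _).trans (inn_hi oi (hi F' _ w i (lo F _ w r)))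
    rw [co2f, co3f]
    simp only [hi_off (show w ∉ F.F by simpa [hF] using hne.symm), map_zero, add_zero, zero_add]
    rw [eq_neg_of_add_eq_zero_left a1, map_neg]
    exact eq_neg_of_add_eq_zero_left a2
  · constructor <;> funext t <;>
      simp [co2, co3, hi_off (show w ∉ F.F by simpa [hF] using h1),
        hi_off (show w ∉ F'.F by simpa [hF'] using h2)]

theorem co_surj (m : M X w) (h : Dm X i j w m) : m ∈ LinearMap.range (co F F' i j X w) := by
  have hne : i ≠ j := fun e => G.irrefl i (e ▸ hij)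
  have oi : i ∈ F.F := (hF i).2 rfl
  have oj : j ∈ F'.F := (hF' j).2 rfl
  obtain ⟨x, u, y⟩ := m
  obtain ⟨h1, h2, h3, h4, h5, h6⟩ := h
  simp only at h1 h2 h3 h4 h5 h6
  by_cases hi' : w = i
  · subst hi'
    obtain ⟨u', hu⟩ := ex_off (F := F) u fun t ht => h2 t (Or.inl ((hF t).1 ht ▸ G.irrefl w))
    obtain ⟨q, q1, q2⟩ := ex_two hF oj (G.symm hij) y h3 (-(sig F X).inn w u') (by
      rw [map_neg, hi_inn oi, funext fun t => (hu t).1, h4 rfl, add_neg_cancel])
    obtain ⟨r, r1, r2⟩ := ex_two hF' oi hij u' (fun t ht => eq0 ((hu t).1.trans (h2 t ht)) (hu t).2)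
      q (by rw [q1, add_neg_cancel])
    refine ⟨r, Prod.ext ?_ (Prod.ext (funext fun t => ?_) (funext fun t => ?_))⟩
    · simp [co1, lo_on oi, h1]
    · simp [co2, lo_on oi, r2, (hu t).1]
    · simp [co3, lo_on oi, r1, q2]
  have off : ∀ q : (sig F' (sig F X)).E w, ∃ r : (sig F (sig F' (sig F X))).E w,
      lo F _ w r = q ∧ ∀ t, hi F _ w t r = 0 := fun q =>
    ⟨offE _ (by simpa [hF] using hi') q, rfl, fun _ => rfl⟩
  by_cases hj' : w = j
  · subst hj'
    obtain ⟨p, hp⟩ := ex_on oi (u - Pi.single w (X.inn w y)) (fun t ht => by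
      have : t ≠ w := fun e => ht (e ▸ hij)
      simp [h2 t (Or.inl ht), this]) (by rw [map_sub, inn_single, h5 rfl, sub_self])
    obtain ⟨q, q1, q2⟩ := ex_two hF oj (G.symm hij) y h3 p (by simp [hp, h2 w (Or.inr rfl)])
    obtain ⟨r, r1, r2⟩ := off q
    refine ⟨r, Prod.ext ?_ (Prod.ext (funext fun t => ?_) (funext fun t => ?_))⟩
    · simp [co1, lo_on oj, h1]
    · by_cases ht : t = w
      · simp [co2, r2, ht, h2 t (Or.inr ht)]
      · simp [co2, r1, r2, q1, hp, ht]
    · simp [co3, r1, r2, q2]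
  · obtain ⟨rfl, rfl⟩ := h6 hi' hj'
    obtain ⟨r, r1, r2⟩ := off (offE _ (by simpa [hF'] using hj') (offE _ (by simpa [hF] using hi') x))
    refine ⟨r, Prod.ext ?_ (Prod.ext (funext fun t => ?_) (funext fun t => ?_))⟩
    · rw [co1, r1]; rfl
    · simp [co2, r2, hi_off (show w ∉ F'.F by simpa [hF'] using hj')]
    · simp [co3, r2, hi_off (show w ∉ F'.F by simpa [hF'] using hj')]

theorem co_a (r : (sig F (sig F' (sig F X))).E w) :
    co F F' i j X t ((sig F (sig F' (sig F X))).a w t r) = DA X i j w t (co F F' i j X w r) := by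
  have hne : i ≠ j := fun e => G.irrefl i (e ▸ hij)
  have oi : i ∈ F.F := (hF i).2 rfl
  have oj : j ∈ F'.F := (hF' j).2 rfl
  have f1 : ∀ {X : Rp G} {w : G.V}, w ≠ i → ∀ t p, hi F X w t p = 0 := fun h =>
    hi_off (by simpa [hF] using h)
  have f2 : ∀ {X : Rp G} {w : G.V}, w ≠ j → ∀ t p, hi F' X w t p = 0 := fun h =>
    hi_off (by simpa [hF'] using h)
  have ai := X.a_zero i i (G.irrefl i)
  have aj := X.a_zero j j (G.irrefl j)
  have z1 : ∀ {X : Rp G} p, hi F X i i p = 0 := hi_nadj (G.irrefl i)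
  have z2 : ∀ {X : Rp G} p, hi F' X j j p = 0 := hi_nadj (G.irrefl j)
  unfold DA
  split_ifs with h1 h2 h3 h4
  · subst h1 h2; rw [Rp.a_zero _ _ _ (G.irrefl _)]; simp
  · subst h1
    refine Prod.ext ?_ (Prod.ext (funext fun s => ?_) (funext fun s => ?_))
    · simp [co1, lo_on oi]
    · by_cases s1 : s = t
      · subst s1; simp [co1, co2, lo_on oi, f1 h2, ai, z1]
      by_cases s2 : s = j
      · subst s2; simp [co2, lo_on oj, f1 h2]
      simp [co1, co2, lo_a, hi_a, hF, hF', lo_on oi, f1 h2, f2 hne, s1, s2, hne]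
    · by_cases s1 : s = t
      · subst s1; simp [co3, lo_on oi]
      by_cases w1 : w = j
      · subst w1
        have := eq_neg_of_add_eq_zero_right (rel1 hF hF' hij (lo F _ w r))
        simp [co1, co3, co3f, lo_a, hi_a, hF, hF', lo_on oi, lo_on oj, f1 h2, f2 hne, f1 hne.symm,
          s1, hne, hne.symm, this]
      · simp [co1, co3, co3f, lo_a, hi_a, hF, hF', lo_on oi, lo_on oj, f1 h2, f2 hne, f1 hne.symm,
          s1, hne, hne.symm, f2 w1, show (fun t => (0 : X.E t)) = 0 from rfl]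
  · subst h3 h4; rw [Rp.a_zero _ _ _ (G.irrefl _)]; simp
  · subst h3
    refine Prod.ext ?_ (Prod.ext (funext fun s => ?_) (funext fun s => ?_))
    · simp [co1, lo_on oj]
    · by_cases s1 : s = t
      · subst s1; simp [co2, f1 h1]
      by_cases w1 : w = i
      · subst w1
        have a2 := congrArg (hi F X w s) (rel1 hF' hF (G.symm hij) r)
        rw [map_add, hi_inn oi, map_zero] at a2
        simp [co1, co2, co2f, lo_a, hF, lo_on oi, f1 h1, s1, h1, eq_neg_of_add_eq_zero_right a2]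
      · simp [co1, co2, co2f, lo_a, hi_a, hF, hF', lo_on oi, lo_on oj, f1 h1, s1, h1, f1 w1, f2 h4,
          show (fun t => (0 : X.E t)) = 0 from rfl]
    · by_cases s1 : s = i
      · subst s1; simp [co3, lo_on oi]
      by_cases w1 : w = i
      · subst w1; simp [co1, co3, lo_a, hF, lo_on oi, f1 h1, s1, h1]
      · simp [co1, co3, lo_a, hi_a, hF, hF', f1 h1, s1, h1, f2 h4, f1 w1]
  all_goals
    refine Prod.ext ?_ (Prod.ext (funext fun s => ?_) (funext fun s => ?_))
    · subst_vars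
      simp [co1, co2, co3, lo_a, hF, hF', lo_on oi, lo_on oj, f1, f2, *]
    · simp [co2, f1 h1, f2 h3]
    · simp [co3, f1 h1, f2 h3]

theorem co_range : LinearMap.range (co F F' i j X w) =
    LinearMap.range ((sw X w).toLinearMap ∘ₗ co F' F j i X w) := by
  ext m
  constructor
  · rintro ⟨r, rfl⟩
    obtain ⟨r', h⟩ := co_surj hF' hF (G.symm hij) _ ((sw_Dm _).2 (co_mem hF hF' hij r))
    exact ⟨r', congrArg (sw X w) h⟩
  · rintro ⟨r, rfl⟩
    exact co_surj hF hF' hij _ ((sw_Dm _).2 (co_mem hF' hF (G.symm hij) r))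

end

/-- The ambient map of an endomorphism. -/
def am (f : Hom X X) (w : G.V) (m : M X w) : M X w :=
  (f.f w m.1, fun t => f.f t (m.2.1 t), fun t => f.f t (m.2.2 t))

theorem co_map (f : Hom X X) (r : (sig F (sig F' (sig F X))).E w) :
    co F F' i j X w ((sigMap F (sigMap F' (sigMap F f))).f w r) = am f w (co F F' i j X w r) := by
  refine Prod.ext rfl (Prod.ext (funext fun s => ?_) (funext fun s => ?_))
  · by_cases h : s = j <;> simp [am, co2, lo_map, hi_map, h]
  · simp [am, co3, lo_map, hi_map]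

end Vale.Agent.P203.Rp.Br

namespace Vale.Agent.P203.Cx
open Classical

variable {G : Gr} {F F' : Ind G}

theorem cl_of_coord {C D : Cx G} {M : G.V → Type} [∀ w, AddCommGroup (M w)]
    [∀ w, Module kk (M w)] (c : ∀ w, C.X.E w →ₗ[kk] M w) (c' : ∀ w, D.X.E w →ₗ[kk] M w)
    (h : ∀ w, Function.Injective (c w)) (h' : ∀ w, Function.Injective (c' w))
    (hr : ∀ w, LinearMap.range (c w) = LinearMap.range (c' w))
    (ha : ∀ w t x y, c w x = c' w y → c t (C.X.a w t x) = c' t (D.X.a w t y))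
    (hp : ∀ q w x y, c w x = c' w y → c w ((C.p q).f w x) = c' w ((D.p q).f w y))
    (hd : ∀ w x y, c w x = c' w y → c w (C.d.f w x) = c' w (D.d.f w y)) : C.cl = D.cl := by
  let e : ∀ w, C.X.E w ≃ₗ[kk] D.X.E w := fun w => (LinearEquiv.ofInjective _ (h w)).trans
    ((LinearEquiv.ofEq _ _ (hr w)).trans (LinearEquiv.ofInjective _ (h' w)).symm)
  have he : ∀ w x, c' w (e w x) = c w x := fun w x =>
    congrArg Subtype.val ((LinearEquiv.ofInjective _ (h' w)).apply_symm_apply _)
  exact cl_eq_of_bij ⟨⟨fun w => (e w).toLinearMap, fun w t x => h' t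
      ((he _ _).trans (ha w t _ _ (he w x).symm))⟩,
    fun q w x => h' w ((he _ _).trans (hp q w _ _ (he w x).symm)),
    fun w x => h' w ((he _ _).trans (hd w _ _ (he w x).symm))⟩ fun w => (e w).bijective

theorem sig_braid {i j : G.V} (hi : F.F = {i}) (hj : F'.F = {j}) (hij : G.adj i j) (C : Cx G) :
    (((C.sig F).sig F').sig F).cl = (((C.sig F').sig F).sig F').cl := by
  have hF : ∀ w, w ∈ F.F ↔ w = i := fun w => by rw [hi]; rfl
  have hF' : ∀ w, w ∈ F'.F ↔ w = j := fun w => by rw [hj]; rfl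
  have hne : i ≠ j := fun e => G.irrefl i (e ▸ hij)
  have key : ∀ (f : Rp.Hom C.X C.X) w x y, Rp.Br.co F F' i j C.X w x =
      Rp.Br.sw C.X w (Rp.Br.co F' F j i C.X w y) →
      Rp.Br.co F F' i j C.X w ((Rp.sigMap F (Rp.sigMap F' (Rp.sigMap F f))).f w x) =
      Rp.Br.sw C.X w (Rp.Br.co F' F j i C.X w
        ((Rp.sigMap F' (Rp.sigMap F (Rp.sigMap F' f))).f w y)) := fun f w x y h => by
    rw [Rp.Br.co_map, Rp.Br.co_map, h]; rfl
  refine cl_of_coord (C := ((C.sig F).sig F').sig F) (D := ((C.sig F').sig F).sig F')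
    (Rp.Br.co F F' i j C.X)
    (fun w => (Rp.Br.sw C.X w).toLinearMap ∘ₗ Rp.Br.co F' F j i C.X w)
    (fun w => Rp.Br.co_inj hF hF' hij)
    (fun w => (Rp.Br.sw C.X w).injective.comp (Rp.Br.co_inj hF' hF (G.symm hij)))
    (fun w => Rp.Br.co_range hF hF' hij) (fun w t x y h => ?_) (fun q => key _) (key _)
  refine (Rp.Br.co_a hF hF' hij x).trans (Eq.trans ?_
    (congrArg (Rp.Br.sw C.X t) (Rp.Br.co_a hF' hF (G.symm hij) y)).symm)
  rw [Rp.Br.sw_DA hne]
  exact congrArg _ h

end Vale.Agent.P203.Cx
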