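import Mathlib

/-! Abstract simplicial complexes and a tame notion of (weak) contractibility. -/

namespace Vale.Agent.P203
open Classical unitInterval

/-- An abstract simplicial complex; the empty face is allowed. -/
structure SC (V : Type) where
  face : Finset V → Prop
  down : ∀ {a b : Finset V}, b ⊆ a → face a → face b

namespace SC
variable {V : Type}

/-- Full subcomplex on a set of vertices. -/
def full (K : SC V) (P : Set V) : SC V where
  face a := K.face a ∧ ∀ v ∈ a, v ∈ P
  down h ha := ⟨K.down h ha.1, fun v hv => ha.2 v (h hv)⟩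

/-- Link of a vertex. -/
def link (K : SC V) (y : V) : SC V where
  face a := y ∉ a ∧ K.face (insert y a)
  down h ha := ⟨fun hy => ha.1 (h hy), K.down (Finset.insert_subset_insert y h) ha.2⟩

/-- Flag complex of a relation. -/
def flag (r : V → V → Prop) : SC V where
  face a := ∀ u ∈ a, ∀ v ∈ a, u ≠ v → r u v ∨ r v u
  down h ha := fun u hu v hv => ha u (h hu) v (h hv)

/-- Points of the realization whose support lies in the finite set `F`. -/
def pts (K : SC V) (F : Finset V) : Set (V → ℝ) :=
  {x | (∀ v, 0 ≤ x v) ∧ (∀ v, v ∉ F → x v = 0) ∧ ∑ v ∈ F, x v = 1 ∧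
    K.face (F.filter fun v => x v ≠ 0)}

/-- Every finite subcomplex contracts to a vertex inside a finite subcomplex. -/
def WC (K : SC V) : Prop :=
  (∃ v, K.face {v}) ∧ ∀ F : Finset V, ∃ (F' : Finset V) (v : V) (H : C(K.pts F × I, V → ℝ)),
    (∀ p, H p ∈ K.pts F') ∧ (∀ x, H (x, 0) = x.1) ∧ ∀ x, H (x, 1) = Pi.single v 1

/-- Edge-path connectedness. -/
def Conn (K : SC V) : V → V → Prop := Relation.ReflTransGen fun u v => K.face {u, v}

end SC
end Vale.Agent.P203
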