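import Vale.Agent.P203.SC

/-! Part SCa: cones, transport, directed unions, connectedness, joins. -/

namespace Vale.Agent.P203.SC
open Classical unitInterval

variable {V V' : Type}

theorem ext' {K L : SC V} (h : ∀ a, K.face a ↔ L.face a) : K = L := by
  cases K; cases L; congr; funext a; exact propext (h a)

/-- The closed simplex on a finite set. -/
def smp (a : Finset V) : Set (V → ℝ) :=
  {x | (∀ v, 0 ≤ x v) ∧ (∀ v, v ∉ a → x v = 0) ∧ ∑ v ∈ a, x v = 1}

theorem sum_supp {a b : Finset V} {z : V → ℝ} (hz : ∀ v, v ∉ a → z v = 0) (h : a ⊆ b) :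
    ∑ v ∈ b, z v = ∑ v ∈ a, z v :=
  (Finset.sum_subset h fun v _ hv => hz v hv).symm

theorem smp_mono {a b : Finset V} (h : a ⊆ b) {x : V → ℝ} (hx : x ∈ smp a) : x ∈ smp b :=
  ⟨hx.1, fun v hv => hx.2.1 v fun ha => hv (h ha), (sum_supp hx.2.1 h).trans hx.2.2⟩

theorem convex_smp (a : Finset V) : Convex ℝ (smp a) := by
  intro x hx y hy s t hs ht hst
  refine ⟨fun v => ?_, fun v hv => ?_, ?_⟩
  · have := hx.1 v
    have := hy.1 v
    simp only [Pi.add_apply, Pi.smul_apply, smul_eq_mul]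
    positivity
  · simp [hx.2.1 v hv, hy.2.1 v hv]
  · simp only [Pi.add_apply, Pi.smul_apply, smul_eq_mul, Finset.sum_add_distrib,
      ← Finset.mul_sum, hx.2.2, hy.2.2]
    linarith

theorem single_smp {a : Finset V} {v : V} (hv : v ∈ a) : (Pi.single v 1 : V → ℝ) ∈ smp a := by
  refine ⟨fun u => ?_, fun u hu => ?_, ?_⟩
  · by_cases h : u = v
    · subst h; simp
    · simp [h]
  · have : u ≠ v := fun h => hu (h ▸ hv)
    simp [this]
  · simp [Finset.sum_pi_single', hv]

theorem smp_le_one {a : Finset V} {x : V → ℝ} (hx : x ∈ smp a) (v : V) : x v ≤ 1 := by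
  by_cases hv : v ∈ a
  · rw [← hx.2.2]
    exact Finset.single_le_sum (fun u _ => hx.1 u) hv
  · rw [hx.2.1 v hv]; exact zero_le_one

theorem smp_nonempty {a : Finset V} {x : V → ℝ} (hx : x ∈ smp a) : a.Nonempty := by
  rcases a.eq_empty_or_nonempty with h | h
  · have := hx.2.2
    rw [h] at this
    simp at this
  · exact h

theorem isClosed_smp (a : Finset V) : IsClosed (smp a) := by
  have : smp a = (⋂ v, {x : V → ℝ | 0 ≤ x v}) ∩ ((⋂ v, ⋂ (_ : v ∉ a), {x : V → ℝ | x v = 0}) ∩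
      {x : V → ℝ | ∑ v ∈ a, x v = 1}) := by
    ext x; simp [smp]
  rw [this]
  refine (isClosed_iInter fun v => isClosed_le continuous_const (continuous_apply v)).inter
    ((isClosed_iInter fun v => isClosed_iInter fun _ =>
      isClosed_eq (continuous_apply v) continuous_const).inter (isClosed_eq ?_ continuous_const))
  exact continuous_finsetSum _ fun v _ => continuous_apply v

theorem smp_comb {a b : Finset V} {y z : V → ℝ} {m : ℝ} (hy : y ∈ smp a) (hm : 0 ≤ m)
    (h0 : ∀ v, 0 ≤ z v) (hs : ∀ v, v ∉ b → z v = 0) (h1 : ∑ v ∈ b, z v = 1 - m) :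
    m • y + z ∈ smp (a ∪ b) := by
  refine ⟨fun v => ?_, fun v hv => ?_, ?_⟩
  · have := hy.1 v
    have := h0 v
    simp only [Pi.add_apply, Pi.smul_apply, smul_eq_mul]
    positivity
  · rw [Finset.mem_union, not_or] at hv
    simp [hy.2.1 v hv.1, hs v hv.2]
  · simp only [Pi.add_apply, Pi.smul_apply, smul_eq_mul, Finset.sum_add_distrib,
      ← Finset.mul_sum]
    rw [sum_supp hy.2.1 Finset.subset_union_left, sum_supp hs Finset.subset_union_right,
      hy.2.2, h1]
    ring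

theorem mem_pts {K : SC V} {F : Finset V} {x : V → ℝ} :
    x ∈ K.pts F ↔ ∃ a, a ⊆ F ∧ K.face a ∧ x ∈ smp a := by
  constructor
  · rintro ⟨h0, hs, h1, hf⟩
    have hz : ∀ v, v ∉ (F.filter fun v => x v ≠ 0) → x v = 0 := by
      intro v hv
      by_contra h
      by_cases hF : v ∈ F
      · exact hv (Finset.mem_filter.2 ⟨hF, h⟩)
      · exact h (hs v hF)
    exact ⟨_, Finset.filter_subset _ _, hf, h0, hz,
      (sum_supp hz (Finset.filter_subset _ _)).symm.trans h1⟩
  · rintro ⟨a, haF, hf, hx⟩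
    have hx' := smp_mono haF hx
    refine ⟨hx'.1, hx'.2.1, hx'.2.2, K.down (fun v hv => ?_) hf⟩
    by_contra h
    exact (Finset.mem_filter.1 hv).2 (hx.2.1 v h)

theorem pts_mono {K : SC V} {F F' : Finset V} (h : F ⊆ F') {x : V → ℝ} (hx : x ∈ K.pts F) :
    x ∈ K.pts F' := by
  obtain ⟨a, ha, hf, hx⟩ := mem_pts.1 hx
  exact mem_pts.2 ⟨a, ha.trans h, hf, hx⟩

theorem pts_sub {K L : SC V} {F : Finset V} (h : ∀ a, a ⊆ F → K.face a → L.face a) {x : V → ℝ}
    (hx : x ∈ K.pts F) : x ∈ L.pts F := by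
  obtain ⟨a, ha, hf, hx⟩ := mem_pts.1 hx
  exact mem_pts.2 ⟨a, ha, h a ha hf, hx⟩

theorem single_pts {K : SC V} {F : Finset V} {v : V} (hv : K.face {v}) (hF : v ∈ F) :
    (Pi.single v 1 : V → ℝ) ∈ K.pts F :=
  mem_pts.2 ⟨{v}, Finset.singleton_subset_iff.2 hF, hv, single_smp (Finset.mem_singleton_self v)⟩

theorem pts_filter {K : SC V} {F : Finset V} {x : V → ℝ} (hx : x ∈ K.pts F) :
    x ∈ K.pts (F.filter fun v => K.face {v}) := by
  obtain ⟨a, ha, hf, hx⟩ := mem_pts.1 hx
  exact mem_pts.2 ⟨a, fun v hv => Finset.mem_filter.2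
    ⟨ha hv, K.down (Finset.singleton_subset_iff.2 hv) hf⟩, hf, hx⟩

theorem pts_abs_le {K : SC V} {F : Finset V} {x : V → ℝ} (hx : x ∈ K.pts F) (v : V) :
    |x v| ≤ 1 := by
  obtain ⟨a, -, -, hx⟩ := mem_pts.1 hx
  rw [abs_of_nonneg (hx.1 v)]
  exact smp_le_one hx v

theorem of_single_pts {K : SC V} {F : Finset V} {v : V}
    (h : (Pi.single v 1 : V → ℝ) ∈ K.pts F) : K.face {v} ∧ v ∈ F := by
  obtain ⟨a, ha, hf, hx⟩ := mem_pts.1 h
  have : v ∈ a := by
    by_contra hv
    simpa using hx.2.1 v hv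
  exact ⟨K.down (Finset.singleton_subset_iff.2 this) hf, ha this⟩

/-- Homotopy inside a finite subcomplex. -/
def Hty (K : SC V) {X : Type} [TopologicalSpace X] (f g : X → V → ℝ) : Prop :=
  ∃ (F' : Finset V) (H : C(X × I, V → ℝ)),
    (∀ p, H p ∈ K.pts F') ∧ (∀ x, H (x, 0) = f x) ∧ ∀ x, H (x, 1) = g x

section
variable {X Y : Type} [TopologicalSpace X] [TopologicalSpace Y]

theorem Hty.mono {K L : SC V} {f g : X → V → ℝ} (h : K.Hty f g)
    (hKL : ∀ a, K.face a → L.face a) : L.Hty f g := by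
  obtain ⟨F', H, h1, h2, h3⟩ := h
  exact ⟨F', H, fun p => pts_sub (fun a _ => hKL a) (h1 p), h2, h3⟩

theorem Hty.comp {K : SC V} {f g : X → V → ℝ} (h : K.Hty f g) {φ : Y → X} (hφ : Continuous φ) :
    K.Hty (fun y => f (φ y)) (fun y => g (φ y)) := by
  obtain ⟨F', H, h1, h2, h3⟩ := h
  exact ⟨F', H.comp ⟨fun p => (φ p.1, p.2), by fun_prop⟩, fun p => h1 _, fun x => h2 _,
    fun x => h3 _⟩

theorem Hty.trans {K : SC V} {f g k : X → V → ℝ} (h : K.Hty f g) (h' : K.Hty g k) :
    K.Hty f k := by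
  obtain ⟨F1, H1, a1, a2, a3⟩ := h
  obtain ⟨F2, H2, b1, b2, b3⟩ := h'
  have hc : Continuous (Set.projIcc (0 : ℝ) 1 zero_le_one) := continuous_projIcc
  refine ⟨F1 ∪ F2, ⟨fun p => H1 (p.1, Set.projIcc 0 1 zero_le_one (2 * (p.2 : ℝ))) +
    H2 (p.1, Set.projIcc 0 1 zero_le_one (2 * (p.2 : ℝ) - 1)) - H1 (p.1, 1), by fun_prop⟩,
    fun p => ?_, fun x => ?_, fun x => ?_⟩
  · simp only [ContinuousMap.coe_mk]
    rcases le_total (p.2 : ℝ) (1 / 2) with hp | hp
    · rw [Set.projIcc_of_le_left _ (by linarith : 2 * (p.2 : ℝ) - 1 ≤ 0)]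
      have : H2 (p.1, ⟨0, Set.left_mem_Icc.2 zero_le_one⟩) = H1 (p.1, 1) := (b2 _).trans (a3 _).symm
      rw [this, add_sub_cancel_right]
      exact pts_mono Finset.subset_union_left (a1 _)
    · rw [Set.projIcc_of_right_le _ (by linarith : 1 ≤ 2 * (p.2 : ℝ))]
      have : H1 (p.1, ⟨1, Set.right_mem_Icc.2 zero_le_one⟩) = H1 (p.1, 1) := rfl
      rw [this, add_sub_cancel_left]
      exact pts_mono Finset.subset_union_right (b1 _)
  · simp only [ContinuousMap.coe_mk]
    rw [Set.projIcc_of_le_left _ (by simp : 2 * ((0 : I) : ℝ) - 1 ≤ 0),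
      Set.projIcc_of_le_left _ (by simp : 2 * ((0 : I) : ℝ) ≤ 0)]
    have : H2 (x, ⟨0, Set.left_mem_Icc.2 zero_le_one⟩) = H1 (x, 1) := (b2 _).trans (a3 _).symm
    rw [this, add_sub_cancel_right]
    exact a2 x
  · simp only [ContinuousMap.coe_mk]
    rw [Set.projIcc_of_right_le _ (by norm_num : 1 ≤ 2 * ((1 : I) : ℝ) - 1),
      Set.projIcc_of_right_le _ (by norm_num : 1 ≤ 2 * ((1 : I) : ℝ))]
    have : H1 (x, ⟨1, Set.right_mem_Icc.2 zero_le_one⟩) = H1 (x, 1) := rfl
    rw [this, add_sub_cancel_left]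
    exact b3 x

theorem hty_line {K : SC V} {f g : X → V → ℝ} (hf : Continuous f) (hg : Continuous g)
    (F' : Finset V) (h : ∀ x, ∃ a, a ⊆ F' ∧ K.face a ∧ f x ∈ smp a ∧ g x ∈ smp a) :
    K.Hty f g := by
  refine ⟨F', ⟨fun p => (1 - (p.2 : ℝ)) • f p.1 + (p.2 : ℝ) • g p.1, by fun_prop⟩,
    fun p => ?_, fun x => by simp, fun x => by simp⟩
  obtain ⟨a, ha, hfa, h1, h2⟩ := h p.1
  exact mem_pts.2 ⟨a, ha, hfa, convex_smp a h1 h2 (sub_nonneg.2 p.2.2.2) p.2.2.1 (by ring)⟩

theorem scaled {A : Set X} {m : X → ℝ} {Ψ : X → V → ℝ} (hm : Continuous m)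
    (hΨ : ContinuousOn Ψ (A ∩ {x | m x ≠ 0})) (hb : ∀ x v, |Ψ x v| ≤ 1) :
    ContinuousOn (fun x => m x • Ψ x) A := by
  intro x hx
  by_cases h0 : m x = 0
  · rw [continuousWithinAt_pi]
    intro v
    have h1 : Filter.Tendsto (fun z => |m z|) (nhdsWithin x A) (nhds 0) := by
      have := (hm.abs.tendsto x).mono_left (nhdsWithin_le_nhds (s := A))
      simpa [h0] using this
    have : Filter.Tendsto (fun z => (m z • Ψ z) v) (nhdsWithin x A) (nhds 0) := by
      refine squeeze_zero_norm (fun z => ?_) h1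
      simp only [Pi.smul_apply, smul_eq_mul, Real.norm_eq_abs, abs_mul]
      exact mul_le_of_le_one_right (abs_nonneg _) (hb z v)
    simpa [ContinuousWithinAt, h0] using this
  · have ho : {x | m x ≠ 0} ∈ nhds x := (isOpen_ne_fun hm continuous_const).mem_nhds h0
    have := (continuousWithinAt_inter ho).1 (hΨ x ⟨hx, h0⟩)
    exact hm.continuousWithinAt.smul this

theorem exists_norm {L : SC V} {G : Finset V} (x0 : L.pts G) (A : Set X) {m : X → ℝ}
    {w : X → V → ℝ} (hm : Continuous m) (hw : Continuous w)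
    (h : ∀ x ∈ A, m x ≠ 0 → (m x)⁻¹ • w x ∈ L.pts G) :
    ∃ n : X → L.pts G, ContinuousOn n (A ∩ {x | m x ≠ 0}) ∧
      ∀ x ∈ A, m x ≠ 0 → (n x).1 = (m x)⁻¹ • w x := by
  have key : ∀ x ∈ A, m x ≠ 0 → ((fun x => if hx : x ∈ A ∧ m x ≠ 0 then
      (⟨_, h x hx.1 hx.2⟩ : L.pts G) else x0) x).1 = (m x)⁻¹ • w x := by
    intro x hx h0
    simp only [dif_pos (⟨hx, h0⟩ : x ∈ A ∧ m x ≠ 0)]
  refine ⟨_, ?_, key⟩
  rw [Topology.IsInducing.subtypeVal.continuousOn_iff]
  refine ContinuousOn.congr (f := fun x => (m x)⁻¹ • w x) ?_ fun x hx => key x hx.1 hx.2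
  exact (hm.continuousOn.inv₀ fun x hx => hx.2).smul hw.continuousOn

end

theorem wc_of_hty {K : SC V} (hne : ∃ v, K.face {v})
    (h : ∀ F : Finset V, ∃ v, K.Hty (fun x : K.pts F => x.1) (fun _ => Pi.single v 1)) : K.WC := by
  refine ⟨hne, fun F => ?_⟩
  obtain ⟨v, F', H, h1, h2, h3⟩ := h F
  exact ⟨F', v, H, h1, h2, h3⟩

theorem WC.strong {K : SC V} (h : K.WC) (F : Finset V) :
    ∃ (F' : Finset V) (v : V) (H : C(K.pts F × I, V → ℝ)), K.face {v} ∧ v ∈ F' ∧ F ⊆ F' ∧
      (∀ p, H p ∈ K.pts F') ∧ (∀ x, H (x, 0) = x.1) ∧ ∀ x, H (x, 1) = Pi.single v 1 := by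
  obtain ⟨⟨v0, hv0⟩, h⟩ := h
  obtain ⟨F', v, H, h1, h2, h3⟩ := h (insert v0 F)
  have hv := of_single_pts ((h3 ⟨_, single_pts hv0 (Finset.mem_insert_self _ _)⟩) ▸ h1 _)
  refine ⟨F' ∪ F, v, H.comp ⟨fun p => (⟨p.1.1, pts_mono (Finset.subset_insert _ _) p.1.2⟩, p.2),
    by fun_prop⟩, hv.1, Finset.mem_union_left _ hv.2, Finset.subset_union_right,
    fun p => pts_mono Finset.subset_union_left (h1 _), fun x => h2 _, fun x => h3 _⟩

theorem WC.hty {K : SC V} (h : K.WC) (F : Finset V) :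
    ∃ v, K.Hty (fun x : K.pts F => x.1) (fun _ => Pi.single v 1) := by
  obtain ⟨F', v, H, h1, h2, h3⟩ := h.2 F
  exact ⟨v, F', H, h1, h2, h3⟩

/-- Push forward of weights along a vertex map. -/
noncomputable def push (f : V → V') (F : Finset V) : (V → ℝ) →ₗ[ℝ] (V' → ℝ) :=
  ∑ v ∈ F, (LinearMap.proj v : (V → ℝ) →ₗ[ℝ] ℝ).smulRight (Pi.single (f v) (1 : ℝ) : V' → ℝ)

theorem push_apply (f : V → V') (F : Finset V) (x : V → ℝ) :
    push f F x = ∑ v ∈ F, x v • (Pi.single (f v) (1 : ℝ) : V' → ℝ) := by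
  simp [push, LinearMap.sum_apply]

theorem continuous_push (f : V → V') (F : Finset V) : Continuous (push f F) := by
  have : (push f F : (V → ℝ) → V' → ℝ) =
      fun x => ∑ v ∈ F, x v • (Pi.single (f v) (1 : ℝ) : V' → ℝ) := funext (push_apply f F)
  rw [this]
  exact continuous_finsetSum _ fun v _ => (continuous_apply v).smul continuous_const

theorem push_single (f : V → V') {F : Finset V} {v : V} (hv : v ∈ F) :
    push f F (Pi.single v 1) = Pi.single (f v) 1 := by
  rw [push_apply, Finset.sum_eq_single v]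
  · simp
  · intro u _ hu; simp [hu]
  · intro h; exact absurd hv h

theorem push_pts {K : SC V} {L : SC V'} {f : V → V'} (h1 : ∀ a, K.face a → L.face (a.image f))
    {F : Finset V} {x : V → ℝ} (hx : x ∈ K.pts F) : push f F x ∈ L.pts (F.image f) := by
  obtain ⟨a, ha, hf, hx⟩ := mem_pts.1 hx
  refine mem_pts.2 ⟨a.image f, Finset.image_subset_image ha, h1 a hf, ?_⟩
  rw [push_apply, ← Finset.sum_subset ha (fun v _ hv => by rw [hx.2.1 v hv, zero_smul])]
  exact (convex_smp _).sum_mem (fun v _ => hx.1 v) hx.2.2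
    fun v hv => single_smp (Finset.mem_image_of_mem f hv)

theorem wc_of_retract {K : SC V} {L : SC V'} (f : V → V') (g : V' → V)
    (h1 : ∀ a, K.face a → L.face (a.image f)) (h2 : ∀ b, L.face b → K.face (b.image g))
    (hgf : ∀ v, K.face {v} → g (f v) = v) (hL : L.WC) : K.WC := by
  refine ⟨?_, fun F => ?_⟩
  · obtain ⟨w, hw⟩ := hL.1
    exact ⟨g w, by simpa using h2 _ hw⟩
  obtain ⟨F', w, H, -, hw, hF, a1, a2, a3⟩ := hL.strong (F.image f)
  have c1 := continuous_push f F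
  have c2 := continuous_push g F'
  refine ⟨F'.image g, g w, ⟨fun p => push g F' (H (⟨push f F p.1.1, push_pts h1 p.1.2⟩, p.2)),
    by fun_prop⟩, fun p => push_pts h2 (a1 _), fun x => ?_, fun x => ?_⟩
  · simp only [ContinuousMap.coe_mk]
    rw [a2]
    show push g F' (push f F x.1) = x.1
    rw [push_apply f, map_sum]
    obtain ⟨a, ha, hf, hx⟩ := mem_pts.1 x.2
    have e : ∀ v ∈ F, push g F' (x.1 v • (Pi.single (f v) (1 : ℝ) : V' → ℝ)) =
        x.1 v • (Pi.single v (1 : ℝ) : V → ℝ) := by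
      intro v hv
      by_cases hva : v ∈ a
      · rw [map_smul, push_single g (hF (Finset.mem_image_of_mem f hv)),
          hgf v (K.down (Finset.singleton_subset_iff.2 hva) hf)]
      · rw [hx.2.1 v hva]; simp
    rw [Finset.sum_congr rfl e]
    funext u
    rw [Finset.sum_apply, Finset.sum_eq_single u]
    · simp
    · intro v _ hv; simp [hv.symm]
    · intro hu; simp [x.2.2.1 u hu]
  · simp only [ContinuousMap.coe_mk]
    rw [a3, push_single g hw]

/-- Cones are contractible. -/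
theorem wc_cone (K : SC V) (a : V) (ha : K.face {a}) (h : ∀ b, K.face b → K.face (insert a b)) :
    K.WC := by
  refine wc_of_hty ⟨a, ha⟩ fun F => ⟨a, hty_line continuous_subtype_val continuous_const
    (insert a F) fun x => ?_⟩
  obtain ⟨b, hb, hf, hx⟩ := mem_pts.1 x.2
  exact ⟨insert a b, Finset.insert_subset_insert a hb, h b hf,
    smp_mono (Finset.subset_insert _ _) hx, single_smp (Finset.mem_insert_self _ _)⟩

/-- Transport along an injective simplicial map which is onto on faces. -/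
theorem wc_iff_of_map (K : SC V) (L : SC V') (f : V → V')
    (hinj : ∀ u v, K.face {u} → K.face {v} → f u = f v → u = v)
    (h1 : ∀ a, K.face a → L.face (a.image f))
    (h2 : ∀ b, L.face b → ∃ a, K.face a ∧ b = a.image f) : K.WC ↔ L.WC := by
  have hL : ∀ w, L.face {w} → ∃ v, K.face {v} ∧ f v = w := by
    intro w hw
    obtain ⟨a, ha, e⟩ := h2 _ hw
    have : w ∈ a.image f := e ▸ Finset.mem_singleton_self w
    obtain ⟨v, hv, e'⟩ := Finset.mem_image.1 this
    exact ⟨v, K.down (Finset.singleton_subset_iff.2 hv) ha, e'⟩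
  by_cases hV : Nonempty V
  swap
  · constructor
    · rintro ⟨⟨v, -⟩, -⟩; exact absurd ⟨v⟩ hV
    · rintro ⟨⟨w, hw⟩, -⟩
      obtain ⟨v, -⟩ := hL w hw
      exact absurd ⟨v⟩ hV
  obtain ⟨v0⟩ := hV
  let g : V' → V := fun w => if h : ∃ v, K.face {v} ∧ f v = w then h.choose else v0
  have hfg : ∀ w, L.face {w} → f (g w) = w := by
    intro w hw
    simp only [g, dif_pos (hL w hw)]
    exact (hL w hw).choose_spec.2
  have hgf : ∀ v, K.face {v} → g (f v) = v := by
    intro v hv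
    have hex : ∃ u, K.face {u} ∧ f u = f v := ⟨v, hv, rfl⟩
    simp only [g, dif_pos hex]
    exact hinj _ _ hex.choose_spec.1 hv hex.choose_spec.2
  have hg : ∀ b, L.face b → K.face (b.image g) := by
    intro b hb
    obtain ⟨a, ha, rfl⟩ := h2 b hb
    refine K.down (fun v hv => ?_) ha
    rw [Finset.image_image] at hv
    obtain ⟨u, hu, rfl⟩ := Finset.mem_image.1 hv
    show g (f u) ∈ a
    rwa [hgf u (K.down (Finset.singleton_subset_iff.2 hu) ha)]
  exact ⟨wc_of_retract g f hg h1 hfg, wc_of_retract f g h1 hg hgf⟩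

/-- Directed unions. -/
theorem wc_of_local (K : SC V) (hne : ∃ v, K.face {v})
    (h : ∀ F : Finset V, ∃ L : SC V, L.WC ∧ (∀ a, L.face a → K.face a) ∧
      ∀ a, a ⊆ F → K.face a → L.face a) : K.WC := by
  refine wc_of_hty hne fun F => ?_
  obtain ⟨L, hL, h1, h2⟩ := h F
  obtain ⟨v, hv⟩ := hL.hty F
  exact ⟨v, (hv.comp (φ := fun x : K.pts F => (⟨x.1, pts_sub h2 x.2⟩ : L.pts F))
    (by fun_prop)).mono h1⟩

theorem WC.conn {K : SC V} (h : K.WC) {u v : V} (hu : K.face {u}) (hv : K.face {v}) :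
    K.Conn u v := by
  obtain ⟨F', w, H, -, -, hF, a1, a2, a3⟩ := h.strong {u, v}
  let m : (V → ℝ) → ℝ := fun x => ∑ z ∈ F'.filter (K.Conn u), x z
  have hm : Continuous m := continuous_finsetSum _ fun z _ => continuous_apply z
  have h01 : ∀ x ∈ K.pts F', m x = 0 ∨ m x = 1 := by
    intro x hx
    obtain ⟨a, ha, hf, hx⟩ := mem_pts.1 hx
    by_cases hc : ∃ z ∈ a, K.Conn u z
    · right
      obtain ⟨z, hz, hc⟩ := hc
      rw [← hx.2.2]
      refine sum_supp hx.2.1 fun y hy => Finset.mem_filter.2 ⟨ha hy, hc.tail ?_⟩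
      exact K.down (Finset.insert_subset hz (Finset.singleton_subset_iff.2 hy)) hf
    · left
      refine Finset.sum_eq_zero fun z hz => hx.2.1 z fun hza => hc ⟨z, hza, ?_⟩
      exact (Finset.mem_filter.1 hz).2
  have hcst : ∀ x : K.pts {u, v}, m x.1 = m (Pi.single w 1) := by
    intro x
    have hc : Continuous fun t : I => m (H (x, t)) := by fun_prop
    have i1 := intermediate_value_univ (0 : I) 1 hc
    have i2 := intermediate_value_univ (1 : I) 0 hc
    have n : (1 / 2 : ℝ) ∉ Set.range fun t : I => m (H (x, t)) := by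
      rintro ⟨t, ht⟩
      rcases h01 _ (a1 (x, t)) with e | e <;> simp only [e] at ht <;> norm_num at ht
    rw [← a2 x, ← a3 x]
    rcases h01 _ (a1 (x, 0)) with e | e <;> rcases h01 _ (a1 (x, 1)) with e' | e'
    · rw [e, e']
    · exact absurd (i1 (by rw [e, e']; norm_num)) n
    · exact absurd (i2 (by rw [e, e']; norm_num)) n
    · rw [e, e']
  have e1 := hcst ⟨_, single_pts hu (by simp)⟩
  have e2 := hcst ⟨_, single_pts hv (by simp)⟩
  have e3 : m (Pi.single u 1) = 1 := by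
    have : u ∈ F'.filter (K.Conn u) :=
      Finset.mem_filter.2 ⟨hF (by simp), Relation.ReflTransGen.refl⟩
    simp only [m, Finset.sum_pi_single', if_pos this]
  by_contra hn
  have e4 : m (Pi.single v 1) = 0 := by
    have : v ∉ F'.filter (K.Conn u) := fun h => hn (Finset.mem_filter.1 h).2
    simp only [m, Finset.sum_pi_single', if_neg this]
  simp only at e1 e2
  linarith

/-- The join of a contractible complex with any complex is contractible. -/
theorem wc_join (K : SC V) (P : Set V) (hP : (K.full P).WC)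
    (h : ∀ a b, K.face a → (∀ v ∈ a, v ∈ P) → K.face b → (∀ v ∈ b, v ∉ P) → K.face (a ∪ b)) :
    K.WC := by
  obtain ⟨v0, hv0⟩ := hP.1
  refine wc_of_hty ⟨v0, hv0.1⟩ fun F => ?_
  obtain ⟨F', v, H, hv, hvF, -, a1, a2, a3⟩ := hP.strong (insert v0 F)
  let m : K.pts F → ℝ := fun x => ∑ z ∈ F.filter (· ∈ P), x.1 z
  let w : K.pts F → V → ℝ := fun x z => if z ∈ P then x.1 z else 0
  let w' : K.pts F → V → ℝ := fun x z => if z ∈ P then 0 else x.1 z
  have hap : ∀ z, Continuous fun x : K.pts F => x.1 z :=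
    fun z => (continuous_apply z).comp continuous_subtype_val
  have hm : Continuous m := continuous_finsetSum _ fun z _ => hap z
  have hw : Continuous w := continuous_pi fun z => by
    by_cases hz : z ∈ P
    · simpa only [w, if_pos hz] using hap z
    · simpa only [w, if_neg hz] using continuous_const
  have hw' : Continuous w' := continuous_pi fun z => by
    by_cases hz : z ∈ P
    · simpa only [w', if_pos hz] using continuous_const
    · simpa only [w', if_neg hz] using hap z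
  have hm0 : ∀ x, 0 ≤ m x := fun x => Finset.sum_nonneg fun z _ => x.2.1 z
  have hww : ∀ x, w x + w' x = x.1 := by
    intro x; funext z
    by_cases hz : z ∈ P <;> simp [w, w', hz]
  have hma : ∀ (x : K.pts F) (a : Finset V), a ⊆ F → x.1 ∈ smp a →
      m x = ∑ z ∈ a.filter (· ∈ P), x.1 z := by
    intro x a ha hx
    refine (Finset.sum_subset (Finset.filter_subset_filter _ ha) fun z hz hza => hx.2.1 z ?_).symm
    exact fun h => hza (Finset.mem_filter.2 ⟨h, (Finset.mem_filter.1 hz).2⟩)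
  have hn : ∀ x ∈ (Set.univ : Set (K.pts F)), m x ≠ 0 →
      (m x)⁻¹ • w x ∈ (K.full P).pts (insert v0 F) := by
    intro x _ h0
    obtain ⟨a, ha, hf, hx⟩ := mem_pts.1 x.2
    refine mem_pts.2 ⟨a.filter (· ∈ P), ((Finset.filter_subset _ _).trans ha).trans
      (Finset.subset_insert _ _), ⟨K.down (Finset.filter_subset _ _) hf,
        fun z hz => (Finset.mem_filter.1 hz).2⟩, fun z => ?_, fun z hz => ?_, ?_⟩
    · have := hm0 x
      have := hx.1 z
      simp only [w, Pi.smul_apply, smul_eq_mul]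
      split_ifs <;> positivity
    · simp only [w, Pi.smul_apply, smul_eq_mul]
      split_ifs with hP
      · rw [hx.2.1 z fun h => hz (Finset.mem_filter.2 ⟨h, hP⟩), mul_zero]
      · simp
    · simp only [w, Pi.smul_apply, smul_eq_mul, ← Finset.mul_sum]
      rw [Finset.sum_congr rfl (g := fun z => x.1 z)
        fun z hz => if_pos (Finset.mem_filter.1 hz).2, ← hma x a ha hx, inv_mul_cancel₀ h0]
  obtain ⟨n, hnc, hne⟩ := exists_norm ⟨_, single_pts hv0 (Finset.mem_insert_self _ _)⟩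
    Set.univ hm hw hn
  have hG : Continuous fun p : K.pts F × I => m p.1 • H (n p.1, p.2) := by
    rw [← continuousOn_univ]
    refine scaled (m := fun p : K.pts F × I => m p.1) (hm.comp continuous_fst) ?_
      fun p z => pts_abs_le (a1 _) z
    refine H.continuous.comp_continuousOn (ContinuousOn.prodMk ?_ continuous_snd.continuousOn)
    exact hnc.comp continuous_fst.continuousOn fun p hp => ⟨trivial, hp.2⟩
  have hcomb : ∀ (x : K.pts F) (a' : Finset V) (y : V → ℝ), (K.full P).face a' → y ∈ smp a' →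
      ∃ b, b ⊆ F ∧ K.face (a' ∪ b) ∧ m x • y + w' x ∈ smp (a' ∪ b) := by
    intro x a' y ha' hy
    obtain ⟨a, ha, hf, hx⟩ := mem_pts.1 x.2
    refine ⟨a.filter (· ∉ P), (Finset.filter_subset _ _).trans ha, h _ _ ha'.1 ha'.2
      (K.down (Finset.filter_subset _ _) hf) fun z hz => (Finset.mem_filter.1 hz).2,
      smp_comb hy (hm0 x) (fun z => ?_) (fun z hz => ?_) ?_⟩
    · have := hx.1 z
      simp only [w']
      split_ifs <;> positivity
    · simp only [w']
      split_ifs with hP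
      · rfl
      · exact hx.2.1 z fun h => hz (Finset.mem_filter.2 ⟨h, hP⟩)
    · simp only [w']
      rw [Finset.sum_congr rfl (g := fun z => x.1 z)
        fun z hz => if_neg (Finset.mem_filter.1 hz).2, hma x a ha hx, ← hx.2.2,
        ← Finset.sum_filter_add_sum_filter_not a (· ∈ P)]
      ring
  refine ⟨v, Hty.trans (g := fun x => m x • (Pi.single v 1 : V → ℝ) + w' x)
    ⟨F' ∪ F, ⟨fun p => m p.1 • H (n p.1, p.2) + w' p.1, hG.add (hw'.comp continuous_fst)⟩,
      fun p => ?_, fun x => ?_, fun x => ?_⟩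
    (hty_line ((hm.smul continuous_const).add hw') continuous_const ({v} ∪ F) fun x => ?_)⟩
  · obtain ⟨a', h1, h2, h3⟩ := mem_pts.1 (a1 (n p.1, p.2))
    obtain ⟨b, h4, h5, h6⟩ := hcomb p.1 a' _ h2 h3
    exact mem_pts.2 ⟨_, Finset.union_subset_union h1 h4, h5, h6⟩
  · simp only [ContinuousMap.coe_mk]
    rw [a2, ← hww x]
    congr 1
    by_cases h0 : m x = 0
    · rw [h0, zero_smul]
      funext z
      simp only [w, Pi.zero_apply]
      split_ifs with hP
      · by_cases hz : z ∈ F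
        · exact ((Finset.sum_eq_zero_iff_of_nonneg fun z _ => x.2.1 z).1 h0 z
            (Finset.mem_filter.2 ⟨hz, hP⟩)).symm
        · exact (x.2.2.1 z hz).symm
      · rfl
    · rw [hne x trivial h0, smul_smul, mul_inv_cancel₀ h0, one_smul]
  · simp only [ContinuousMap.coe_mk]
    rw [a3]
  · obtain ⟨b, h4, h5, h6⟩ := hcomb x {v} _ hv (single_smp (Finset.mem_singleton_self v))
    exact ⟨_, Finset.union_subset_union subset_rfl h4, h5, h6, single_smp (by simp)⟩

end Vale.Agent.P203.SC
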