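import Vale.Agent.P203.SCa

/-! Part SCb: the Morse lemma. -/

namespace Vale.Agent.P203.SC
open Classical unitInterval

variable {V : Type} {κ : Type} [LinearOrder κ]

/-- Pushing the open star of `y` out along a contraction of (a part of) its link. -/
theorem pushout (K L : SC V) (y : V) (F : Finset V) (hL : L.WC)
    (hLK : ∀ a, L.face a → y ∉ a ∧ K.face (insert y a))
    (hF : ∀ a, a ⊆ F → y ∈ a → K.face a → L.face (a.erase y)) :
    ∃ (G : Finset V) (r : K.pts F → V → ℝ), (∀ v ∈ G, L.face {v}) ∧ Continuous r ∧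
      (∀ x, r x ∈ K.pts (F.erase y ∪ G)) ∧ (∀ x, x.1 y = 0 → r x = x.1) ∧
      K.Hty (fun x : K.pts F => x.1) r := by
  obtain ⟨v0, hv0⟩ := hL.1
  obtain ⟨F', v, H, hv, hvF, -, a1, a2, a3⟩ := hL.strong (insert v0 (F.erase y))
  let G : Finset V := F'.filter fun u => L.face {u}
  have hap : ∀ z, Continuous fun x : K.pts F => x.1 z :=
    fun z => (continuous_apply z).comp continuous_subtype_val
  have hs0 : ∀ x : K.pts F, 0 ≤ x.1 y := fun x => x.2.1 y
  have hs1 : ∀ x : K.pts F, x.1 y ≤ 1 := fun x => (le_abs_self _).trans (pts_abs_le x.2 y)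
  let A : Set (K.pts F) := {x | ∃ a, a ⊆ F ∧ y ∈ a ∧ K.face a ∧ x.1 ∈ smp a}
  have hA : IsClosed A := by
    have : A = ⋃ a ∈ F.powerset.filter (fun a => y ∈ a ∧ K.face a), Subtype.val ⁻¹' smp a := by
      ext x; simp [A, and_assoc]
    rw [this]
    exact isClosed_biUnion_finset fun a _ => (isClosed_smp a).preimage continuous_subtype_val
  have hAm : ∀ x : K.pts F, x.1 y ≠ 0 → x ∈ A := by
    intro x h0
    obtain ⟨a, ha, hf, hx⟩ := mem_pts.1 x.2
    exact ⟨a, ha, by by_contra h; exact h0 (hx.2.1 y h), hf, hx⟩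
  let m : K.pts F → ℝ := fun x => 1 - x.1 y
  let w : K.pts F → V → ℝ := fun x => x.1 - x.1 y • (Pi.single y 1 : V → ℝ)
  have hm : Continuous m := continuous_const.sub (hap y)
  have hw : Continuous w := continuous_subtype_val.sub ((hap y).smul continuous_const)
  have hm0 : ∀ x, 0 ≤ m x := fun x => sub_nonneg.2 (hs1 x)
  have hwy : ∀ x, w x y = 0 := fun x => by simp [w]
  have hwz : ∀ x z, z ≠ y → w x z = x.1 z := fun x z hz => by simp [w, hz]
  have hsum : ∀ (x : K.pts F) (a : Finset V), y ∈ a → x.1 ∈ smp a →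
      ∑ z ∈ a.erase y, x.1 z = m x := by
    intro x a hy hx
    have := Finset.add_sum_erase a (fun z => x.1 z) hy
    rw [hx.2.2] at this
    simp only [m]
    linarith
  have hn : ∀ x ∈ A, m x ≠ 0 → (m x)⁻¹ • w x ∈ L.pts (insert v0 (F.erase y)) := by
    rintro x ⟨a, ha, hy, hf, hx⟩ h0
    refine mem_pts.2 ⟨a.erase y, (Finset.erase_subset_erase y ha).trans (Finset.subset_insert _ _),
      hF a ha hy hf, fun z => ?_, fun z hz => ?_, ?_⟩
    · have := hm0 x
      have := hx.1 z
      simp only [Pi.smul_apply, smul_eq_mul]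
      by_cases hz : z = y
      · rw [hz, hwy]; simp
      · rw [hwz x z hz]; positivity
    · simp only [Pi.smul_apply, smul_eq_mul]
      by_cases hzy : z = y
      · rw [hzy, hwy]; simp
      · rw [hwz x z hzy, hx.2.1 z fun h => hz (Finset.mem_erase.2 ⟨hzy, h⟩), mul_zero]
    · simp only [Pi.smul_apply, smul_eq_mul, ← Finset.mul_sum]
      rw [Finset.sum_congr rfl (g := fun z => x.1 z)
        fun z hz => hwz x z (Finset.mem_erase.1 hz).1, hsum x a hy hx, inv_mul_cancel₀ h0]
  obtain ⟨n, hnc, hne⟩ := exists_norm ⟨_, single_pts hv0 (Finset.mem_insert_self _ _)⟩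
    A hm hw hn
  have hnw : ∀ x ∈ A, m x • (n x).1 = w x := by
    intro x hx
    by_cases h0 : m x = 0
    · obtain ⟨a, ha, hy, hf, hx⟩ := hx
      rw [h0, zero_smul]
      funext z
      by_cases hzy : z = y
      · rw [hzy, hwy]; rfl
      · rw [hwz x z hzy]
        by_cases hz : z ∈ a
        · exact ((Finset.sum_eq_zero_iff_of_nonneg fun z _ => hx.1 z).1
            ((hsum x a hy hx).trans h0) z (Finset.mem_erase.2 ⟨hzy, hz⟩)).symm
        · exact (hx.2.1 z hz).symm
    · rw [hne x hx h0, smul_smul, mul_inv_cancel₀ h0, one_smul]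
  have hc : Continuous (Set.projIcc (0 : ℝ) 1 zero_le_one) := continuous_projIcc
  let τ : K.pts F × I → I := fun p => p.2 * Set.projIcc 0 1 zero_le_one (2 * p.1.1 y)
  have hτ : Continuous τ := by
    have := hap y
    refine Continuous.subtype_mk (f := fun p : K.pts F × I => (p.2 : ℝ) *
      (Set.projIcc 0 1 zero_le_one (2 * p.1.1 y) : ℝ))
      ((continuous_subtype_val.comp continuous_snd).mul (continuous_subtype_val.comp
        (hc.comp (continuous_const.mul (this.comp continuous_fst))))) _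
  let W : K.pts F × I → V → ℝ := fun p =>
    if p.1.1 y = 0 then p.1.1 else m p.1 • H (n p.1, τ p)
  have hWA : ∀ p : K.pts F × I, p.1 ∈ A → W p = m p.1 • H (n p.1, τ p) := by
    intro p hp
    simp only [W]
    split_ifs with h0
    · have : τ p = 0 := by
        simp only [τ]
        rw [h0, mul_zero, Set.projIcc_left]
        exact mul_zero _
      rw [this, a2, hnw _ hp]
      simp [w, h0]
    · rfl
  have hW : Continuous W := by
    rw [← continuousOn_univ]
    have hu : (Set.univ : Set (K.pts F × I)) = Prod.fst ⁻¹' A ∪ {p | p.1.1 y = 0} := by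
      ext p
      simp only [Set.mem_univ, Set.mem_union, Set.mem_preimage, Set.mem_ofPred_eq, true_iff]
      by_cases h0 : p.1.1 y = 0
      · exact Or.inr h0
      · exact Or.inl (hAm _ h0)
    rw [hu]
    refine ContinuousOn.union_of_isClosed ?_ ?_ (hA.preimage continuous_fst)
      (isClosed_eq ((hap y).comp continuous_fst) continuous_const)
    · refine ContinuousOn.congr (f := fun p => m p.1 • H (n p.1, τ p)) ?_ fun p hp => hWA p hp
      refine scaled (m := fun p : K.pts F × I => m p.1) (hm.comp continuous_fst) ?_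
        fun p z => pts_abs_le (a1 _) z
      refine H.continuous.comp_continuousOn (ContinuousOn.prodMk ?_ hτ.continuousOn)
      exact hnc.comp continuous_fst.continuousOn fun p hp => ⟨hp.1, hp.2⟩
    · refine ContinuousOn.congr (f := fun p => p.1.1)
        (continuous_subtype_val.comp continuous_fst).continuousOn fun p hp => ?_
      exact if_pos hp
  let c : K.pts F → ℝ := fun x => max (m x) (1 / 2)
  have hcp : ∀ x, c x ≠ 0 := fun x => (lt_of_lt_of_le (by norm_num) (le_max_right _ _)).ne'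
  have hcc : Continuous c := hm.max continuous_const
  let r : K.pts F → V → ℝ := fun x =>
    (c x)⁻¹ • W (x, 1) + (1 - m x * (c x)⁻¹) • (Pi.single v 1 : V → ℝ)
  have hr : Continuous r :=
    ((hcc.inv₀ hcp).smul (hW.comp (by fun_prop))).add
      ((continuous_const.sub (hm.mul (hcc.inv₀ hcp))).smul continuous_const)
  have hr0 : ∀ x, x.1 y = 0 → r x = x.1 := by
    intro x h0
    have e1 : m x = 1 := by simp [m, h0]
    have e2 : c x = 1 := by simp only [c, e1]; norm_num
    simp [r, W, e1, e2, h0]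
  have hr1 : ∀ x, x.1 y ≠ 0 → r x = H (n x, τ (x, 1)) := by
    intro x h0
    simp only [r, W, if_neg h0]
    rcases le_total (m x) (1 / 2) with h | h
    · have : τ (x, 1) = 1 := by
        simp only [τ]
        rw [one_mul, Set.projIcc_of_right_le _ (by simp only [m] at h; linarith)]
        rfl
      rw [this, a3, smul_smul, ← add_smul, mul_comm (m x)]
      simp
    · have e : c x = m x := max_eq_left h
      have h' : m x ≠ 0 := e ▸ hcp x
      rw [e, smul_smul, inv_mul_cancel₀ h', mul_inv_cancel₀ h']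
      simp
  have hcomb : ∀ (x : K.pts F) (q : L.pts (insert v0 (F.erase y)) × I), ∃ a', a' ⊆ G ∧ L.face a' ∧
      H q ∈ smp a' ∧ m x • H q + x.1 y • (Pi.single y 1 : V → ℝ) ∈ smp (insert y a') := by
    intro x q
    obtain ⟨a', h1, h2, h3⟩ := mem_pts.1 (pts_filter (a1 q))
    exact ⟨a', h1, h2, h3, convex_smp _ (smp_mono (Finset.subset_insert _ _) h3)
      (single_smp (Finset.mem_insert_self _ _)) (hm0 x) (hs0 x) (by simp [m])⟩
  refine ⟨G, r, fun u hu => (Finset.mem_filter.1 hu).2, hr, fun x => ?_, hr0,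
    Hty.trans (g := fun x => W (x, 1) + x.1 y • (Pi.single y 1 : V → ℝ))
      ⟨insert y (F ∪ G), ⟨fun p => W p + p.1.1 y • (Pi.single y 1 : V → ℝ),
        hW.add (((hap y).comp continuous_fst).smul continuous_const)⟩,
        fun p => ?_, fun x => ?_, fun x => rfl⟩
      (hty_line ((hW.comp (by fun_prop)).add ((hap y).smul continuous_const)) hr
        (insert y (F ∪ G)) fun x => ?_)⟩
  · by_cases h0 : x.1 y = 0
    · rw [hr0 x h0]
      obtain ⟨a, ha, hf, hx⟩ := mem_pts.1 x.2
      refine mem_pts.2 ⟨a.erase y, (Finset.erase_subset_erase y ha).trans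
        Finset.subset_union_left, K.down (Finset.erase_subset _ _) hf, hx.1, fun z hz => ?_, ?_⟩
      · by_cases hzy : z = y
        · rw [hzy, h0]
        · exact hx.2.1 z fun h => hz (Finset.mem_erase.2 ⟨hzy, h⟩)
      · rw [Finset.sum_erase _ h0, hx.2.2]
    · rw [hr1 x h0]
      obtain ⟨a', h1, h2, h3, -⟩ := hcomb x (n x, τ (x, 1))
      exact mem_pts.2 ⟨a', h1.trans Finset.subset_union_right,
        K.down (Finset.subset_insert _ _) (hLK a' h2).2, h3⟩
  · simp only [ContinuousMap.coe_mk, W]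
    split_ifs with h0
    · rw [h0, zero_smul, add_zero]
      exact pts_mono (Finset.subset_union_left.trans (Finset.subset_insert _ _)) p.1.2
    · obtain ⟨a', h1, h2, -, h4⟩ := hcomb p.1 (n p.1, τ p)
      exact mem_pts.2 ⟨_, Finset.insert_subset_insert _ (h1.trans Finset.subset_union_right),
        (hLK a' h2).2, h4⟩
  · simp only [ContinuousMap.coe_mk, W]
    split_ifs with h0
    · rw [h0, zero_smul, add_zero]
    · have : τ (x, 0) = 0 := zero_mul _
      rw [this, a2, hnw x (hAm x h0)]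
      simp [w]
  · by_cases h0 : x.1 y = 0
    · obtain ⟨a, ha, hf, hx⟩ := mem_pts.1 x.2
      refine ⟨a, (ha.trans Finset.subset_union_left).trans (Finset.subset_insert _ _), hf, ?_, ?_⟩
      · simpa [W, h0] using hx
      · rwa [hr0 x h0]
    · obtain ⟨a', h1, h2, h3, h4⟩ := hcomb x (n x, τ (x, 1))
      refine ⟨_, Finset.insert_subset_insert _ (h1.trans Finset.subset_union_right),
        (hLK a' h2).2, ?_, ?_⟩
      · simpa only [W, if_neg h0] using h4
      · rw [hr1 x h0]
        exact smp_mono (Finset.subset_insert _ _) h3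

/-- Finite subcomplexes of the big complex deform into the small complex. -/
theorem deform (K : SC V) (P P' : Set V) (hPP : P ⊆ P') (key : V → κ)
    (hwf : (P' \ P).WellFoundedOn fun a b => key a < key b)
    (hadj : ∀ a ∈ P' \ P, ∀ b ∈ P' \ P, a ≠ b → K.face {a, b} → key a ≠ key b)
    (hlk : ∀ y ∈ P' \ P, K.face {y} →
      ((K.link y).full (P ∪ {b | b ∈ P' ∧ key b < key y})).WC) (F : Finset V) :
    ∃ (F'' : Finset V) (r : (K.full P').pts F → V → ℝ), Continuous r ∧
      (∀ x, r x ∈ (K.full P).pts F'') ∧ (∀ x, (∀ v, v ∉ P → x.1 v = 0) → r x = x.1) ∧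
      (K.full P').Hty (fun x : (K.full P').pts F => x.1) r := by
  have hwf' := (Set.wellFoundedOn_iff.1 hwf).cutExpand
  suffices h : ∀ s : Multiset V, ∀ F : Finset V, (∀ v ∈ F, v ∈ P' \ P → K.face {v} → v ∈ s) →
      ∃ (F'' : Finset V) (r : (K.full P').pts F → V → ℝ), Continuous r ∧
      (∀ x, r x ∈ (K.full P).pts F'') ∧ (∀ x, (∀ v, v ∉ P → x.1 v = 0) → r x = x.1) ∧
      (K.full P').Hty (fun x : (K.full P').pts F => x.1) r from h F.1 F fun v hv _ _ => hv
  intro s
  induction s using hwf'.induction with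
  | _ s ih =>
  intro F hs
  let N : Finset V := F.filter fun v => v ∈ P' \ P ∧ K.face {v}
  rcases N.eq_empty_or_nonempty with hN | hN
  · refine ⟨F, fun x => x.1, continuous_subtype_val, fun x => pts_sub (K := K.full P')
      (fun a ha hf => ?_) x.2, fun _ _ => rfl,
      hty_line continuous_subtype_val continuous_subtype_val F fun x => ?_⟩
    · refine ⟨hf.1, fun v hv => ?_⟩
      by_contra hP
      have : v ∈ N := Finset.mem_filter.2 ⟨ha hv, ⟨hf.2 v hv, hP⟩,
        K.down (Finset.singleton_subset_iff.2 hv) hf.1⟩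
      rw [hN] at this
      exact absurd this (Finset.notMem_empty _)
    · obtain ⟨a, ha, hf, hx⟩ := mem_pts.1 x.2
      exact ⟨a, ha, hf, hx, hx⟩
  obtain ⟨y, hy, hmax⟩ := Finset.exists_max_image N key hN
  obtain ⟨hyF, hyP, hyf⟩ := Finset.mem_filter.1 hy
  obtain ⟨G, r1, hG, c1, m1, f1, h1⟩ := pushout (K.full P') _ y F (hlk y hyP hyf)
    (fun a ha => ⟨ha.1.1, ha.1.2, fun v hv => by
      rcases Finset.mem_insert.1 hv with rfl | hv
      · exact hyP.1
      · rcases ha.2 v hv with h | h
        · exact hPP h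
        · exact h.1⟩)
    (fun a ha hya hf => ⟨⟨Finset.notMem_erase _ _, by rw [Finset.insert_erase hya]; exact hf.1⟩,
      fun v hv => by
        obtain ⟨hvy, hva⟩ := Finset.mem_erase.1 hv
        by_cases hP : v ∈ P
        · exact Or.inl hP
        · have hv' : v ∈ P' \ P := ⟨hf.2 v hva, hP⟩
          refine Or.inr ⟨hv'.1, lt_of_le_of_ne (hmax v (Finset.mem_filter.2 ⟨ha hva, hv',
            K.down (Finset.singleton_subset_iff.2 hva) hf.1⟩)) (hadj v hv' y hyP hvy ?_)⟩
          exact K.down (Finset.insert_subset hva (Finset.singleton_subset_iff.2 hya)) hf.1⟩)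
  have hys : y ∈ s := hs y hyF hyP hyf
  obtain ⟨F'', r2, c2, m2, f2, h2⟩ := ih (s.erase y + (G.filter (· ∉ P)).1)
    ⟨(G.filter (· ∉ P)).1, y, fun u hu => by
        obtain ⟨huG, huP⟩ := Finset.mem_filter.1 hu
        rcases (hG u huG).2 u (Finset.mem_singleton_self u) with h | h
        · exact absurd h huP
        · exact ⟨h.2, ⟨h.1, huP⟩, hyP⟩, by
        rw [add_right_comm, add_comm (s.erase y), Multiset.singleton_add, Multiset.cons_erase hys]⟩
    (F.erase y ∪ G) (fun v hv hvP hvf => by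
      rw [Multiset.mem_add]
      rcases Finset.mem_union.1 hv with h | h
      · obtain ⟨hvy, hvF⟩ := Finset.mem_erase.1 h
        exact Or.inl ((Multiset.mem_erase_of_ne hvy).2 (hs v hvF hvP hvf))
      · exact Or.inr (Finset.mem_filter.2 ⟨h, hvP.2⟩))
  have c1' : Continuous fun x => (⟨r1 x, m1 x⟩ : (K.full P').pts (F.erase y ∪ G)) :=
    c1.subtype_mk _
  refine ⟨F'', fun x => r2 ⟨r1 x, m1 x⟩, c2.comp c1', fun x => m2 _, fun x hx => ?_,
    h1.trans (h2.comp c1')⟩
  have e := f1 x (hx y hyP.2)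
  rw [← e]
  exact f2 _ fun v hv => by
    show r1 x v = 0
    rw [e]; exact hx v hv

/-- Adding vertices along contractible descending links does not change contractibility. -/
theorem morse (K : SC V) (P P' : Set V) (hPP : P ⊆ P') (key : V → κ)
    (hwf : (P' \ P).WellFoundedOn fun a b => key a < key b)
    (hadj : ∀ a ∈ P' \ P, ∀ b ∈ P' \ P, a ≠ b → K.face {a, b} → key a ≠ key b)
    (hlk : ∀ y ∈ P' \ P, K.face {y} →
      ((K.link y).full (P ∪ {b | b ∈ P' ∧ key b < key y})).WC) :
    (K.full P).WC ↔ (K.full P').WC := by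
  have hsub : ∀ a, (K.full P).face a → (K.full P').face a :=
    fun a ha => ⟨ha.1, fun v hv => hPP (ha.2 v hv)⟩
  constructor
  · intro h
    refine wc_of_hty (h.1.imp fun v hv => hsub _ hv) fun F => ?_
    obtain ⟨F'', r, c, m, -, h1⟩ := deform K P P' hPP key hwf hadj hlk F
    obtain ⟨v, hv⟩ := h.hty F''
    exact ⟨v, h1.trans ((hv.comp (c.subtype_mk m)).mono hsub)⟩
  · intro h
    have hvx : ∀ {F : Finset V} {x : V → ℝ}, x ∈ (K.full P).pts F →
        ∃ a v, a ⊆ F ∧ (K.full P).face a ∧ x ∈ smp a ∧ v ∈ a := by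
      intro F x hx
      obtain ⟨a, ha, hf, hx⟩ := mem_pts.1 hx
      obtain ⟨v, hv⟩ := smp_nonempty hx
      exact ⟨a, v, ha, hf, hx, hv⟩
    refine wc_of_hty ?_ fun F => ?_
    · obtain ⟨v0, hv0⟩ := h.1
      obtain ⟨F'', r, -, m, -⟩ := deform K P P' hPP key hwf hadj hlk {v0}
      obtain ⟨a, v, -, hf, -, hv⟩ := hvx (m ⟨_, single_pts hv0 (Finset.mem_singleton_self _)⟩)
      exact ⟨v, (K.full P).down (Finset.singleton_subset_iff.2 hv) hf⟩
    obtain ⟨F', v, H, hv, hvF, -, a1, a2, a3⟩ := h.strong F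
    obtain ⟨F'', r, c, m, f, -⟩ := deform K P P' hPP key hwf hadj hlk F'
    obtain ⟨a, u, ha, hf, hx, hu⟩ := hvx (m ⟨_, single_pts hv hvF⟩)
    let ι : (K.full P).pts F → (K.full P').pts F := fun x => ⟨x.1, pts_sub (fun a _ => hsub a) x.2⟩
    have hι : Continuous ι := continuous_subtype_val.subtype_mk _
    refine ⟨u, Hty.trans (g := fun _ => r ⟨_, single_pts hv hvF⟩)
      ⟨F'', ⟨fun p => r ⟨H (ι p.1, p.2), a1 _⟩, c.comp (Continuous.subtype_mk (by fun_prop) _)⟩,
        fun p => m _, fun x => ?_, fun x => ?_⟩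
      (hty_line continuous_const continuous_const F'' fun x => ⟨a, ha, hf, hx, single_smp hu⟩)⟩
    · simp only [ContinuousMap.coe_mk]
      rw [f]
      · exact a2 _
      · intro z hz
        show H (ι x, 0) z = 0
        rw [a2]
        obtain ⟨b, -, hb, hxb⟩ := mem_pts.1 x.2
        exact hxb.2.1 z fun h => hz (hb.2 z h)
    · simp only [ContinuousMap.coe_mk]
      congr 1
      exact Subtype.ext (a3 _)

end Vale.Agent.P203.SC
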