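import Vale.Agent.P203.SCb

/-! Part SCc: no merging of components, and the connected Morse lemma. -/

namespace Vale.Agent.P203.SC
open Classical unitInterval

variable {V : Type} {κ : Type} [LinearOrder κ]

/-- `U` is the vertex set of a connected graph `adj`, `N ⊆ U` is the bottom part, `G0` a nonempty
union of components of `N`. -/
theorem nomerge (adj : V → V → Prop) (hs : ∀ a b, adj a b → adj b a) (U N G0 : Set V)
    (hN : N ⊆ U) (hG : G0 ⊆ N) (hne : G0.Nonempty)
    (hcl : ∀ a ∈ G0, ∀ b ∈ N, adj a b → b ∈ G0) (key : V → κ)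
    (hwf : (U \ N).WellFoundedOn fun a b => key a < key b)
    (hconn : ∀ a ∈ U, ∀ b ∈ U, Relation.ReflTransGen (fun x y => y ∈ U ∧ adj x y) a b)
    (h1 : ∀ y ∈ U \ N, ∀ a b, a ∈ U → b ∈ U → adj y a → adj y b → (a ∈ N ∨ key a < key y) →
      (b ∈ N ∨ key b < key y) → Relation.ReflTransGen
        (fun x z => z ∈ U ∧ (z ∈ N ∨ key z < key y) ∧ adj x z) a b)
    (h2 : ∀ a ∈ U \ N, ∀ b ∈ U \ N, adj a b → key a = key b →
      (∃ z ∈ U, adj a z ∧ (z ∈ N ∨ key z < key a)) →
      ∃ z ∈ U, adj a z ∧ adj b z ∧ (z ∈ N ∨ key z < key a)) :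
    N ⊆ G0 ∧ ∀ y ∈ U \ N, ∃ z ∈ U, adj y z ∧ (z ∈ N ∨ key z < key y) := by
  let desc : V → V → Prop := fun x z => x ∉ N ∧ z ∈ U ∧ adj x z ∧ (z ∈ N ∨ key z < key x)
  let col : V → Prop := fun y => ∃ g ∈ G0, Relation.ReflTransGen desc y g
  let Q : V → Prop := fun y => ∀ a b, a ∈ U → b ∈ U → adj y a → adj y b →
    (a ∈ N ∨ key a < key y) → (b ∈ N ∨ key b < key y) → col a → col b
  have cN : ∀ a ∈ N, col a → a ∈ G0 := by
    rintro a ha ⟨g, hg, hp⟩
    rcases hp.cases_head with rfl | ⟨z, hz, -⟩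
    · exact hg
    · exact absurd ha hz.1
  have cL : ∀ a, a ∉ N → col a → ∃ z, desc a z ∧ col z := by
    rintro a ha ⟨g, hg, hp⟩
    rcases hp.cases_head with rfl | ⟨z, hz, hp⟩
    · exact absurd (hG hg) ha
    · exact ⟨z, hz, g, hg, hp⟩
  have cS : ∀ a z, desc a z → col z → col a := by
    rintro a z h ⟨g, hg, hp⟩
    exact ⟨g, hg, hp.head h⟩
  have E : ∀ a ∈ U, ∀ b ∈ U, adj a b → col a → (a ∉ N → Q a) → col b := by
    intro a haU b hbU hab ca hQ
    by_cases haN : a ∈ N
    · by_cases hbN : b ∈ N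
      · exact ⟨b, hcl a (cN a haN ca) b hbN hab, Relation.ReflTransGen.refl⟩
      · exact cS b a ⟨hbN, haU, hs _ _ hab, Or.inl haN⟩ ca
    · obtain ⟨z, hz, cz⟩ := cL a haN ca
      by_cases hbN : b ∈ N
      · exact hQ haN z b hz.2.1 hbU hz.2.2.1 hab hz.2.2.2 (Or.inl hbN) cz
      · rcases lt_trichotomy (key a) (key b) with h | h | h
        · exact cS b a ⟨hbN, haU, hs _ _ hab, Or.inr h⟩ ca
        · obtain ⟨z', h3, h4, h5, h6⟩ := h2 a ⟨haU, haN⟩ b ⟨hbU, hbN⟩ hab h
            ⟨z, hz.2.1, hz.2.2.1, hz.2.2.2⟩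
          exact cS b z' ⟨hbN, h3, h5, h ▸ h6⟩ (hQ haN z z' hz.2.1 h3 hz.2.2.1 h4 hz.2.2.2 h6 cz)
        · exact hQ haN z b hz.2.1 hbU hz.2.2.1 hab hz.2.2.2 (Or.inr h) cz
  have hQ : ∀ y, y ∈ U \ N → Q y := by
    intro y
    induction y using (Set.wellFoundedOn_iff.1 hwf).induction with
    | _ y ih =>
    intro hy a b haU hbU hya hyb ha hb ca
    have hp := h1 y hy a b haU hbU hya hyb ha hb
    have : ∀ c, Relation.ReflTransGen
        (fun x z => z ∈ U ∧ (z ∈ N ∨ key z < key y) ∧ adj x z) a c →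
        col c ∧ c ∈ U ∧ (c ∈ N ∨ key c < key y) := by
      intro c hc
      induction hc with
      | refl => exact ⟨ca, haU, ha⟩
      | @tail x z _ hz ih' =>
        refine ⟨E x ih'.2.1 z hz.1 hz.2.2 ih'.1 fun hx => ih x ⟨?_, ⟨ih'.2.1, hx⟩, hy⟩
          ⟨ih'.2.1, hx⟩, hz.1, hz.2.1⟩
        exact ih'.2.2.resolve_left hx
    exact (this b hp).1
  obtain ⟨g0, hg0⟩ := hne
  have hall : ∀ b ∈ U, col b := by
    intro b hb
    have : ∀ c, Relation.ReflTransGen (fun x y => y ∈ U ∧ adj x y) g0 c → col c ∧ c ∈ U := by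
      intro c hc
      induction hc with
      | refl => exact ⟨⟨g0, hg0, Relation.ReflTransGen.refl⟩, hN (hG hg0)⟩
      | @tail x z _ hz ih' =>
        exact ⟨E x ih'.2 z hz.1 hz.2 ih'.1 fun hx => hQ x ⟨ih'.2, hx⟩, hz.1⟩
    exact (this b (hconn g0 (hN (hG hg0)) b hb)).1
  refine ⟨fun a ha => cN a ha (hall a (hN ha)), fun y hy => ?_⟩
  obtain ⟨z, hz, -⟩ := cL y hy.2 (hall y hy.1)
  exact ⟨z, hz.2.1, hz.2.2.1, hz.2.2.2⟩

/-- A connected complex all of whose descending links are contractible or empty is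
contractible. -/
theorem morse_conn (K : SC V) (key : V → κ) (hne : ∃ v, K.face {v})
    (hconn : ∀ u v, K.face {u} → K.face {v} → K.Conn u v)
    (hwf : {v | K.face {v}}.WellFoundedOn fun a b => key a < key b)
    (hadj : ∀ a b, a ≠ b → K.face {a, b} → key a ≠ key b)
    (hlk : ∀ y, K.face {y} → (∃ z, z ≠ y ∧ K.face {y, z} ∧ key z < key y) →
      ((K.link y).full {b | key b < key y}).WC) : K.WC := by
  let U : Set V := {v | K.face {v}}
  obtain ⟨v0, hv0, hmin⟩ := (Set.wellFoundedOn_iff.1 hwf).has_min U hne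
  have hl : ∀ {a b : V}, K.face {a, b} → a ∈ U := fun h =>
    K.down (Finset.singleton_subset_iff.2 (Finset.mem_insert_self _ _)) h
  have hr : ∀ {a b : V}, K.face {a, b} → b ∈ U := fun h =>
    K.down (Finset.subset_insert _ _) h
  have hlow : ∀ y a, y ≠ a → K.face {y, a} → (a ∈ ({v0} : Set V) ∨ key a < key y) →
      key a < key y := by
    rintro y a hya hf (h | h)
    · rw [Set.mem_singleton_iff] at h
      subst h
      exact lt_of_le_of_ne (not_lt.1 fun h => hmin y (hl hf) ⟨h, hl hf, hv0⟩)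
        (hadj _ _ hya hf).symm
    · exact h
  have hwf' : (U \ {v0}).WellFoundedOn fun a b => key a < key b := hwf.subset Set.sdiff_subset
  have hnm := nomerge (fun a b => a ≠ b ∧ K.face {a, b})
    (fun a b h => ⟨h.1.symm, by rw [Finset.pair_comm]; exact h.2⟩) U {v0} {v0}
    (Set.singleton_subset_iff.2 hv0) subset_rfl (Set.singleton_nonempty _) (fun _ _ _ h _ => h)
    key hwf' (by
      intro a ha b hb
      have hp := hconn a b ha hb
      clear hb
      induction hp with
      | refl => exact Relation.ReflTransGen.refl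
      | @tail x z _ hz ih =>
        by_cases hxz : x = z
        · exact hxz ▸ ih
        · exact ih.tail ⟨hr hz, hxz, hz⟩) (by
      intro y hy a b _ _ hya hyb ha hb
      have ha' := hlow y a hya.1 hya.2 ha
      have hb' := hlow y b hyb.1 hyb.2 hb
      have hp := (hlk y hy.1 ⟨a, hya.1.symm, hya.2, ha'⟩).conn (u := a) (v := b)
        ⟨⟨by simpa using hya.1, hya.2⟩, by simpa using ha'⟩
        ⟨⟨by simpa using hyb.1, hyb.2⟩, by simpa using hb'⟩
      clear hb hb' hyb
      rename_i hbU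
      clear hbU
      induction hp with
      | refl => exact Relation.ReflTransGen.refl
      | @tail x z _ hz ih =>
        by_cases hxz : x = z
        · exact hxz ▸ ih
        · have hf : K.face {x, z} := K.down (Finset.subset_insert _ _) hz.1.2
          exact ih.tail ⟨hr hf, Or.inr (hz.2 z (by simp)), hxz, hf⟩)
    (fun a _ b _ hab h => absurd h (hadj a b hab.1 hab.2))
  have hK : K.full U = K := ext' fun a =>
    ⟨fun h => h.1, fun h => ⟨h, fun v hv => K.down (Finset.singleton_subset_iff.2 hv) h⟩⟩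
  rw [← hK]
  refine (morse K {v0} U (Set.singleton_subset_iff.2 hv0) key hwf'
    (fun a _ b _ => hadj a b) fun y hy hf => ?_).1 ?_
  · obtain ⟨z, -, hz, h⟩ := hnm.2 y hy
    have := hlk y hf ⟨z, hz.1.symm, hz.2, hlow y z hz.1 hz.2 h⟩
    convert this using 1
    refine ext' fun a => and_congr_right fun ha => forall₂_congr fun v hv => ?_
    have hf' : K.face {y, v} :=
      K.down (Finset.insert_subset_insert _ (Finset.singleton_subset_iff.2 hv)) ha.2
    have hyv : y ≠ v := fun h => ha.1 (h ▸ hv)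
    constructor
    · rintro (h | h)
      · exact hlow y v hyv hf' (Or.inl h)
      · exact h.2
    · exact fun h => Or.inr ⟨hr hf', h⟩
  · refine wc_cone _ v0 ⟨hv0, by simp⟩ fun b hb => ⟨K.down (fun v hv => ?_) hv0, fun v hv => ?_⟩
    · rcases Finset.mem_insert.1 hv with h | h
      · simp [h]
      · simpa using hb.2 v h
    · rcases Finset.mem_insert.1 hv with h | h
      · simp [h]
      · exact hb.2 v h

end Vale.Agent.P203.SC
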