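import Mathlib

/-! The Salvetti complex of a Coxeter matrix (Salvetti 1987/1994, Charney-Davis 1995,
Paris 2014, Section 3). -/

namespace Vale.Agent.P203

/-- The points of the geometric realization of the order complex of a poset `(P, le)`, in
barycentric coordinates: nonnegative functions of total mass one supported on a finite chain. -/
def Realization {P : Type} (le : P → P → Prop) : Type :=
  {x : P → ℝ // ∃ c : Finset P, IsChain le (c : Set P) ∧ (∀ p, 0 ≤ x p) ∧
    (∀ p, p ∉ c → x p = 0) ∧ ∑ p ∈ c, x p = 1}

/-- The weak (CW) topology on the realization: the finest topology for which the inclusion of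
every closed simplex, with its Euclidean topology, is continuous. -/
instance {P : Type} (le : P → P → Prop) : TopologicalSpace (Realization le) :=
  ⨆ c : {c : Finset P // IsChain le (c : Set P)},
    TopologicalSpace.coinduced
      (fun x : {x : Realization le // ∀ p, p ∉ c.1 → x.1 p = 0} => x.1)
      (TopologicalSpace.induced (fun x => x.1.1) Pi.topologicalSpace)

variable {S : Type} (M : CoxeterMatrix S)

/-- The standard parabolic subgroup `W_T` of the Coxeter group `W`. -/
def WP (T : Finset S) : Subgroup M.Group := Subgroup.closure (M.simple '' (T : Set S))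

/-- `T` is spherical when `W_T` is finite. -/
def Spherical (T : Finset S) : Prop := Finite (WP M T)

/-- `w` has minimal length in its coset `w W_T`. -/
def MinIn (w : M.Group) (T : Finset S) : Prop :=
  ∀ v ∈ WP M T, M.toCoxeterSystem.length w ≤ M.toCoxeterSystem.length (w * v)

/-- The cells `(u, T)`, `u ∈ W`, `T` spherical, of the Salvetti complex of the complement `Y`. -/
def SalCell : Type := {p : M.Group × Finset S // Spherical M p.2}

/-- The partial order of the Salvetti poset `W × S^f`: `(u, X) ≤ (v, Y)` iff `X ⊆ Y`, `v⁻¹ u ∈ W_Y` and `v⁻¹ u` has minimal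
length in `v⁻¹ u W_X`. -/
def SalLE (p q : SalCell M) : Prop :=
  p.1.2 ⊆ q.1.2 ∧ q.1.1⁻¹ * p.1.1 ∈ WP M q.1.2 ∧ MinIn M (q.1.1⁻¹ * p.1.1) p.1.2

/-- Left multiplication of `W` on the cells. -/
def SalCell.mul (w : M.Group) (p : SalCell M) : SalCell M := ⟨(w * p.1.1, p.1.2), p.2⟩

/-- The Salvetti complex `X(W,S)`: the quotient of the realization of the Salvetti poset by the
(free) left action of `W`, with the quotient topology. It has one cell of dimension `|T|` for each
spherical `T`. -/
def Salvetti : Type :=
  Quot fun x y : Realization (SalLE M) => ∃ w : M.Group, ∀ p, y.1 (SalCell.mul M w p) = x.1 p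

instance : TopologicalSpace (Salvetti M) := inferInstanceAs (TopologicalSpace (Quot _))

end Vale.Agent.P203
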