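import Vale.Agent.P203.CxB
import Vale.Agent.P203.RepC
import Vale.Agent.P203.RepD

/-! Part TTr: relations between the derived reflection functors. -/

namespace Vale.Agent.P203
open Classical

variable {G : Gr} {F F' U : Ind G}

theorem TT_empty (h : F.F = ∅) : TT F = 1 := by
  ext ξ
  obtain ⟨C, rfl⟩ := exists_cl ξ
  rw [TT_cl C fun v hv => by simp [h] at hv, Cx.sig_empty h]
  rfl

theorem TT_union (hU : U.F = F.F ∪ F'.F) (hd : Disjoint F.F F'.F) : TT F * TT F' = TT U := by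
  ext ξ
  obtain ⟨C, rfl, hC⟩ := exists_surj ξ
  have hI : ∀ F : Ind G, ∀ v ∈ F.F, C.X.InOn v := fun F v hv =>
    Rp.inOn_of_surj (hC v (F.cxB_ne hv))
  rw [Equiv.Perm.mul_apply, TT_cl C (hI F'), TT_cl C (hI U), TT_cl (C.sig F') fun v hv =>
    Rp.inOn_of_surj (Rp.surj_sig F'.no (Set.disjoint_left.1 hd hv) (hC v (F.cxB_ne hv))),
    Cx.sig_union hU hd]

theorem TT_comm (hd : Disjoint F.F F'.F) (h : ∀ v ∈ F.F, ∀ w ∈ F'.F, ¬ G.adj v w) :
    TT F * TT F' = TT F' * TT F := by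
  let U : Ind G := ⟨F.F ∪ F'.F, by
    rintro v (hv | hv) w (hw | hw)
    · exact F.ind v hv w hw
    · exact h v hv w hw
    · exact fun a => h w hw v hv (G.symm a)
    · exact F'.ind v hv w hw, fun h => h.elim F.no F'.no⟩
  rw [TT_union (U := U) rfl hd, TT_union (U := U) (Set.union_comm _ _) hd.symm]

theorem ttr_three {i j : G.V} (hi : F.F = {i}) (hj : F'.F = {j}) (hij : G.adj i j) (C : Cx G)
    (hC : ∀ v, v ≠ G.o → Function.Surjective (C.X.a G.o v)) :
    (TT F * TT F' * TT F) C.cl = (((C.sig F).sig F').sig F).cl := by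
  have hi' : i ∈ F.F := by simp [hi]
  have hj' : j ∈ F'.F := by simp [hj]
  have hjF : j ∉ F.F := fun h => F.ind i hi' j h hij
  have hs := Rp.surj_sig F.no hjF (hC j (F'.cxB_ne hj'))
  rw [Equiv.Perm.mul_apply, Equiv.Perm.mul_apply,
    TT_cl C fun v hv => Rp.inOn_of_surj (hC v (F.cxB_ne hv)), TT_cl (C.sig F), TT_cl]
  · intro v hv
    obtain rfl : v = i := by simpa [hi] using hv
    exact Rp.inOn_sig_of_adj hj' hij (F.cxB_ne hv) hs
  · intro v hv
    obtain rfl : v = j := by simpa [hj] using hv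
    exact Rp.inOn_of_surj hs

theorem ttr_braid1 {i j : G.V} (hi : F.F = {i}) (hj : F'.F = {j}) (hij : G.adj i j) :
    TT F * TT F' * TT F = TT F' * TT F * TT F' := by
  ext ξ
  obtain ⟨C, rfl, hC⟩ := exists_surj ξ
  rw [ttr_three hi hj hij C hC, ttr_three hj hi (G.symm hij) C hC, Cx.sig_braid hi hj hij]

/-- A subset of an independent set. -/
def Ind.ttrSub (F : Ind G) (S : Set G.V) (h : S ⊆ F.F) : Ind G :=
  ⟨S, fun v hv w hw => F.ind v (h hv) w (h hw), fun ho => F.no (h ho)⟩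

theorem ttr_braid (n : ℕ) : ∀ F F' : Ind G, F.F.ncard = n →
    (∀ v ∈ F.F, ∃! w, w ∈ F'.F ∧ G.adj v w) → (∀ w ∈ F'.F, ∃! v, v ∈ F.F ∧ G.adj v w) →
    TT F * TT F' * TT F = TT F' * TT F * TT F' := by
  induction n with
  | zero =>
    intro F F' hn _ h2
    have e : F.F = ∅ := (Set.ncard_eq_zero (Set.toFinite _)).1 hn
    have e' : F'.F = ∅ := Set.eq_empty_of_forall_notMem fun w hw => by
      obtain ⟨v, hv, _⟩ := h2 w hw
      simp [e] at hv
    rw [TT_empty e, TT_empty e']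
  | succ n ih =>
    intro F F' hn h1 h2
    obtain ⟨i, hi⟩ : F.F.Nonempty := (Set.ncard_pos (Set.toFinite _)).1 (by omega)
    obtain ⟨j, ⟨hj, hij⟩, hju⟩ := h1 i hi
    have hiu : ∀ v ∈ F.F, G.adj v j → v = i := fun v hv a =>
      (h2 j hj).unique ⟨hv, a⟩ ⟨hi, hij⟩
    have hd : ∀ v ∈ F.F, v ∉ F'.F := fun v hv hv' => by
      obtain ⟨w, hw, _⟩ := h1 v hv
      exact F'.ind v hv' w hw.1 hw.2
    let a := F.ttrSub {i} (Set.singleton_subset_iff.2 hi)
    let A := F.ttrSub (F.F \ {i}) Set.diff_subset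
    let b := F'.ttrSub {j} (Set.singleton_subset_iff.2 hj)
    let B := F'.ttrSub (F'.F \ {j}) Set.diff_subset
    have eF : TT a * TT A = TT F :=
      TT_union (Set.union_diff_cancel (Set.singleton_subset_iff.2 hi)).symm Set.disjoint_sdiff_right
    have eF' : TT b * TT B = TT F' :=
      TT_union (Set.union_diff_cancel (Set.singleton_subset_iff.2 hj)).symm Set.disjoint_sdiff_right
    have c1 : Commute (TT A) (TT a) := TT_comm Set.disjoint_sdiff_left
      fun v hv w hw => F.ind v hv.1 w (Set.singleton_subset_iff.2 hi hw)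
    have c2 : Commute (TT B) (TT b) := TT_comm Set.disjoint_sdiff_left
      fun v hv w hw => F'.ind v hv.1 w (Set.singleton_subset_iff.2 hj hw)
    have c3 : Commute (TT A) (TT b) := TT_comm
      (Set.disjoint_left.2 fun v hv hw => hd v hv.1 (Set.singleton_subset_iff.2 hj hw))
      fun v hv w hw h => hv.2 (hiu v hv.1 (by rwa [show w = j from hw] at h))
    have c4 : Commute (TT B) (TT a) := TT_comm
      (Set.disjoint_left.2 fun v hv hw => hd v (Set.singleton_subset_iff.2 hi hw) hv.1)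
      fun v hv w hw h => hv.2 (hju v ⟨hv.1, G.symm (by rwa [show w = i from hw] at h)⟩)
    have hab : TT a * TT b * TT a = TT b * TT a * TT b := ttr_braid1 rfl rfl hij
    have hAB : TT A * TT B * TT A = TT B * TT A * TT B := by
      refine ih A B ?_ (fun v hv => ?_) fun w hw => ?_
      · change (F.F \ {i}).ncard = n
        rw [Set.ncard_diff_singleton_of_mem hi, hn]; rfl
      · obtain ⟨w, hw, hu⟩ := h1 v hv.1
        exact ⟨w, ⟨⟨hw.1, fun e => hv.2 (hiu v hv.1 (by rw [← show w = j from e]; exact hw.2))⟩,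
          hw.2⟩, fun y hy => hu y ⟨hy.1.1, hy.2⟩⟩
      · obtain ⟨v, hv, hu⟩ := h2 w hw.1
        exact ⟨v, ⟨⟨hv.1, fun e => hw.2 (hju w ⟨hw.1, by rw [← show v = i from e]; exact hv.2⟩)⟩,
          hv.2⟩, fun y hy => hu y ⟨hy.1.1, hy.2⟩⟩
    rw [← eF, ← eF', c3.mul_mul_mul_comm, (c1.mul_left c4).mul_mul_mul_comm, c4.mul_mul_mul_comm,
      (c2.mul_left c3).mul_mul_mul_comm, hab, hAB]
theorem TT_braid (h1 : ∀ v ∈ F.F, ∃! w, w ∈ F'.F ∧ G.adj v w)
    (h2 : ∀ w ∈ F'.F, ∃! v, v ∈ F.F ∧ G.adj v w) :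
    TT F * TT F' * TT F = TT F' * TT F * TT F' := ttr_braid _ F F' rfl h1 h2

end Vale.Agent.P203
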