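import Vale.Agent.P203.Stmt
import Vale.Agent.P203.SC

/-! Part TopA: realizations of locally finite posets; maps of cubes into a contractible one. -/

namespace Vale.Agent.P203
open Classical unitInterval Topology

variable {P : Type} {le : P → P → Prop}

theorem TopA_exists_pos (x : Realization le) : ∃ p, 0 < x.1 p := by
  obtain ⟨c, -, h0, -, h1⟩ := x.2
  by_contra h
  have : ∑ p ∈ c, x.1 p = 0 :=
    Finset.sum_eq_zero fun p _ => le_antisymm (not_lt.1 fun hp => h ⟨p, hp⟩) (h0 p)
  rw [h1] at this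
  exact one_ne_zero this

theorem TopA_chain_sub {c : Finset P} (hc : IsChain le (c : Set P)) {p : P} (hp : p ∈ c) :
    (c : Set P) ⊆ insert p {q | le p q ∨ le q p} := by
  intro q hq
  by_cases h : q = p
  · exact Or.inl h
  · exact Or.inr (hc hp hq (Ne.symm h))

theorem TopA_homRel {A X : Type} [TopologicalSpace A] [TopologicalSpace X] (S : Set A)
    (K : I × A → X) (hK : Continuous K) (f g : C(A, X)) (h0 : ∀ a, K (0, a) = f a)
    (h1 : ∀ a, K (1, a) = g a) (hS : ∀ t, ∀ a ∈ S, K (t, a) = f a) : f.HomotopicRel g S :=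
  ⟨⟨⟨⟨K, hK⟩, h0, h1⟩, hS⟩⟩

/-- For a locally finite poset the weak topology is the topology of pointwise convergence. -/
theorem real_isInducing (hfin : ∀ p, {q | le p q ∨ le q p}.Finite) :
    IsInducing (fun x : Realization le => x.1) := by
  refine ⟨le_antisymm ?_ ?_⟩
  · rw [← continuous_iff_le_induced]
    refine continuous_iSup_dom.2 fun c => continuous_coinduced_dom.2 ?_
    exact continuous_induced_dom
  · intro O hO
    have hO' : ∀ c : {c : Finset P // IsChain le (c : Set P)}, ∃ U : Set (P → ℝ), IsOpen U ∧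
        ∀ x : Realization le, (∀ p, p ∉ c.1 → x.1 p = 0) → (x.1 ∈ U ↔ x ∈ O) := by
      intro c
      have h1 := (isOpen_iSup_iff.1 hO) c
      rw [isOpen_coinduced, isOpen_induced_iff] at h1
      obtain ⟨U, hU, h2⟩ := h1
      exact ⟨U, hU, fun x hx => Set.ext_iff.1 h2 ⟨x, hx⟩⟩
    choose U hU hUO using hO'
    refine (@isOpen_iff_forall_mem_open _ (TopologicalSpace.induced _ _) O).2 fun x hx => ?_
    obtain ⟨p0, hp0⟩ := TopA_exists_pos x
    have hfin' : {c : {c : Finset P // IsChain le (c : Set P)} | p0 ∈ c.1}.Finite := by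
      have h1 := ((hfin p0).insert p0).finite_subsets
      have h2 := h1.preimage (f := fun c : {c : Finset P // IsChain le (c : Set P)} =>
        (c.1 : Set P)) (fun a _ b _ h => Subtype.ext (Finset.coe_injective h))
      exact h2.subset fun c hc => TopA_chain_sub c.2 hc
    let V : Set (P → ℝ) := {y | 0 < y p0} ∩
      ⋂ c ∈ {c : {c : Finset P // IsChain le (c : Set P)} | p0 ∈ c.1},
        (U c ∪ ⋃ p ∈ {p | p ∉ c.1}, {y | y p ≠ 0})
    have hV : IsOpen V := by
      refine (isOpen_lt continuous_const (continuous_apply p0)).inter ?_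
      refine hfin'.isOpen_biInter fun c _ => (hU c).union ?_
      exact isOpen_biUnion fun p _ => isOpen_ne_fun (continuous_apply p) continuous_const
    refine ⟨(fun y : Realization le => y.1) ⁻¹' V, ?_, isOpen_induced hV, hp0, ?_⟩
    · rintro y ⟨hy0, hy⟩
      obtain ⟨c, hc, -, h2, -⟩ := y.2
      have hpc : p0 ∈ c := by
        by_contra h
        exact (ne_of_gt hy0) (h2 p0 h)
      have := Set.mem_iInter₂.1 hy ⟨c, hc⟩ hpc
      rcases this with h | h
      · exact (hUO ⟨c, hc⟩ y h2).1 h
      · obtain ⟨p, hp, h3⟩ := Set.mem_iUnion₂.1 h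
        exact absurd (h2 p hp) h3
    · refine Set.mem_iInter₂.2 fun c _ => ?_
      by_cases h : ∀ p, p ∉ c.1 → x.1 p = 0
      · exact Or.inl ((hUO c x h).2 hx)
      · push Not at h
        obtain ⟨p, hp, h3⟩ := h
        exact Or.inr (Set.mem_iUnion₂.2 ⟨p, hp, h3⟩)

theorem real_tame (hfin : ∀ p, {q | le p q ∨ le q p}.Finite) {Y : Type} [TopologicalSpace Y]
    [CompactSpace Y] (f : C(Y, Realization le)) :
    ∃ F : Finset P, ∀ y, (f y).1 ∈ (SC.flag le).pts F := by
  have hc : Continuous fun y => (f y).1 := (real_isInducing hfin).continuous.comp f.continuous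
  obtain ⟨t, ht⟩ := isCompact_univ.elim_finite_subcover (fun p : P => {y : Y | 0 < (f y).1 p})
    (fun p => isOpen_lt continuous_const ((continuous_apply p).comp hc))
    (fun y _ => by
      obtain ⟨p, hp⟩ := TopA_exists_pos (f y)
      exact Set.mem_iUnion.2 ⟨p, hp⟩)
  refine ⟨t.biUnion fun p => ((hfin p).insert p).toFinset, fun y => ?_⟩
  obtain ⟨p, hp, hy⟩ := Set.mem_iUnion₂.1 (ht (Set.mem_univ y))
  obtain ⟨c, hc, h0, h2, h1⟩ := (f y).2
  have hpc : p ∈ c := by
    by_contra h
    exact (ne_of_gt hy) (h2 p h)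
  have hsub : c ⊆ t.biUnion fun p => ((hfin p).insert p).toFinset := fun q hq =>
    Finset.mem_biUnion.2 ⟨p, hp, (Set.Finite.mem_toFinset _).2 (TopA_chain_sub hc hpc hq)⟩
  refine ⟨h0, fun v hv => h2 v fun h => hv (hsub h), ?_, ?_⟩
  · exact (Finset.sum_subset hsub fun q _ hq => h2 q hq).symm.trans h1
  · intro u hu v hv huv
    have hu' : u ∈ c := by
      by_contra h
      exact (Finset.mem_filter.1 hu).2 (h2 u h)
    have hv' : v ∈ c := by
      by_contra h
      exact (Finset.mem_filter.1 hv).2 (h2 v h)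
    exact hc hu' hv' huv

theorem real_of_pts {F : Finset P} {x : P → ℝ} (hx : x ∈ (SC.flag le).pts F) :
    ∃ y : Realization le, y.1 = x := by
  obtain ⟨h0, h2, h1, h3⟩ := hx
  refine ⟨⟨x, F.filter fun v => x v ≠ 0, fun u hu v hv huv => h3 u hu v hv huv, h0, ?_, ?_⟩, rfl⟩
  · intro p hp
    by_contra h
    exact hp (Finset.mem_filter.2 ⟨by_contra fun h' => h (h2 p h'), h⟩)
  · rw [Finset.sum_filter_ne_zero, h1]

/-- Every generalized loop in a contractible locally finite realization is null-homotopic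
relative to the boundary. -/
theorem real_loop (hfin : ∀ p, {q | le p q ∨ le q p}.Finite) (hwc : (SC.flag le).WC) (n : ℕ)
    (x : Realization le) (f : GenLoop (Fin n) (Realization le) x) :
    GenLoop.Homotopic f GenLoop.const := by
  obtain ⟨F, hF⟩ := real_tame hfin (Y := (Fin n → I) ⊕ Unit)
    ⟨Sum.elim f (fun _ => x), f.1.continuous.sumElim continuous_const⟩
  obtain ⟨F', v, H, hH, H0, H1⟩ := hwc.2 F
  choose Hh hHh using fun p => real_of_pts (hH p)
  have hc : Continuous Hh := (real_isInducing hfin).continuous_iff.2 (by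
    have : (fun x : Realization le => x.1) ∘ Hh = H := funext hHh
    rw [this]
    exact H.continuous)
  let g : (Fin n → I) → (SC.flag le).pts F := fun y => ⟨(f y).1, hF (.inl y)⟩
  have hg : Continuous g :=
    ((real_isInducing hfin).continuous.comp f.1.continuous).subtype_mk _
  let x0 : (SC.flag le).pts F := ⟨x.1, hF (.inr ())⟩
  have hg0 : ∀ y ∈ Cube.boundary (Fin n), g y = x0 := fun y hy =>
    Subtype.ext (congrArg (fun z : Realization le => z.1) (f.2 y hy))
  have Hh0 : ∀ y, Hh (g y, 0) = f y := fun y => Subtype.ext ((hHh _).trans (H0 _))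
  have Hx0 : Hh (x0, 0) = x := Subtype.ext ((hHh _).trans (H0 _))
  have Hh1 : ∀ a b, Hh (a, 1) = Hh (b, 1) := fun a b =>
    Subtype.ext (((hHh _).trans (H1 _)).trans ((hHh _).trans (H1 _)).symm)
  let c : I × (Fin n → I) → (Fin n → I) := fun q i =>
    Set.projIcc 0 1 zero_le_one ((1 + (q.1 : ℝ)) * q.2 i - q.1 / 2)
  have hcc : Continuous c :=
    continuous_pi fun i => continuous_projIcc.comp (by fun_prop)
  have c0 : ∀ y, c (0, y) = y := fun y => funext fun i => by simp [c]
  have cb : ∀ s, ∀ y ∈ Cube.boundary (Fin n), c (s, y) ∈ Cube.boundary (Fin n) := by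
    rintro s y ⟨i, hi | hi⟩
    · refine ⟨i, Or.inl (Set.projIcc_of_le_left _ ?_)⟩
      have := s.2.1
      simp only [hi, Set.Icc.coe_zero]
      linarith
    · refine ⟨i, Or.inr (Set.projIcc_of_right_le _ ?_)⟩
      have := s.2.1
      simp only [hi, Set.Icc.coe_one]
      linarith
  let ρ : (Fin n → I) → I := fun y =>
    ∏ i, Set.projIcc 0 1 zero_le_one (4 * min (y i : ℝ) (1 - y i))
  have hρ : Continuous ρ :=
    continuous_finsetProd _ fun i _ => continuous_projIcc.comp (by fun_prop)
  have ρ0 : ∀ y ∈ Cube.boundary (Fin n), ρ y = 0 := by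
    rintro y ⟨i, hi | hi⟩
    · refine Finset.prod_eq_zero (Finset.mem_univ i) (Set.projIcc_of_le_left _ ?_)
      simp [hi]
    · refine Finset.prod_eq_zero (Finset.mem_univ i) (Set.projIcc_of_le_left _ ?_)
      simp [hi]
  have key : ∀ y, Hh (g (c (1, y)), ρ y) = Hh (x0, ρ y) := by
    intro y
    by_cases h : ∀ i, 1 / 4 ≤ (y i : ℝ) ∧ (y i : ℝ) ≤ 3 / 4
    · have : ρ y = 1 := Finset.prod_eq_one fun i _ => Set.projIcc_of_right_le _ (by
        have := h i
        rcases min_cases (y i : ℝ) (1 - y i) with h' | h' <;> rw [h'.1] <;> linarith)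
      rw [this]
      exact Hh1 _ _
    · push Not at h
      obtain ⟨i, hi⟩ := h
      rw [hg0]
      by_cases h1 : 1 / 4 ≤ (y i : ℝ)
      · refine ⟨i, Or.inr (Set.projIcc_of_right_le _ ?_)⟩
        have := hi h1
        simp only [Set.Icc.coe_one]
        linarith
      · refine ⟨i, Or.inl (Set.projIcc_of_le_left _ ?_)⟩
        simp only [Set.Icc.coe_one]
        linarith
  let f1 : C(Fin n → I, Realization le) :=
    ⟨fun y => f (c (1, y)), f.1.continuous.comp (hcc.comp (by fun_prop))⟩
  let f2 : C(Fin n → I, Realization le) := ⟨fun y => Hh (x0, ρ y), hc.comp (by fun_prop)⟩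
  have a1 : f.1.HomotopicRel f1 (Cube.boundary (Fin n)) :=
    TopA_homRel _ (fun q => f (c q)) (f.1.continuous.comp hcc) _ _
      (fun a => by simp only [c0]; rfl) (fun a => rfl)
      (fun t a ha => (f.2 _ (cb t a ha)).trans (f.2 a ha).symm)
  have a2 : f1.HomotopicRel f2 (Cube.boundary (Fin n)) :=
    TopA_homRel _ (fun q => Hh (g (c (1, q.2)), q.1 * ρ q.2))
      (hc.comp ((hg.comp (hcc.comp (by fun_prop))).prodMk (by fun_prop))) _ _
      (fun a => by simp only [zero_mul]; exact Hh0 _)
      (fun a => by simp only [one_mul]; exact key a)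
      (fun t a ha => by simp only [ρ0 a ha, mul_zero]; exact Hh0 _)
  have a3 : (GenLoop.const : GenLoop (Fin n) _ x).1.HomotopicRel f2 (Cube.boundary (Fin n)) :=
    TopA_homRel _ (fun q => Hh (x0, q.1 * ρ q.2)) (hc.comp (by fun_prop)) _ _
      (fun a => by simp only [zero_mul]; exact Hx0)
      (fun a => by simp only [one_mul]; rfl)
      (fun t a ha => by simp only [ρ0 a ha, mul_zero]; exact Hx0)
  exact (a1.trans a2).trans a3.symm

end Vale.Agent.P203
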