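import Mathlib

/-! Part TopC: higher homotopy groups of a space with a weakly contractible covering space. -/

namespace Vale.Agent.P203
open Classical unitInterval Topology

theorem pi_of_cover {E X : Type} [TopologicalSpace E] [TopologicalSpace X] {p : E → X}
    (hp : IsCoveringMap p) (hs : Function.Surjective p) {n : ℕ} (hn : 2 ≤ n)
    (hE : ∀ (e : E) (f : GenLoop (Fin n) E e), GenLoop.Homotopic f GenLoop.const) (x : X) :
    Subsingleton (HomotopyGroup.Pi n X x) := by
  obtain ⟨e, rfl⟩ := hs x
  have key : ∀ f : GenLoop (Fin n) X (p e), GenLoop.Homotopic f GenLoop.const := by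
    intro f
    let H : C(I × (Fin n → I), X) :=
      f.1.comp ⟨fun q i => q.1 * q.2 i, continuous_pi fun i => by fun_prop⟩
    have h0 : ∀ a, H (0, a) = p ((ContinuousMap.const (Fin n → I) e) a) := by
      intro a
      change f.1 _ = p e
      exact f.2 _ ⟨⟨0, by omega⟩, Or.inl (by simp)⟩
    let L := hp.liftHomotopy H (ContinuousMap.const _ e) h0
    have hL : ∀ q, p (L q) = H q := fun q => congrFun (hp.liftHomotopy_lifts H _ h0) q
    have hL0 : ∀ a, L (0, a) = e := hp.liftHomotopy_zero H _ h0
    have hL1 : ∀ y, p (L (1, y)) = f.1 y := by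
      intro y
      rw [hL]
      change f.1 _ = _
      congr 1
      funext i
      simp
    have z0 : ∀ (y : Fin n → I) (i : Fin n), y i = 0 → L (1, y) = e := by
      intro y i hi
      have := hp.const_of_comp (g := fun t : I => L (t, y)) (by fun_prop) (fun a a' => by
        rw [hL, hL]
        change f.1 _ = f.1 _
        rw [f.2 _ ⟨i, Or.inl (by simp [hi])⟩, f.2 _ ⟨i, Or.inl (by simp [hi])⟩]) 1 0
      rw [this, hL0]
    have z1 : ∀ y ∈ Cube.boundary (Fin n), L (1, y) = e := by
      rintro y ⟨i, hi | hi⟩
      · exact z0 y i hi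
      · obtain ⟨j, hj⟩ : ∃ j : Fin n, j ≠ i := by
          haveI : Nontrivial (Fin n) := Fin.nontrivial_iff_two_le.2 hn
          exact exists_ne i
        have := hp.const_of_comp (g := fun t : I => L (1, Function.update y j t))
          (by fun_prop) (fun a a' => by
            rw [hL1, hL1, f.2 _ ⟨i, Or.inr (by simp [Function.update_of_ne hj.symm, hi])⟩,
              f.2 _ ⟨i, Or.inr (by simp [Function.update_of_ne hj.symm, hi])⟩]) (y j) 0
        simp only [Function.update_eq_self] at this
        rw [this]
        exact z0 _ j (by simp)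
    let F : GenLoop (Fin n) E e := ⟨⟨fun y => L (1, y), by fun_prop⟩, z1⟩
    have h2 := ContinuousMap.HomotopicRel.comp_continuousMap (hE e F) ⟨p, hp.continuous⟩
    have e1 : (⟨p, hp.continuous⟩ : C(E, X)).comp F.1 = f.1 := ContinuousMap.ext hL1
    rw [e1] at h2
    exact h2
  constructor
  intro a b
  induction a using Quotient.inductionOn with
  | h a =>
  induction b using Quotient.inductionOn with
  | h b => exact Quotient.sound ((key a).trans (key b).symm)

end Vale.Agent.P203
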