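import Vale.Agent.P203.TopA

/-! Part TopD: a contractible locally finite realization is simply connected. -/

namespace Vale.Agent.P203
open Classical unitInterval Topology

variable {P : Type} {le : P → P → Prop}

theorem real_simplyConnected (hfin : ∀ p, {q | le p q ∨ le q p}.Finite) (hwc : (SC.flag le).WC) :
    SimplyConnectedSpace (Realization le) := by
  have hs : ∀ n (x : Realization le), Subsingleton (HomotopyGroup.Pi n (Realization le) x) :=
    fun n x => ⟨fun a b => Quotient.inductionOn₂ a b fun f g => Quotient.sound
      ((real_loop hfin hwc n x f).trans (real_loop hfin hwc n x g).symm)⟩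
  obtain ⟨v, -⟩ := hwc.1
  have x0 : Realization le := ⟨Pi.single v 1, {v}, by simp, fun p => by
    by_cases h : p = v <;> simp [h], fun p hp => by
    simp only [Finset.mem_singleton] at hp; simp [hp], by simp⟩
  rw [simply_connected_iff_loops_nullhomotopic]
  refine ⟨⟨⟨x0⟩, fun x y => ?_⟩, fun x γ => ?_⟩
  · have := (homotopyGroupEquivZerothHomotopyOfIsEmpty (Fin 0) x0).symm.subsingleton_congr.2
      (hs 0 x0)
    exact Quotient.exact (@Subsingleton.elim _ this ⟦x⟧ ⟦y⟧)
  · have := (homotopyGroupEquivFundamentalGroupOfUnique (x := x) (Fin 1)).symm.subsingleton_congr.2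
      (hs 1 x)
    exact Quotient.exact (@Subsingleton.elim (Path.Homotopic.Quotient x x) this ⟦γ⟧ ⟦Path.refl x⟧)

end Vale.Agent.P203
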